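import Mathlib
import Vale.Agent.P109.Defs

/-! Calculus on compact pieces of chart domains. -/

namespace Vale.Agent.P109

open MeasureTheory Set Metric Module
open scoped ENNReal

open scoped Manifold ContDiff
variable {d : ℕ}

/-- Uniform bounds for a C^2 map with C^1 inverse on a compact set. -/
theorem c2_bounds {g g' : Eu d → Eu d} {D D' Kc : Set (Eu d)} (hg : ContDiffOn ℝ ∞ g D)
    (hg' : ContDiffOn ℝ ∞ g' D') (hD : UniqueDiffOn ℝ D) (hD' : UniqueDiffOn ℝ D')
    (hK : IsCompact Kc) (hKD : Kc ⊆ D) (hmaps : MapsTo g D D') (hinv : ∀ y ∈ D, g' (g y) = y) :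
    ∃ C : ℝ, 1 ≤ C ∧ ∀ y σ, ball y σ ⊆ Kc → ∀ y' ∈ ball y σ, DifferentiableAt ℝ g y' ∧
      (∀ v, ‖fderiv ℝ g y' v‖ ≤ C * ‖v‖ ∧ ‖v‖ ≤ C * ‖fderiv ℝ g y' v‖) ∧
      ∀ y'' ∈ ball y σ, ‖fderiv ℝ g y' - fderiv ℝ g y''‖ ≤ C * ‖y' - y''‖ := by
  have h1 := hg.fderivWithin (m := ∞) hD le_rfl
  obtain ⟨a, ha⟩ := hK.exists_bound_of_continuousOn (h1.continuousOn.mono hKD)
  obtain ⟨b, hb⟩ := hK.exists_bound_of_continuousOn (((hg'.continuousOn_fderivWithin hD'
    (by simp)).comp hg.continuousOn hmaps).mono hKD)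
  obtain ⟨c, hc⟩ := hK.exists_bound_of_continuousOn
    ((h1.continuousOn_fderivWithin hD (by simp)).mono hKD)
  refine ⟨max (max 1 a) (max b c), by simp, fun y σ hy y' hy' => ?_⟩
  have n : ∀ z ∈ ball y σ, D ∈ nhds z := fun z hz =>
    Filter.mem_of_superset (isOpen_ball.mem_nhds hz) (hy.trans hKD)
  have hy'D := hKD (hy hy')
  have dg := hg.differentiableOn (by simp) y' hy'D
  refine ⟨dg.differentiableAt (n _ hy'), fun v => ?_, fun y'' hy'' => ?_⟩
  · rw [← fderivWithin_of_mem_nhds (n _ hy')]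
    refine ⟨(ContinuousLinearMap.le_of_opNorm_le _ ((ha _ (hy hy')).trans (by simp)) v), ?_⟩
    have k := (hD y' hy'D).eq ((hg'.differentiableOn (by simp) _
      (hmaps hy'D)).hasFDerivWithinAt.comp y' dg.hasFDerivWithinAt hmaps)
        ((hasFDerivWithinAt_id y' D).congr hinv (hinv _ hy'D))
    exact (congrArg (fun L : Eu d →L[ℝ] Eu d => ‖L v‖) k).symm.le.trans
      (ContinuousLinearMap.le_of_opNorm_le _ ((hb _ (hy hy')).trans (by simp)) _)
  · rw [← fderivWithin_of_mem_nhds (n _ hy'), ← fderivWithin_of_mem_nhds (n _ hy'')]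
    exact (convex_ball y σ).norm_image_sub_le_of_norm_hasFDerivWithin_le (fun z hz =>
      (h1.differentiableOn (by simp) z (hKD (hy hz))).hasFDerivWithinAt.mono (hy.trans hKD))
        (fun z hz => (hc z (hy hz)).trans (by simp)) hy'' hy' 

variable {H : Type} [TopologicalSpace H] {I : ModelWithCorners ℝ (Eu d) H} {M : Type}
  [TopologicalSpace M] [ChartedSpace H M] [IsManifold I ∞ M] [CompactSpace M] [T2Space M]
  [MeasurableSpace M] [BorelSpace M] {ν : Measure M}

/-- The data attached to one point of the manifold. -/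
theorem chart_data (hν : HasSmoothPositiveDensity I M ν) (x : M) :
    ∃ e ∈ IsManifold.maximalAtlas I ∞ M, ∃ (Kc : Set (Eu d)) (ψ : M → ℝ) (O : Set M) (C : ℝ),
      IsCompact Kc ∧ Convex ℝ Kc ∧ (interior Kc).Nonempty ∧ Kc ⊆ (e.extend I).target ∧
      ContMDiff I 𝓘(ℝ, ℝ) ∞ ψ ∧ IsOpen O ∧ x ∈ O ∧ (∀ z ∈ O, 1 ≤ ψ z) ∧
      (∀ z, 0 < ψ z → z ∈ (e.extend I).symm '' Kc) ∧ 1 ≤ C ∧
      ∀ t, MeasurableSet t → t ⊆ Kc →
        ν ((e.extend I).symm '' t) ≤ ENNReal.ofReal C * volume t ∧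
        volume t ≤ ENNReal.ofReal C * ν ((e.extend I).symm '' t) := by
  obtain ⟨e, he, hx, g, hg, g0, hν⟩ := hν x
  obtain ⟨R, hR, hK⟩ := (nhdsWithin_hasBasis nhds_basis_closedBall _).mem_iff.1
    (e.extend_target_mem_nhdsWithin (I := I) hx)
  set c := e.extend I x
  have src : ∀ {z}, z ∈ e.source → z ∈ (e.extend I).source := fun h => by rwa [e.extend_source]
  have cpt : ∀ r, IsCompact (closedBall c r ∩ range I) := fun r =>
    (isCompact_closedBall c r).inter_right I.isClosed_range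
  have op : ∀ r, IsOpen (e.source ∩ e.extend I ⁻¹' ball c r) := fun r =>
    e.isOpen_extend_preimage isOpen_ball
  have im : ∀ r, ∀ z ∈ e.source ∩ e.extend I ⁻¹' ball c r,
      z ∈ (e.extend I).symm '' (closedBall c r ∩ range I) := fun r z hz =>
    ⟨_, ⟨ball_subset_closedBall hz.2, mem_range_self _⟩, (e.extend I).left_inv (src hz.1)⟩
  have sub : closedBall c (R / 2) ∩ range I ⊆ ball c R ∩ (e.extend I).target := fun y hy =>
    have := closedBall_subset_ball (half_lt_self hR) hy.1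
    ⟨this, hK ⟨ball_subset_closedBall this, hy.2⟩⟩
  obtain ⟨ψ, h0, h1, -⟩ := exists_contMDiffMap_zero_one_of_isClosed I (n := (⊤ : ℕ∞))
    (op R).isClosed_compl ((cpt (R / 2)).image_of_continuousOn
      (e.continuousOn_extend_symm.mono fun y hy => (sub hy).2)).isClosed (by
        rw [disjoint_right]
        rintro _ ⟨y, hy, rfl⟩ k
        exact k ⟨e.extend_source (I := I) ▸ (e.extend I).map_target (sub hy).2,
          by rw [mem_preimage, (e.extend I).right_inv (sub hy).2]; exact (sub hy).1⟩)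
  have hc : c ∈ closedBall c R ∩ range I := ⟨mem_closedBall_self hR.le, mem_range_self _⟩
  obtain ⟨a, ha, ha'⟩ := (cpt R).exists_isMinOn ⟨c, hc⟩ (hg.continuousOn.mono hK)
  obtain ⟨b, -, hb'⟩ := (cpt R).exists_isMaxOn ⟨c, hc⟩ (hg.continuousOn.mono hK)
  refine ⟨e, he, _, ψ, _, max 1 (max (g b) (g a)⁻¹), cpt R,
    (convex_closedBall c R).inter I.convex_range, ?_, hK, ψ.contMDiff, op (R / 2),
    ⟨hx, mem_ball_self (half_pos hR)⟩, fun z hz => (h1 (im _ z hz)).ge,
    fun z hz => im R z (by_contra fun k => hz.ne' (h0 k)), le_max_left _ _, fun t ht htK => ?_⟩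
  · obtain ⟨y, hy, hy'⟩ := Metric.mem_closure_iff.1 (I.range_subset_closure_interior hc.2) R hR
    exact ⟨y, by
      rw [interior_inter]
      exact ⟨ball_subset_interior_closedBall (mem_ball'.2 hy'), hy⟩⟩
  have ht' := htK.trans hK
  rw [hν _ (ht.image_of_continuousOn_injOn (e.continuousOn_extend_symm.mono ht')
    ((e.extend I).symm.injOn.mono ht')) (by
      rintro _ ⟨y, hy, rfl⟩
      exact e.extend_source (I := I) ▸ (e.extend I).map_target (ht' hy)),
    (e.extend I).image_symm_image_of_subset_target ht']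
  refine ⟨?_, ?_⟩
  · rw [← setLIntegral_const]
    exact setLIntegral_mono' ht fun y hy =>
      ENNReal.ofReal_le_ofReal ((hb' (htK hy)).trans (by simp))
  · rw [← lintegral_const_mul' _ _ ENNReal.ofReal_ne_top, ← setLIntegral_one]
    refine setLIntegral_mono' ht fun y hy => ?_
    rw [← ENNReal.ofReal_mul (by positivity), ENNReal.one_le_ofReal]
    have := g0 a (hK ha)
    exact (inv_mul_cancel₀ this.ne').ge.trans
      (mul_le_mul (by simp) (ha' (htK hy)) this.le (by positivity))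

theorem chart_lip {e : OpenPartialHomeomorph M H} (he : e ∈ IsManifold.maximalAtlas I ∞ M)
    {Kc : Set (Eu d)} (hc : IsCompact Kc) (hv : Convex ℝ Kc) (hK : Kc ⊆ (e.extend I).target)
    {ψ : M → ℝ} (hψ : ContMDiff I 𝓘(ℝ, ℝ) ∞ ψ) :
    ∃ C : ℝ, ∀ y ∈ Kc, ∀ y' ∈ Kc,
      |ψ ((e.extend I).symm y) - ψ ((e.extend I).symm y')| ≤ C * ‖y - y'‖ := by
  obtain ⟨C, hC⟩ := (contMDiffOn_iff_contDiffOn.1 (hψ.comp_contMDiffOn ((contMDiffOn_extend_symm
    he).mono (e.extend_target' (I := I) ▸ hK)))).exists_lipschitzOnWith (by simp) hv hc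
  exact ⟨C, fun y hy y' hy' => hC.norm_sub_le hy hy'⟩

omit [IsManifold I ∞ M] [CompactSpace M] [T2Space M] [MeasurableSpace M] [BorelSpace M] in
theorem chart_aux {S : M → M} (hS : ContMDiff I I ∞ S) {e e' : OpenPartialHomeomorph M H}
    (he : e ∈ IsManifold.maximalAtlas I ∞ M) (he' : e' ∈ IsManifold.maximalAtlas I ∞ M) :
    ContDiffOn ℝ ∞ (e'.extend I ∘ S ∘ (e.extend I).symm)
      ((e.extend I).target ∩ (S ∘ (e.extend I).symm) ⁻¹' e'.source) ∧
    UniqueDiffOn ℝ ((e.extend I).target ∩ (S ∘ (e.extend I).symm) ⁻¹' e'.source) := by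
  refine ⟨contMDiffOn_iff_contDiffOn.1 ((e'.contMDiffOn_extend he').comp (hS.comp_contMDiffOn
    ((contMDiffOn_extend_symm he).mono (e.extend_target' (I := I) ▸ inter_subset_left)))
      inter_subset_right), ?_⟩
  have := I.uniqueDiffOn_preimage
    (e.isOpen_inter_preimage_symm (e'.open_source.preimage hS.continuous))
  rwa [preimage_inter, inter_right_comm, ← e.extend_target] at this

theorem chart_loc (S : Diffeomorph I I M M ∞) {e e' : OpenPartialHomeomorph M H}
    (he : e ∈ IsManifold.maximalAtlas I ∞ M) (he' : e' ∈ IsManifold.maximalAtlas I ∞ M)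
    {Kc Kc' : Set (Eu d)} (hc : IsCompact Kc) (hc' : IsCompact Kc')
    (hK : Kc ⊆ (e.extend I).target) (hK' : Kc' ⊆ (e'.extend I).target) :
    ∃ C : ℝ, 1 ≤ C ∧ ∀ y σ, ball y σ ⊆ Kc →
      (∀ y' ∈ ball y σ, S ((e.extend I).symm y') ∈ (e'.extend I).symm '' Kc') →
      ∀ y' ∈ ball y σ, DifferentiableAt ℝ (e'.extend I ∘ S ∘ (e.extend I).symm) y' ∧
        (∀ v, ‖fderiv ℝ (e'.extend I ∘ S ∘ (e.extend I).symm) y' v‖ ≤ C * ‖v‖ ∧
          ‖v‖ ≤ C * ‖fderiv ℝ (e'.extend I ∘ S ∘ (e.extend I).symm) y' v‖) ∧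
        ∀ y'' ∈ ball y σ, ‖fderiv ℝ (e'.extend I ∘ S ∘ (e.extend I).symm) y' -
          fderiv ℝ (e'.extend I ∘ S ∘ (e.extend I).symm) y''‖ ≤ C * ‖y' - y''‖ := by
  have hc'' : IsCompact (Kc ∩ (S ∘ (e.extend I).symm) ⁻¹' ((e'.extend I).symm '' Kc')) :=
    hc.of_isClosed_subset ((S.continuous.comp_continuousOn (e.continuousOn_extend_symm.mono
      hK)).preimage_isClosed_of_isClosed hc.isClosed (hc'.image_of_continuousOn
        (e'.continuousOn_extend_symm.mono hK')).isClosed) inter_subset_left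
  obtain ⟨h1, h2⟩ := chart_aux S.contMDiff he he'
  obtain ⟨h3, h4⟩ := chart_aux S.symm.contMDiff he' he
  have src : ∀ {e : OpenPartialHomeomorph M H} {z}, z ∈ e.source → z ∈ (e.extend I).source :=
    fun {e z} h => by rwa [e.extend_source]
  obtain ⟨C, hC, h⟩ := c2_bounds h1 h3 h2 h4 hc'' (by
      rintro y ⟨hy, y', hy', k⟩
      rw [mem_inter_iff, mem_preimage, ← k, ← e'.extend_source (I := I)]
      exact ⟨hK hy, (e'.extend I).map_target (hK' hy')⟩)
    (fun y hy => ⟨(e'.extend I).map_source (src hy.2), by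
      rw [mem_preimage, Function.comp_apply, Function.comp_apply, Function.comp_apply,
        (e'.extend I).left_inv (x := S _) (src hy.2), S.symm_apply_apply]
      exact e.extend_source (I := I) ▸ (e.extend I).map_target hy.1⟩)
    (fun y hy => by
      simp only [Function.comp_apply]
      rw [(e'.extend I).left_inv (x := S _) (src hy.2), S.symm_apply_apply, (e.extend I).right_inv hy.1])
  exact ⟨C, hC, fun y σ k k' => h y σ fun z hz => ⟨k hz, k' z hz⟩⟩

end Vale.Agent.P109
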