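import Mathlib
import Vale.Agent.P109.Chart

/-! Existence of a finite atlas, separation of the chart domains, generic levels. -/

namespace Vale.Agent.P109

open MeasureTheory Set Metric Module
open scoped ENNReal

open scoped Manifold ContDiff
variable {d : ℕ}

theorem atlas_exists {H : Type} [TopologicalSpace H] {I : ModelWithCorners ℝ (Eu d) H} {M : Type}
    [TopologicalSpace M] [ChartedSpace H M] [IsManifold I ∞ M] [CompactSpace M] [T2Space M]
    [MeasurableSpace M] [BorelSpace M] [Nonempty M] {ν : Measure M}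
    (hν : HasSmoothPositiveDensity I M ν) (S : Diffeomorph I I M M ∞) :
    Nonempty (Atlas d ν S) := by
  classical
  choose e he K ψ O C h1 h2 h3 h4 h5 h6 h7 h8 h9 h10 h11 using chart_data hν
  obtain ⟨t, -, ht⟩ := isCompact_univ.elim_nhds_subcover O fun x _ => (h6 x).mem_nhds (h7 x)
  let p : Fin t.card → M := fun i => t.equivFin.symm i
  choose c1 hc1 using fun i k => chart_lip (he i) (h1 i) (h2 i) (h4 i) (h5 k)
  choose c2 hc2 using fun i k => chart_lip (he i) (h1 i) (h2 i) (h4 i) ((h5 k).comp S.contMDiff)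
  choose c3 _ hc3 using fun i k => chart_loc S (he i) (he k) (h1 i) (h1 k) (h4 i) (h4 k)
  obtain ⟨B, hB⟩ := (finite_range fun q : Fin t.card × Fin t.card => max (max (C (p q.1))
    (c1 (p q.1) (p q.2))) (max (c2 (p q.1) (p q.2)) (c3 (p q.1) (p q.2)))).bddAbove
  have hB' := fun i k => (hB ⟨(i, k), rfl⟩).trans (le_max_right 1 B)
  simp only [max_le_iff] at hB'
  have cs := fun x => (e x).continuousOn_extend_symm.mono (h4 x)
  have mW := fun x => ((h1 x).image_of_continuousOn (cs x)).isClosed.measurableSet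
  let φ := fun x => (((e x).extend I).symm '' K x).piecewise ((e x).extend I) fun _ => 0
  let φi := fun x => (K x).piecewise ((e x).extend I).symm fun _ => x
  have e1 : ∀ x, ∀ y ∈ K x, φi x y = ((e x).extend I).symm y := fun x y => piecewise_eq_of_mem _ _ _
  have e2 : ∀ x, ∀ s ⊆ K x, φi x '' s = ((e x).extend I).symm '' s := fun x s hs =>
    image_congr fun y hy => e1 x y (hs hy)
  refine ⟨{ n := t.card
            φ := fun i => φ (p i)
            φi := fun i => φi (p i)
            K := fun i => K (p i)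
            ψ := fun i => ψ (p i)
            C := max 1 B
            one_le := le_max_left _ _
            K_cpt := fun i => h1 _
            K_cvx := fun i => h2 _
            K_int := fun i => h3 _
            meas_φ := fun i => ContinuousOn.measurable_piecewise ((e _).continuousOn_extend.mono
              (image_subset_iff.2 fun y hy => ((e _).extend I).map_target (h4 _ hy)))
              continuousOn_const (mW _)
            meas_φi := fun i => (cs _).measurable_piecewise continuousOn_const (h1 _).measurableSet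
            meas_ψ := fun i => (h5 _).continuous.measurable
            meas_W := fun i => e2 _ _ subset_rfl ▸ mW _
            right_inv := fun i y hy => ?_
            supp := fun i z hz => e2 _ _ subset_rfl ▸ h9 _ z hz
            cover := fun z => ?_
            le_vol := fun i s hs hs' => e2 _ _ hs' ▸ (h11 _ s hs hs').1.trans
              (mul_le_mul_left (ENNReal.ofReal_le_ofReal (hB' i i).1.1) _)
            vol_le := fun i s hs hs' => e2 _ _ hs' ▸ (h11 _ s hs hs').2.trans
              (mul_le_mul_left (ENNReal.ofReal_le_ofReal (hB' i i).1.1) _)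
            lip := fun i k y hy y' hy' => ?_
            loc := fun i j y σ k k' y' hy' => ?_ }⟩
  · rw [e1 _ y hy]
    exact (piecewise_eq_of_mem _ _ _ (mem_image_of_mem _ hy)).trans
      (((e _).extend I).right_inv (h4 _ hy))
  · obtain ⟨x, hx, hz⟩ := mem_iUnion₂.1 (ht (mem_univ z))
    exact ⟨t.equivFin ⟨x, hx⟩, by simpa [p] using h8 x z hz⟩
  · rw [e1 _ y hy, e1 _ y' hy']
    exact ⟨(hc1 _ _ y hy y' hy').trans (mul_le_mul_of_nonneg_right (hB' i k).1.2 (norm_nonneg _)),
      (hc2 _ _ y hy y' hy').trans (mul_le_mul_of_nonneg_right (hB' i k).2.1 (norm_nonneg _))⟩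
  · have k'' : ∀ z ∈ ball y σ, S (((e (p i)).extend I).symm z) ∈
        ((e (p j)).extend I).symm '' K (p j) := fun z hz => by
      rw [← e1 _ z (k hz), ← e2 _ _ subset_rfl]
      exact k' z hz
    have ev : ∀ z ∈ ball y σ, φ (p j) ∘ S ∘ φi (p i) =ᶠ[nhds z]
        (e (p j)).extend I ∘ S ∘ ((e (p i)).extend I).symm := fun z hz => by
      filter_upwards [isOpen_ball.mem_nhds hz] with w hw
      simp only [Function.comp_apply]
      rw [e1 _ w (k hw)]
      exact piecewise_eq_of_mem _ _ _ (k'' w hw)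
    obtain ⟨a1, a2, a3⟩ := hc3 (p i) (p j) y σ k k'' y' hy'
    have m := fun (a : ℝ) (ha : 0 ≤ a) => mul_le_mul_of_nonneg_right (hB' i j).2.2 ha
    rw [(ev y' hy').fderiv_eq]
    refine ⟨a1.congr_of_eventuallyEq (ev y' hy'), fun v => ⟨(a2 v).1.trans (m _ (norm_nonneg _)),
      (a2 v).2.trans (m _ (norm_nonneg _))⟩, fun y'' hy'' => ?_⟩
    rw [(ev y'' hy'').fderiv_eq]
    exact (a3 y'' hy'').trans (m _ (norm_nonneg _))

theorem Atlas.sep {M : Type*} [MeasurableSpace M] {ν : Measure M} {S : M → M} (𝒜 : Atlas d ν S)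
    (hd : d ≠ 0) : ∃ 𝒜' : Atlas d ν S, Pairwise fun i j => Disjoint (𝒜'.K i) (𝒜'.K j) := by
  obtain ⟨ρ, hρ, hK⟩ := (isCompact_iUnion 𝒜.K_cpt).isBounded.subset_closedBall_lt 0 0
  let v : Fin 𝒜.n → Eu d := fun i =>
    EuclideanSpace.single ⟨0, Nat.pos_of_ne_zero hd⟩ (3 * ρ * ((i : ℕ) : ℝ))
  have e1 : ∀ i (s : Set (Eu d)), (fun y => 𝒜.φi i (y + v i)) '' s =
      𝒜.φi i '' ((fun y => y + -v i) ⁻¹' s) := fun i s => by
    rw [← image_add_right, image_image]
  have e2 : ∀ i, (fun y => 𝒜.φi i (y + v i)) '' ((fun y => y + v i) ⁻¹' 𝒜.K i) =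
      𝒜.φi i '' 𝒜.K i := fun i => by
    rw [e1, preimage_preimage]
    simp
  have e3 : ∀ i (s : Set (Eu d)), s ⊆ (fun y => y + v i) ⁻¹' 𝒜.K i →
      (fun y => y + -v i) ⁻¹' s ⊆ 𝒜.K i := fun i s hs y hy => by simpa using hs hy
  refine ⟨{ n := 𝒜.n
            φ := fun i z => 𝒜.φ i z - v i
            φi := fun i y => 𝒜.φi i (y + v i)
            K := fun i => (fun y => y + v i) ⁻¹' 𝒜.K i
            ψ := 𝒜.ψ
            C := 𝒜.C
            one_le := 𝒜.one_le
            K_cpt := fun i => (Homeomorph.addRight (v i)).isCompact_preimage.2 (𝒜.K_cpt i)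
            K_cvx := fun i => (𝒜.K_cvx i).translate_preimage_left _
            K_int := fun i => (Homeomorph.addRight (v i)).preimage_interior (𝒜.K i) ▸
              (𝒜.K_int i).preimage (Homeomorph.addRight (v i)).surjective
            meas_φ := fun i => (𝒜.meas_φ i).sub_const _
            meas_φi := fun i => (𝒜.meas_φi i).comp (measurable_add_const _)
            meas_ψ := 𝒜.meas_ψ
            meas_W := fun i => e2 i ▸ 𝒜.meas_W i
            right_inv := fun i y hy => by rw [𝒜.right_inv i _ hy, add_sub_cancel_right]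
            supp := fun i z hz => e2 i ▸ 𝒜.supp i z hz
            cover := 𝒜.cover
            le_vol := fun i s hs hs' => by
              rw [e1, ← measure_preimage_add_right volume (-v i) s]
              exact 𝒜.le_vol i _ (measurable_add_const _ hs) (e3 i s hs')
            vol_le := fun i s hs hs' => by
              rw [e1, ← measure_preimage_add_right volume (-v i) s]
              exact 𝒜.vol_le i _ (measurable_add_const _ hs) (e3 i s hs')
            lip := fun i k y hy y' hy' => by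
              simpa only [add_sub_add_right_eq_sub] using 𝒜.lip i k _ hy _ hy'
            loc := fun i j y σ k k' y' hy' => ?_ }, fun i j hij => ?_⟩
  · have b : ∀ z ∈ ball (y + v i) σ, z - v i ∈ ball y σ := fun z hz => by
      rwa [mem_ball_iff_norm, sub_sub, add_comm, ← mem_ball_iff_norm]
    have b' : ∀ z ∈ ball y σ, z + v i ∈ ball (y + v i) σ := fun z hz => by simpa using hz
    obtain ⟨a1, a2, a3⟩ := 𝒜.loc i j (y + v i) σ (fun z hz => by simpa using k (b z hz))
      (fun z hz => by simpa [e2] using k' _ (b z hz)) _ (b' y' hy')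
    have f : ∀ z, fderiv ℝ ((fun z => 𝒜.φ j z - v j) ∘ S ∘ fun y => 𝒜.φi i (y + v i)) z =
        fderiv ℝ (𝒜.φ j ∘ S ∘ 𝒜.φi i) (z + v i) := fun z =>
      (fderiv_sub_const _).trans (fderiv_comp_add_right (f := 𝒜.φ j ∘ S ∘ 𝒜.φi i) _)
    simp only [f]
    exact ⟨((differentiableAt_comp_add_right _).2 a1).sub_const _, a2, fun y'' hy'' => by
      simpa only [add_sub_add_right_eq_sub] using a3 _ (b' y'' hy'')⟩
  · refine disjoint_left.2 fun y hi hj => ?_
    have := (dist_triangle_right _ _ _).trans (add_le_add (hK (mem_iUnion.2 ⟨i, hi⟩))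
      (hK (mem_iUnion.2 ⟨j, hj⟩)))
    rw [dist_add_left, PiLp.dist_single_same, Real.dist_eq, ← mul_sub, abs_mul,
      abs_of_pos (by positivity)] at this
    have h1 : (1 : ℝ) ≤ |((i : ℕ) : ℝ) - (j : ℕ)| := by
      exact_mod_cast Int.one_le_abs (sub_ne_zero.2 fun k : ((i : ℕ) : ℤ) = (j : ℕ) =>
        hij (Fin.ext (by exact_mod_cast k)))
    nlinarith

theorem exists_level {M : Type*} [MeasurableSpace M] (ν : Measure M) [IsProbabilityMeasure ν]
    {ψ : M → ℝ} (hψ : Measurable ψ) : ∃ t : ℝ, 0 < t ∧ t < 1 ∧ ∃ C : ℝ, 0 ≤ C ∧ ∀ s : ℝ, 0 < s →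
      ν.real {z | |ψ z - t| ≤ s} ≤ C * √s := by
  let A : ℕ → Set (ℝ × M) := fun n => {p | |ψ p.2 - p.1| ≤ (1 / 4) ^ n}
  have hA : ∀ n, MeasurableSet (A n) := fun n =>
    measurableSet_le ((hψ.comp measurable_snd).sub measurable_fst).abs measurable_const
  have hm : ∀ n, Measurable fun t => 2 ^ n * ν (Prod.mk t ⁻¹' A n) := fun n =>
    (measurable_measure_prodMk_left (hA n)).const_mul _
  have hI : ∀ n, ∫⁻ t, 2 ^ n * ν (Prod.mk t ⁻¹' A n) = 2 * 2⁻¹ ^ n := fun n => by
    have : ∀ z, volume ((fun t => (t, z)) ⁻¹' A n) = ENNReal.ofReal (2 * (1 / 4) ^ n) := fun z => by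
      rw [← Real.volume_closedBall (ψ z)]
      congr 1
      ext t
      simp [A, Real.dist_eq, abs_sub_comm]
    rw [lintegral_const_mul _ (measurable_measure_prodMk_left (hA n)), ← Measure.prod_apply (hA n),
      Measure.prod_apply_symm (hA n)]
    simp only [this, lintegral_const, measure_univ, mul_one]
    rw [ENNReal.ofReal_mul zero_le_two, ENNReal.ofReal_pow (by norm_num), mul_left_comm, ← mul_pow,
      show (1 / 4 : ℝ) = 2⁻¹ * 2⁻¹ by norm_num, ENNReal.ofReal_mul (by norm_num),
      ENNReal.ofReal_inv_of_pos two_pos, ENNReal.ofReal_ofNat, ← mul_assoc,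
      ENNReal.mul_inv_cancel (by norm_num) (by norm_num), one_mul]
  have h1 := ae_lt_top (μ := volume) (Measurable.tsum hm) (by
    rw [lintegral_tsum fun n => (hm n).aemeasurable]
    simp only [hI, ENNReal.tsum_mul_left, ENNReal.tsum_geometric]
    exact ENNReal.mul_ne_top (by norm_num) (by simp))
  obtain ⟨t, ht, h2⟩ := Measure.exists_mem_of_measure_ne_zero_of_ae (μ := volume)
    (s := Ioo (0 : ℝ) 1) (by simp) (ae_restrict_of_ae h1)
  refine ⟨t, ht.1, ht.2, 2 * (∑' n, 2 ^ n * ν (Prod.mk t ⁻¹' A n)).toReal + 1, by positivity,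
    fun s hs => ?_⟩
  have c0 := ENNReal.toReal_nonneg (a := ∑' n, 2 ^ n * ν (Prod.mk t ⁻¹' A n))
  rcases le_total s 1 with k | k
  · obtain ⟨n, k1, k2⟩ := exists_nat_pow_near_of_lt_one hs k (y := 1 / 4) (by norm_num) (by norm_num)
    have k3 := ENNReal.toReal_mono h2.ne (ENNReal.le_tsum n)
    rw [ENNReal.toReal_mul, ENNReal.toReal_pow, ENNReal.toReal_ofNat] at k3
    have k4 : ν.real {z | |ψ z - t| ≤ s} ≤ (ν (Prod.mk t ⁻¹' A n)).toReal :=
      measureReal_mono fun z hz => le_trans hz k2
    have k5 : (1 / 2 : ℝ) ^ (n + 1) ≤ √s := Real.le_sqrt_of_sq_le (by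
      rw [← pow_mul, mul_comm, pow_mul]
      exact le_trans (by norm_num) k1.le)
    have k6 : (1 / 2 : ℝ) ^ (n + 1) * 2 ^ n * 2 = 1 := by
      rw [mul_assoc, ← pow_succ, ← mul_pow]
      norm_num
    have k7 := mul_le_mul k5 k3 (by positivity) (Real.sqrt_nonneg s)
    have k8 := Real.sqrt_nonneg s
    calc _ ≤ _ := k4
      _ = 2 * ((1 / 2 : ℝ) ^ (n + 1) * (2 ^ n * (ν (Prod.mk t ⁻¹' A n)).toReal)) := by
        linear_combination (-(ν (Prod.mk t ⁻¹' A n)).toReal) * k6
      _ ≤ _ := by nlinarith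
  · have := Real.one_le_sqrt.2 k
    exact measureReal_le_one.trans (by nlinarith)

end Vale.Agent.P109
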