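import Mathlib
import Vale.Agent.P109.Defs

/-! Elementary properties of cocycles and names. -/

namespace Vale.Agent.P109

open MeasureTheory Set Metric Module
open scoped ENNReal

variable {d : ℕ} {Ω : Type*}

theorem coc_zero (A : Ω → Eu d ≃L[ℝ] Eu d) (S : Ω → Ω) (z : Ω) (v : Eu d) :
    coc A S z 0 v = v := rfl

theorem coc_succ (A : Ω → Eu d ≃L[ℝ] Eu d) (S : Ω → Ω) (z : Ω) (t : ℕ) (v : Eu d) :
    coc A S z (t + 1) v = A (S^[t] z) (coc A S z t v) := rfl

theorem coc_add (A : Ω → Eu d ≃L[ℝ] Eu d) (S : Ω → Ω) (z : Ω) (s t : ℕ) :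
    coc A S z (s + t) = (coc A S z s).trans (coc A S (S^[s] z) t) := by
  induction t with
  | zero => exact ContinuousLinearEquiv.ext (funext fun v => rfl)
  | succ t ih =>
    refine ContinuousLinearEquiv.ext (funext fun v => ?_)
    have h1 : coc A S z (s + (t + 1)) v = A (S^[s + t] z) (coc A S z (s + t) v) := rfl
    rw [h1, ih, add_comm s t, Function.iterate_add_apply]
    rfl

theorem coc_add_apply (A : Ω → Eu d ≃L[ℝ] Eu d) (S : Ω → Ω) (z : Ω) (s t : ℕ) (v : Eu d) :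
    coc A S z (s + t) v = coc A S (S^[s] z) t (coc A S z s v) := by
  rw [coc_add]; rfl

theorem symm_trans_coc (A : Ω → Eu d ≃L[ℝ] Eu d) (S : Ω → Ω) (z : Ω) (s t : ℕ) :
    (coc A S z s).symm.trans (coc A S z (s + t)) = coc A S (S^[s] z) t := by
  refine ContinuousLinearEquiv.ext (funext fun v => ?_)
  simp [coc_add_apply]

theorem coc_le {A : Ω → Eu d ≃L[ℝ] Eu d} {L : ℝ} (hL : 0 ≤ L) (hA : ∀ z v, ‖A z v‖ ≤ L * ‖v‖)
    (S : Ω → Ω) (z : Ω) (t : ℕ) (v : Eu d) : ‖coc A S z t v‖ ≤ L ^ t * ‖v‖ := by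
  induction t with
  | zero => simp [coc_zero]
  | succ t ih =>
    rw [coc_succ, pow_succ', mul_assoc]
    exact (hA _ _).trans (mul_le_mul_of_nonneg_left ih hL)

theorem le_coc {A : Ω → Eu d ≃L[ℝ] Eu d} {L : ℝ} (hL : 0 ≤ L) (hA : ∀ z v, ‖v‖ ≤ L * ‖A z v‖)
    (S : Ω → Ω) (z : Ω) (t : ℕ) (v : Eu d) : ‖v‖ ≤ L ^ t * ‖coc A S z t v‖ := by
  induction t with
  | zero => simp [coc_zero]
  | succ t ih =>
    rw [coc_succ, pow_succ, mul_assoc]
    exact ih.trans (mul_le_mul_of_nonneg_left (hA _ _) (pow_nonneg hL _))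

theorem measurable_coc [MeasurableSpace Ω] {A : Ω → Eu d ≃L[ℝ] Eu d} {S : Ω → Ω}
    (hS : Measurable S) (hA : Measurable fun z => (A z : Eu d →L[ℝ] Eu d)) (t : ℕ) :
    Measurable fun z => (coc A S z t : Eu d →L[ℝ] Eu d) := by
  induction t with
  | zero => exact measurable_const (a := ContinuousLinearMap.id ℝ (Eu d))
  | succ t ih =>
    have h : (fun z => (coc A S z (t + 1) : Eu d →L[ℝ] Eu d)) =
        fun z => (A (S^[t] z) : Eu d →L[ℝ] Eu d) * (coc A S z t : Eu d →L[ℝ] Eu d) := by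
      funext z; ext1 v; rfl
    rw [h]
    exact (hA.comp (hS.iterate t)).mul ih

theorem PW.semi_iter [MeasurableSpace Ω] {ν : Measure Ω} {S : Ω → Ω} (P : PW d ν S) (t : ℕ)
    (z : Ω) : P.f^[t] (P.Θ z) = P.Θ (S^[t] z) := by
  induction t with
  | zero => rfl
  | succ t ih => rw [Function.iterate_succ_apply', Function.iterate_succ_apply', ih, P.semi]

theorem name_eq_iff {α : Type*} (S : Ω → Ω) (sym : Ω → α) (l n : ℕ) (z z' : Ω) :
    name S sym l n z = name S sym l n z' ↔ ∀ j < n, sym (S^[l * j] z) = sym (S^[l * j] z') := by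
  constructor
  · intro h j hj
    exact congrFun h ⟨j, hj⟩
  · intro h
    funext j
    exact h j j.2

theorem PW.itin_eq_iff [MeasurableSpace Ω] {ν : Measure Ω} {S : Ω → Ω} (P : PW d ν S) (h N : ℕ)
    (z z' : Ω) : P.itin h N z = P.itin h N z' ↔
      ∀ t < N, box ((1 / 2 : ℝ) ^ h) (P.Θ (S^[t] z)) = box ((1 / 2 : ℝ) ^ h) (P.Θ (S^[t] z')) := by
  unfold PW.itin
  rw [name_eq_iff]
  simp only [one_mul]

end Vale.Agent.P109
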