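import Mathlib
import Vale.Agent.P109.Defs

/-! Finite random variables and the Gibbs inequality. -/

namespace Vale.Agent.P109

open MeasureTheory Set Metric Module
open scoped ENNReal

variable {Ω Ω' α β γ : Type*} [MeasurableSpace Ω] [MeasurableSpace Ω'] {ν : Measure Ω}

theorem FinRV.measurableSet_preimage {X : Ω → α} (hX : FinRV X) (s : Set α) :
    MeasurableSet (X ⁻¹' s) := by
  have e : X ⁻¹' s = ⋃ a ∈ range X ∩ s, X ⁻¹' {a} := by
    ext z
    simp only [mem_preimage, mem_iUnion, mem_inter_iff, mem_singleton_iff, exists_prop]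
    exact ⟨fun h => ⟨X z, ⟨mem_range_self z, h⟩, rfl⟩, fun ⟨a, h, e⟩ => e ▸ h.2⟩
  rw [e]
  exact (hX.1.inter_of_left s).measurableSet_biUnion fun a _ => hX.2 a

theorem FinRV.const (a : α) : FinRV (fun _ : Ω => a) :=
  ⟨(finite_singleton a).subset range_const_subset, fun b => by
    by_cases h : a = b
    · simp [h]
    · have : (fun _ : Ω => a) ⁻¹' {b} = ∅ := by
        ext z
        simp [h]
      rw [this]
      exact MeasurableSet.empty⟩

theorem FinRV.prod {X : Ω → α} {Y : Ω → β} (hX : FinRV X) (hY : FinRV Y) :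
    FinRV (fun z => (X z, Y z)) := by
  refine ⟨(hX.1.prod hY.1).subset ?_, fun p => ?_⟩
  · rintro _ ⟨z, rfl⟩
    exact ⟨mem_range_self z, mem_range_self z⟩
  · have : (fun z => (X z, Y z)) ⁻¹' {p} = X ⁻¹' {p.1} ∩ Y ⁻¹' {p.2} := by
      ext z
      simp [Prod.ext_iff]
    rw [this]
    exact (hX.2 _).inter (hY.2 _)

theorem FinRV.comp {X : Ω → α} (hX : FinRV X) (g : α → β) : FinRV (fun z => g (X z)) := by
  refine ⟨(hX.1.image g).subset ?_, fun b => hX.measurableSet_preimage (g ⁻¹' {b})⟩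
  rintro _ ⟨z, rfl⟩
  exact ⟨X z, mem_range_self z, rfl⟩

/-- A set determined by a finite random variable is measurable. -/
theorem FinRV.measurableSet_of_det {X : Ω → α} (hX : FinRV X) {s : Set Ω}
    (hs : ∀ z z', X z = X z' → z ∈ s → z' ∈ s) : MeasurableSet s := by
  have e : s = X ⁻¹' (X '' s) :=
    Subset.antisymm (subset_preimage_image X s) fun z ⟨z', h, e⟩ => hs z' z e h
  rw [e]
  exact hX.measurableSet_preimage _

theorem FinRV.of_refines {X : Ω → α} {Y : Ω → β} (hX : FinRV X) (h : Refines X Y) : FinRV Y := by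
  refine ⟨?_, fun b => hX.measurableSet_of_det fun z z' e hz => (h z z' e).symm.trans hz⟩
  have : Finite (range X) := hX.1
  refine (finite_range fun a : range X => Y a.2.choose).subset ?_
  rintro _ ⟨z, rfl⟩
  exact ⟨⟨X z, mem_range_self z⟩, h _ _ (mem_range_self (f := X) z).choose_spec⟩

theorem FinRV.precomp {X : Ω → α} (hX : FinRV X) {T : Ω' → Ω} (hT : Measurable T) :
    FinRV (fun z => X (T z)) := by
  refine ⟨hX.1.subset ?_, fun a => hT (hX.2 a)⟩
  rintro _ ⟨z, rfl⟩
  exact mem_range_self _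

theorem FinRV.pi {ι : Type*} [Finite ι] {X : ι → Ω → α} (hX : ∀ i, FinRV (X i)) :
    FinRV (fun z i => X i z) := by
  refine ⟨(Set.Finite.pi' fun i => (hX i).1).subset ?_, fun p => ?_⟩
  · rintro _ ⟨z, rfl⟩ i
    exact mem_range_self z
  · have : (fun z i => X i z) ⁻¹' {p} = ⋂ i, X i ⁻¹' {p i} := by
      ext z
      simp [funext_iff]
    rw [this]
    exact MeasurableSet.iInter fun i => (hX i).2 _

theorem FinRV.of_measurable [MeasurableSpace α] [MeasurableSingletonClass α] {X : Ω → α}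
    (hX : Measurable X) (hfin : (range X).Finite) : FinRV X :=
  ⟨hfin, fun a => hX (measurableSet_singleton a)⟩

theorem FinRV.of_set {s : Set Ω} (hs : MeasurableSet s) : FinRV (fun z => z ∈ s) :=
  FinRV.of_measurable hs.mem (toFinite _)

theorem FinRV.name {S : Ω → Ω} (hS : Measurable S) {sym : Ω → α} (h : FinRV sym) (l n : ℕ) :
    FinRV (name S sym l n) :=
  FinRV.pi (X := fun (j : Fin n) z => sym (S^[l * j] z)) fun _ => h.precomp (hS.iterate _)

theorem finrv_repr {X : Ω → α} (hX : FinRV X) (g : α → ℝ) :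
    (fun z => g (X z)) =
      fun z => ∑ a ∈ hX.1.toFinset, (X ⁻¹' {a}).indicator (fun _ => g a) z := by
  funext z
  rw [Finset.sum_eq_single_of_mem (X z) (by simp)]
  · simp
  · intro b _ hb
    exact indicator_of_notMem (fun h => hb h.symm) _

theorem FinRV.integrable [IsFiniteMeasure ν] {X : Ω → α} (hX : FinRV X) (g : α → ℝ) :
    Integrable (fun z => g (X z)) ν := by
  rw [finrv_repr hX g]
  exact integrable_finsetSum _ fun a _ => (integrable_const _).indicator (hX.2 a)

theorem finrv_integral [IsFiniteMeasure ν] {X : Ω → α} (hX : FinRV X) (g : α → ℝ) :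
    ∫ z, g (X z) ∂ν = ∑ a ∈ hX.1.toFinset, ν.real (X ⁻¹' {a}) * g a := by
  rw [finrv_repr hX g, integral_finsetSum _ fun a _ => (integrable_const _).indicator (hX.2 a)]
  exact Finset.sum_congr rfl fun a _ => by rw [integral_indicator_const _ (hX.2 a), smul_eq_mul]

theorem finrv_setIntegral [IsFiniteMeasure ν] {X : Ω → α} (hX : FinRV X) (g : α → ℝ)
    (s : Set Ω) :
    ∫ z in s, g (X z) ∂ν = ∑ a ∈ hX.1.toFinset, ν.real (s ∩ X ⁻¹' {a}) * g a := by
  rw [finrv_integral hX g]
  exact Finset.sum_congr rfl fun a _ => by rw [measureReal_restrict_apply (hX.2 a), inter_comm]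

theorem FinRV.setIntegral_eq [IsFiniteMeasure ν] {X : Ω → α} (hX : FinRV X) (g : α → ℝ)
    {s : Set Ω} (hs : MeasurableSet s) :
    ∫ z in s, g (X z) ∂ν = ∑ a ∈ hX.1.toFinset, ν.real (s ∩ X ⁻¹' {a}) * g a :=
  have _ := hs
  finrv_setIntegral hX g s

theorem FinRV.sum_measure [IsFiniteMeasure ν] {X : Ω → α} (hX : FinRV X) (s : Set Ω) :
    ∑ a ∈ hX.1.toFinset, ν.real (s ∩ X ⁻¹' {a}) = ν.real s := by
  have h := finrv_setIntegral (ν := ν) hX (fun _ => 1) s
  simp only [mul_one] at h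
  rw [← h]
  simp

theorem FinRV.sum_measure_le [IsFiniteMeasure ν] {X : Ω → α} (hX : FinRV X) (s : Set Ω)
    (t : Finset α) : ∑ a ∈ t, ν.real (s ∩ X ⁻¹' {a}) ≤ ν.real s := by
  classical
  rw [← hX.sum_measure s, ← Finset.sum_subset (Finset.inter_subset_left (s₂ := hX.1.toFinset))]
  · exact Finset.sum_le_sum_of_subset_of_nonneg Finset.inter_subset_right
      fun _ _ _ => measureReal_nonneg
  · intro a ha ha'
    have : X ⁻¹' {a} = ∅ := by
      ext z
      simp only [mem_preimage, mem_singleton_iff, mem_empty_iff_false, iff_false]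
      rintro rfl
      exact ha' (Finset.mem_inter.2 ⟨ha, by simp⟩)
    simp [this]

theorem FinRV.pr_pos [IsFiniteMeasure ν] {X : Ω → α} (hX : FinRV X) :
    ∀ᵐ z ∂ν, 0 < pr ν X z := by
  rw [ae_iff]
  have hc : {a ∈ range X | ν (X ⁻¹' {a}) = 0}.Countable := (hX.1.sep _).countable
  refine measure_mono_null (t := ⋃ a ∈ {a ∈ range X | ν (X ⁻¹' {a}) = 0}, X ⁻¹' {a})
    (fun z hz => ?_) ((measure_biUnion_null_iff hc).2 fun a ha => ha.2)
  refine mem_biUnion (x := X z) ⟨mem_range_self z, ?_⟩ rfl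
  exact (measureReal_eq_zero_iff (measure_ne_top _ _)).1
    (le_antisymm (not_lt.1 hz) measureReal_nonneg)

/-- Gibbs inequality on an event determined by X (from log x ≤ x - 1). -/
theorem gibbs [IsFiniteMeasure ν] {X : Ω → α} (hX : FinRV X) {s : Set Ω}
    (hs : ∀ z z', X z = X z' → z ∈ s → z' ∈ s) (q : α → ℝ) (hq : ∀ a, 0 ≤ q a)
    (hpos : ∀ᵐ z ∂ν, z ∈ s → 0 < q (X z)) {c : ℝ}
    (hc : ∀ t : Finset α, ↑t ⊆ X '' s → ∑ a ∈ t, q a ≤ c) :
    ∫ z in s, Real.log (q (X z) / pr ν X z) ∂ν ≤ c - ν.real s := by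
  classical
  have h1 := finrv_setIntegral (ν := ν) hX (fun a => Real.log (q a / ν.real (X ⁻¹' {a}))) s
  have h2 := hc (hX.1.toFinset.filter (· ∈ X '' s)) fun a ha => (Finset.mem_filter.1 ha).2
  rw [Finset.sum_filter] at h2
  refine h1.le.trans (le_trans ?_ (sub_le_sub_right h2 _))
  rw [← hX.sum_measure s, ← Finset.sum_sub_distrib]
  refine Finset.sum_le_sum fun a _ => ?_
  split_ifs with ha
  · obtain ⟨z, hz, rfl⟩ := ha
    have e : s ∩ X ⁻¹' {X z} = X ⁻¹' {X z} :=
      inter_eq_right.2 fun y hy => hs z y (Eq.symm hy) hz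
    rw [e]
    rcases (measureReal_nonneg (μ := ν) (s := X ⁻¹' {X z})).eq_or_lt with h | h
    · rw [← h, zero_mul, sub_zero]
      exact hq _
    · have hq' : 0 < q (X z) := by
        by_contra hn
        refine h.ne' ((measureReal_eq_zero_iff (measure_ne_top _ _)).2 ?_)
        rw [ae_iff] at hpos
        refine measure_mono_null ?_ hpos
        intro y hy hy'
        refine hn ?_
        have e' : X y = X z := hy
        exact e' ▸ hy' (hs z y e'.symm hz)
      refine (mul_le_mul_of_nonneg_left (Real.log_le_sub_one_of_pos (div_pos hq' h)) h.le).trans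
        (le_of_eq ?_)
      field_simp
  · have e : s ∩ X ⁻¹' {a} = ∅ := by
      ext z
      simp only [mem_inter_iff, mem_preimage, mem_singleton_iff, mem_empty_iff_false, iff_false]
      exact fun h => ha ⟨z, h.1, h.2⟩
    simp [e]

end Vale.Agent.P109
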