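import Mathlib
import Vale.Agent.P109.FinRV

/-! Cubic grids. -/

namespace Vale.Agent.P109

open MeasureTheory Set Metric Module
open scoped ENNReal

variable {d : ℕ}

theorem grid_norm_le {v : Eu d} {r : ℝ} (hr : 0 ≤ r) (h : ∀ j, |v j| ≤ r) : ‖v‖ ≤ d * r := by
  refine abs_le_of_sq_le_sq' ?_ (by positivity) |>.2
  rw [EuclideanSpace.norm_sq_eq]
  have h1 : ∑ j, ‖v j‖ ^ 2 ≤ ∑ _j : Fin d, r ^ 2 :=
    Finset.sum_le_sum fun j _ => pow_le_pow_left₀ (norm_nonneg _) (h j) 2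
  rw [Finset.sum_const, Finset.card_univ, Fintype.card_fin, nsmul_eq_mul] at h1
  have h2 : (d : ℝ) ≤ d ^ 2 := by exact_mod_cast Nat.le_self_pow two_ne_zero d
  rw [mul_pow]
  exact h1.trans (mul_le_mul_of_nonneg_right h2 (sq_nonneg r))

theorem grid_coord_le (v : Eu d) (j : Fin d) : |v j| ≤ ‖v‖ := PiLp.norm_apply_le v j

theorem norm_sub_ctr_box {r : ℝ} (hr : 0 < r) (y : Eu d) : ‖y - ctr r (box r y)‖ ≤ d * r := by
  refine grid_norm_le hr.le fun j => ?_
  have e : (y - ctr r (box r y)) j = r * Int.fract (y j / r) := by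
    change y j - r * (⌊y j / r⌋ : ℝ) = _
    rw [Int.fract, mul_sub, mul_div_cancel₀ _ hr.ne']
  rw [e, abs_of_nonneg (mul_nonneg hr.le (Int.fract_nonneg _))]
  exact mul_le_of_le_one_right hr.le (Int.fract_lt_one _).le

theorem norm_sub_of_box_eq {r : ℝ} (hr : 0 < r) {y y' : Eu d} (h : box r y = box r y') :
    ‖y - y'‖ ≤ d * r := by
  refine grid_norm_le hr.le fun j => ?_
  have h1 := Int.abs_sub_lt_one_of_floor_eq_floor (congrFun h j)
  rw [← sub_div, abs_div, abs_of_pos hr, div_lt_one hr] at h1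
  exact h1.le

theorem grid_meas_coord (r : ℝ) (j : Fin d) : Measurable fun y : Eu d => y j / r := by
  fun_prop

theorem measurable_box (r : ℝ) : Measurable (box (d := d) r) :=
  measurable_pi_lambda _ fun j => Int.measurable_floor.comp (grid_meas_coord r j)

theorem box_refines {h h' : ℕ} (hh : h ≤ h') {y y' : Eu d}
    (H : box ((1 / 2 : ℝ) ^ h') y = box ((1 / 2 : ℝ) ^ h') y') :
    box ((1 / 2 : ℝ) ^ h) y = box ((1 / 2 : ℝ) ^ h) y' := by
  obtain ⟨k, rfl⟩ := Nat.exists_eq_add_of_le hh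
  have key : ∀ x : ℝ, ⌊x / (1 / 2 : ℝ) ^ h⌋ =
      ⌊x / (1 / 2 : ℝ) ^ (h + k)⌋ / ((2 ^ k : ℕ) : ℤ) := by
    intro x
    rw [← Int.floor_div_natCast]
    have : x / (1 / 2 : ℝ) ^ (h + k) / ((2 ^ k : ℕ) : ℝ) = x / (1 / 2 : ℝ) ^ h := by
      push_cast
      rw [pow_add, one_div, inv_pow, inv_pow]
      field_simp
    rw [this]
  funext j
  have h1 : ⌊y j / (1 / 2 : ℝ) ^ (h + k)⌋ = ⌊y' j / (1 / 2 : ℝ) ^ (h + k)⌋ := congrFun H j
  change ⌊y j / _⌋ = ⌊y' j / _⌋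
  rw [key, key, h1]

theorem grid_card_Icc {x : ℝ} (hx : 0 ≤ x) :
    ((Finset.Icc ⌊-x⌋ (⌊x⌋ + 1)).card : ℝ) ≤ 2 * x + 3 := by
  have h0 : ⌊-x⌋ ≤ ⌊x⌋ := Int.floor_mono (by linarith)
  have h1 : ((Finset.Icc ⌊-x⌋ (⌊x⌋ + 1)).card : ℤ) = ⌊x⌋ + 1 + 1 - ⌊-x⌋ :=
    Int.card_Icc_of_le _ _ (by omega)
  have h2 : ((Finset.Icc ⌊-x⌋ (⌊x⌋ + 1)).card : ℝ) = ⌊x⌋ + 1 + 1 - ⌊-x⌋ := by
    exact_mod_cast h1
  rw [h2]
  linarith [Int.floor_le x, Int.lt_floor_add_one (-x)]

theorem grid_floor_mem {r L x : ℝ} (hr : 0 < r) (hx : |x| ≤ L) :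
    ⌊-(L / r)⌋ ≤ ⌊x / r⌋ ∧ ⌊x / r⌋ ≤ ⌊L / r⌋ := by
  obtain ⟨h1, h2⟩ := abs_le.1 hx
  refine ⟨Int.floor_mono ?_, Int.floor_mono ?_⟩
  · rw [← neg_div]
    exact div_le_div_of_nonneg_right h1 hr.le
  · exact div_le_div_of_nonneg_right h2 hr.le

theorem box_card {r L : ℝ} (hr : 0 < r) (hL : 0 ≤ L) :
    (box r '' closedBall (0 : Eu d) L).Finite ∧
      ((box r '' closedBall (0 : Eu d) L).ncard : ℝ) ≤ (2 * L / r + 3) ^ d := by
  set s := Fintype.piFinset fun _ : Fin d => Finset.Icc ⌊-(L / r)⌋ (⌊L / r⌋ + 1) with hs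
  have h1 : box r '' closedBall (0 : Eu d) L ⊆ ↑s := by
    rintro _ ⟨y, hy, rfl⟩
    rw [hs, Finset.mem_coe, Fintype.mem_piFinset]
    intro j
    have := grid_floor_mem hr ((grid_coord_le y j).trans (mem_closedBall_zero_iff.1 hy))
    exact Finset.mem_Icc.2 ⟨this.1, this.2.trans (by omega)⟩
  refine ⟨s.finite_toSet.subset h1, ?_⟩
  have h2 : (box r '' closedBall (0 : Eu d) L).ncard ≤ s.card := by
    rw [← ncard_coe_finset]
    exact ncard_le_ncard h1 s.finite_toSet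
  have h3 : (s.card : ℝ) ≤ (2 * L / r + 3) ^ d := by
    rw [hs, Fintype.card_piFinset, Finset.prod_const, Finset.card_univ, Fintype.card_fin,
      Nat.cast_pow, mul_div_assoc]
    exact pow_le_pow_left₀ (Nat.cast_nonneg _) (grid_card_Icc (by positivity)) d
  exact (Nat.cast_le.2 h2).trans h3

theorem GG.box_eq {r σ : ℝ} (hr : 0 < r) {y y' : Eu d} (h : GG r σ y) (hy : ‖y' - y‖ ≤ σ) :
    box r y' = box r y := by
  funext j
  obtain ⟨h1, h2⟩ := h j
  have h3 : |y' j - y j| ≤ σ := (grid_coord_le (y' - y) j).trans hy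
  have h4 : |y' j / r - y j / r| ≤ σ / r := by
    rw [← sub_div, abs_div, abs_of_pos hr]
    exact div_le_div_of_nonneg_right h3 hr.le
  obtain ⟨h5, h6⟩ := abs_le.1 h4
  rw [Int.fract] at h1 h2
  change ⌊y' j / r⌋ = ⌊y j / r⌋
  rw [Int.floor_eq_iff]
  constructor <;> linarith

theorem measurableSet_GG (r σ : ℝ) : MeasurableSet {y : Eu d | GG r σ y} := by
  unfold GG
  rw [ofPred_forall]
  refine MeasurableSet.iInter fun j => ?_
  have h : Measurable fun y : Eu d => Int.fract (y j / r) :=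
    measurable_fract.comp (grid_meas_coord r j)
  exact (measurableSet_lt measurable_const h).inter
    (measurableSet_lt (h.add_const _) measurable_const)

/-- The bad set in dimension one. -/
def gridBad (r σ L : ℝ) : Set ℝ :=
  ⋃ m ∈ Finset.Icc ⌊-(L / r)⌋ (⌊L / r⌋ + 1), Icc (r * (m : ℤ) - σ) (r * (m : ℤ) + σ)

theorem grid_bad_meas (r σ L : ℝ) : MeasurableSet (gridBad r σ L) :=
  Finset.measurableSet_biUnion _ fun _ _ => measurableSet_Icc

theorem grid_bad_vol {r σ L : ℝ} (hr : 0 < r) (hr1 : r ≤ 1) (hσ : 0 ≤ σ) (hL : 0 ≤ L) :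
    volume (gridBad r σ L) ≤ ENNReal.ofReal (2 * (2 * L + 3) * (σ / r)) := by
  refine (measure_biUnion_finset_le _ _).trans ?_
  have h1 : ∀ m : ℤ, volume (Icc (r * (m : ℤ) - σ) (r * (m : ℤ) + σ)) = ENNReal.ofReal (2 * σ) := by
    intro m
    rw [Real.volume_Icc]
    have : r * (m : ℝ) + σ - (r * (m : ℝ) - σ) = 2 * σ := by ring
    rw [this]
  simp only [h1]
  rw [Finset.sum_const, nsmul_eq_mul, ← ENNReal.ofReal_natCast,
    ← ENNReal.ofReal_mul (Nat.cast_nonneg _)]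
  refine ENNReal.ofReal_le_ofReal ?_
  have h2 := grid_card_Icc (x := L / r) (by positivity)
  have h3 : σ ≤ σ / r := by
    rw [le_div_iff₀ hr]
    exact mul_le_of_le_one_right hσ hr1
  have h4 : (2 * (L / r) + 3) * (2 * σ) = 4 * L * (σ / r) + 6 * σ := by ring
  refine (mul_le_mul_of_nonneg_right h2 (by positivity)).trans ?_
  rw [h4]
  linarith

theorem grid_mem_bad {r σ L x : ℝ} (hr : 0 < r) (hσ : 0 ≤ σ) (hx : |x| ≤ L)
    (h : ¬ (σ / r < Int.fract (x / r) ∧ Int.fract (x / r) + σ / r < 1)) :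
    x ∈ gridBad r σ L := by
  obtain ⟨h1, h2⟩ := grid_floor_mem hr hx
  have h3 := Int.floor_le (x / r)
  have h4 := Int.lt_floor_add_one (x / r)
  rw [le_div_iff₀ hr] at h3
  rw [div_lt_iff₀ hr] at h4
  rw [Int.fract, not_and_or, not_lt, not_lt] at h
  simp only [gridBad, mem_iUnion, Finset.mem_Icc]
  rcases h with h | h
  · refine ⟨⌊x / r⌋, ⟨h1, by omega⟩, by linarith, ?_⟩
    rw [sub_le_iff_le_add, div_le_iff₀ hr, add_mul, div_mul_cancel₀ _ hr.ne'] at h
    linarith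
  · refine ⟨⌊x / r⌋ + 1, ⟨by omega, by omega⟩, ?_, by push_cast; linarith⟩
    have h5 : 1 + (⌊x / r⌋ : ℝ) ≤ (x + σ) / r := by rw [add_div]; linarith
    rw [le_div_iff₀ hr] at h5
    push_cast
    linarith

theorem vol_not_GG {L : ℝ} (hL : 0 ≤ L) : ∃ C : ℝ, 0 ≤ C ∧ ∀ r σ : ℝ, 0 < r → r ≤ 1 → 0 ≤ σ →
    volume {y : Eu d | ‖y‖ ≤ L ∧ ¬ GG r σ y} ≤ ENNReal.ofReal (C * (σ / r)) := by
  classical
  refine ⟨d * ((2 * L) ^ (d - 1) * (2 * (2 * L + 3))), by positivity, fun r σ hr hr1 hσ => ?_⟩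
  set A : Fin d → Fin d → Set ℝ :=
    fun j => Function.update (fun _ => Icc (-L) L) j (gridBad r σ L) with hA
  have h1 : {y : Eu d | ‖y‖ ≤ L ∧ ¬ GG r σ y} ⊆
      ⋃ j ∈ (Finset.univ : Finset (Fin d)), WithLp.ofLp ⁻¹' (Set.pi univ (A j)) := by
    rintro y ⟨hy, hG⟩
    obtain ⟨j, hj⟩ := not_forall.1 hG
    simp only [mem_iUnion]
    refine ⟨j, Finset.mem_univ j, fun i _ => ?_⟩
    have hi := (grid_coord_le y i).trans hy
    rcases eq_or_ne i j with rfl | hij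
    · simp only [hA, Function.update_self]
      exact grid_mem_bad hr hσ hi hj
    · simp only [hA, Function.update_of_ne hij]
      exact abs_le.1 hi
  have h2 : ∀ j ∈ (Finset.univ : Finset (Fin d)),
      volume ((WithLp.ofLp : Eu d → Fin d → ℝ) ⁻¹' (Set.pi univ (A j))) ≤
        ENNReal.ofReal ((2 * L) ^ (d - 1) * (2 * (2 * L + 3) * (σ / r))) := by
    intro j _
    have hm : MeasurableSet (Set.pi univ (A j)) := by
      refine MeasurableSet.univ_pi fun i => ?_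
      rcases eq_or_ne i j with rfl | hij
      · simp only [hA, Function.update_self]
        exact grid_bad_meas r σ L
      · simp only [hA, Function.update_of_ne hij]
        exact measurableSet_Icc
    rw [(PiLp.volume_preserving_ofLp (Fin d)).measure_preimage hm.nullMeasurableSet,
      volume_pi_pi, ← Finset.prod_erase_mul _ _ (Finset.mem_univ j)]
    have h3 : ∏ i ∈ Finset.univ.erase j, volume (A j i) = ENNReal.ofReal ((2 * L) ^ (d - 1)) := by
      have h4 : ∀ i ∈ Finset.univ.erase j, volume (A j i) = ENNReal.ofReal (2 * L) := by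
        intro i hi
        simp only [hA, Function.update_of_ne (Finset.ne_of_mem_erase hi)]
        rw [Real.volume_Icc, sub_neg_eq_add, two_mul]
      rw [Finset.prod_congr rfl h4, Finset.prod_const,
        Finset.card_erase_of_mem (Finset.mem_univ j), Finset.card_univ, Fintype.card_fin,
        ENNReal.ofReal_pow (by positivity)]
    rw [h3, ENNReal.ofReal_mul (by positivity)]
    simp only [hA, Function.update_self]
    exact mul_le_mul_right (grid_bad_vol hr hr1 hσ hL) _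
  refine (measure_mono h1).trans ((measure_biUnion_finset_le _ _).trans
    ((Finset.sum_le_sum h2).trans (le_of_eq ?_)))
  rw [Finset.sum_const, Finset.card_univ, Fintype.card_fin, nsmul_eq_mul,
    ← ENNReal.ofReal_natCast, ← ENNReal.ofReal_mul (Nat.cast_nonneg _)]
  have : (d : ℝ) * ((2 * L) ^ (d - 1) * (2 * (2 * L + 3) * (σ / r))) =
      d * ((2 * L) ^ (d - 1) * (2 * (2 * L + 3))) * (σ / r) := by ring
  rw [this]

theorem overlap {r : ℝ} (hr : 0 < r) (M : ℕ) (y : Eu d) (s : Finset (Fin d → ℤ))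
    (hs : ∀ b ∈ s, ‖y - ctr r b‖ ≤ M * r) : s.card ≤ (2 * M + 1) ^ d := by
  have h1 : s ⊆ Fintype.piFinset fun j : Fin d =>
      Finset.Icc (⌈y j / r⌉ - M) (⌊y j / r⌋ + M) := by
    intro b hb
    rw [Fintype.mem_piFinset]
    intro j
    have h2 : |y j - r * b j| ≤ M * r := (grid_coord_le (y - ctr r b) j).trans (hs b hb)
    obtain ⟨h3, h4⟩ := abs_le.1 h2
    have h5 : ⌈y j / r⌉ ≤ b j + M := by
      rw [Int.ceil_le, div_le_iff₀ hr]
      push_cast
      linarith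
    have h6 : b j - M ≤ ⌊y j / r⌋ := by
      rw [Int.le_floor, le_div_iff₀ hr]
      push_cast
      linarith
    exact Finset.mem_Icc.2 ⟨by omega, by omega⟩
  refine (Finset.card_le_card h1).trans ?_
  rw [Fintype.card_piFinset]
  refine (Finset.prod_le_pow_card _ _ (2 * M + 1) fun j _ => ?_).trans (by simp)
  rw [Int.card_Icc]
  have := Int.floor_le_ceil (y j / r)
  omega

variable {Ω : Type*} [MeasurableSpace Ω] {ν : Measure Ω} {S : Ω → Ω}

theorem grid_range_sub (P : PW d ν S) (r : ℝ) :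
    (range fun z => box r (P.Θ z)) ⊆ box r '' closedBall (0 : Eu d) P.L := by
  rintro _ ⟨z, rfl⟩
  exact ⟨P.Θ z, mem_closedBall_zero_iff.2 (P.bdd z), rfl⟩

theorem PW.finRV_box (P : PW d ν S) {r : ℝ} (hr : 0 < r) : FinRV fun z => box r (P.Θ z) :=
  FinRV.of_measurable ((measurable_box r).comp P.emb.measurable)
    ((box_card hr (zero_le_one.trans P.one_le)).1.subset (grid_range_sub P r))

theorem PW.ncard_box (P : PW d ν S) {r : ℝ} (hr : 0 < r) :
    ((range fun z => box r (P.Θ z)).ncard : ℝ) ≤ (2 * P.L / r + 3) ^ d := by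
  have h := box_card (d := d) hr (zero_le_one.trans P.one_le)
  exact (Nat.cast_le.2 (ncard_le_ncard (grid_range_sub P r) h.1)).trans h.2

theorem PW.finRV_itin (P : PW d ν S) (hS : Measurable S) (h N : ℕ) : FinRV (P.itin h N) :=
  FinRV.name hS (P.finRV_box (by positivity)) 1 N

theorem PW.prob_not_GG (P : PW d ν S) : ∃ C : ℝ, 0 ≤ C ∧ ∀ r σ : ℝ, 0 < r → r ≤ 1 → 0 ≤ σ →
    ν.real {z | ¬ GG r σ (P.Θ z)} ≤ C * (σ / r) := by
  have hL : 0 ≤ P.L := zero_le_one.trans P.one_le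
  obtain ⟨C, hC, h⟩ := vol_not_GG (d := d) hL
  refine ⟨P.L * C, by positivity, fun r σ hr hr1 hσ => ?_⟩
  have e : {z | ¬ GG r σ (P.Θ z)} = P.Θ ⁻¹' {y : Eu d | ‖y‖ ≤ P.L ∧ ¬ GG r σ y} := by
    ext z
    exact ⟨fun hz => ⟨P.bdd z, hz⟩, fun hz => hz.2⟩
  refine ENNReal.toReal_le_of_le_ofReal (by positivity) ?_
  rw [e, mul_assoc, ENNReal.ofReal_mul hL]
  exact (P.le_vol _).trans (mul_le_mul_right (h r σ hr hr1 hσ) _)

end Vale.Agent.P109
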