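import Mathlib
import Vale.Agent.P109.Defs

/-! Volume comparison under Lipschitz maps and product structure of the volume. -/

namespace Vale.Agent.P109

open MeasureTheory Set Metric Module
open scoped ENNReal

open scoped Pointwise
variable {d : ℕ}

theorem vol_haar_image {E G : Type*} [NormedAddCommGroup E] [NormedSpace ℝ E]
    [FiniteDimensional ℝ E] [MeasurableSpace E] [BorelSpace E] [NormedAddCommGroup G]
    [NormedSpace ℝ G] [MeasurableSpace G] [BorelSpace G] (μ : Measure E) [μ.IsAddHaarMeasure]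
    (ν : Measure G) [ν.IsAddHaarMeasure] (e : E ≃L[ℝ] G) :
    ∃ c : ℝ≥0∞, c ≠ 0 ∧ c ≠ ⊤ ∧ ∀ s, ν (e '' s) = c * μ s := by
  have h1 : (ν.map e.symm).IsAddHaarMeasure := inferInstance
  have h2 := Measure.isAddLeftInvariant_eq_smul (ν.map e.symm) μ
  refine ⟨Measure.addHaarScalarFactor (ν.map e.symm) μ, ?_, ENNReal.coe_ne_top, fun s => ?_⟩
  · exact ENNReal.coe_ne_zero.2 (Measure.addHaarScalarFactor_pos_of_isAddHaarMeasure _ _).ne'
  · have h3 : (ν.map e.symm) s = ν (e.symm ⁻¹' s) :=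
      e.symm.toHomeomorph.toMeasurableEquiv.map_apply s
    rw [e.image_eq_preimage_symm, ← h3]
    conv_lhs => rw [h2]
    rfl

/-- If h is K-Lipschitz with respect to g in the norm v ↦ ‖J v‖, the volumes compare.
No measurability is needed. -/
theorem vol_compare {F : Type*} [NormedAddCommGroup F] [NormedSpace ℝ F] (J : Eu d →L[ℝ] F)
    (hJ : Function.Injective J) (g h : Eu d → Eu d) (Y : Set (Eu d)) {K : ℝ} (hK : 0 ≤ K)
    (H : ∀ a ∈ Y, ∀ b ∈ Y, ‖J (h a - h b)‖ ≤ K * ‖J (g a - g b)‖) :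
    volume (h '' Y) ≤ ENNReal.ofReal (K ^ d) * volume (g '' Y) := by
  classical
  set G := LinearMap.range (J : Eu d →ₗ[ℝ] F) with hG
  let _ : MeasurableSpace G := borel G
  have : BorelSpace G := ⟨rfl⟩
  let e : Eu d ≃L[ℝ] G :=
    (LinearEquiv.ofInjective (J : Eu d →ₗ[ℝ] F) hJ).toContinuousLinearEquiv
  have he : ∀ v, ‖e v‖ = ‖J v‖ := fun v => rfl
  have hd : finrank ℝ G = d := by
    rw [← e.toLinearEquiv.finrank_eq]
    simp
  obtain ⟨c, hc0, hct, hc⟩ :=
    vol_haar_image volume (Measure.hausdorffMeasure (finrank ℝ G : ℝ) : Measure G) e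
  let Φ : G → G := fun w => if hw : ∃ a ∈ Y, e (g a) = w then e (h hw.choose) else 0
  have hΦ : ∀ a ∈ Y, Φ (e (g a)) = e (h a) := by
    intro a ha
    have hw : ∃ a' ∈ Y, e (g a') = e (g a) := ⟨a, ha, rfl⟩
    have h1 := H _ hw.choose_spec.1 a ha
    rw [e.injective hw.choose_spec.2, sub_self, map_zero, norm_zero, mul_zero,
      norm_le_zero_iff, ← map_zero J] at h1
    simp only [Φ, dif_pos hw]
    rw [sub_eq_zero.1 (hJ h1)]
  have hL : LipschitzOnWith ⟨K, hK⟩ Φ (e '' (g '' Y)) := by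
    refine LipschitzOnWith.of_dist_le_mul ?_
    rintro _ ⟨_, ⟨a, ha, rfl⟩, rfl⟩ _ ⟨_, ⟨b, hb, rfl⟩, rfl⟩
    rw [hΦ a ha, hΦ b hb, dist_eq_norm, dist_eq_norm, ← map_sub, ← map_sub, he, he]
    exact H a ha b hb
  have hsub : e '' (h '' Y) ⊆ Φ '' (e '' (g '' Y)) := by
    rintro _ ⟨_, ⟨a, ha, rfl⟩, rfl⟩
    exact ⟨_, ⟨_, ⟨a, ha, rfl⟩, rfl⟩, hΦ a ha⟩
  have h1 := (measure_mono hsub).trans
    (hL.hausdorffMeasure_image_le (d := (finrank ℝ G : ℝ)) (Nat.cast_nonneg _))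
  rw [hc, hc, mul_left_comm, ENNReal.mul_le_mul_iff_right hc0 hct, hd, ENNReal.rpow_natCast] at h1
  rw [ENNReal.ofReal_pow hK, ENNReal.ofReal_eq_coe_nnreal hK]
  exact h1

/-- Product structure of the volume along a linear splitting (arbitrary sets). -/
theorem prod_vol (π : Eu d →L[ℝ] Eu d) (hπ : ∀ v, π (π v) = π v) {Xu Bu Xs Bs : Set (Eu d)}
    (hXu : ∀ v ∈ Xu, π v = 0) (hBu : ∀ v ∈ Bu, π v = 0) (hXs : ∀ v ∈ Xs, π v = v)
    (hBs : ∀ v ∈ Bs, π v = v) :
    volume (Xu + Xs) * volume (Bu + Bs) = volume (Xu + Bs) * volume (Bu + Xs) := by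
  set U := LinearMap.ker (π : Eu d →ₗ[ℝ] Eu d) with hU
  set V := LinearMap.range (π : Eu d →ₗ[ℝ] Eu d) with hV
  have hc : IsCompl U V :=
    (LinearMap.IsIdempotentElem.isCompl (f := (π : Eu d →ₗ[ℝ] Eu d))
      (LinearMap.ext hπ)).symm
  let e : (U × V) ≃L[ℝ] Eu d := (Submodule.prodEquivOfIsCompl U V hc).toContinuousLinearEquiv
  have he : ∀ p : U × V, e p = p.1 + p.2 := fun p => rfl
  obtain ⟨c, -, -, h⟩ := vol_haar_image
    ((Measure.addHaar : Measure U).prod (Measure.addHaar : Measure V)) volume e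
  have key : ∀ A B : Set (Eu d), (∀ v ∈ A, π v = 0) → (∀ v ∈ B, π v = v) →
      volume (A + B) = c * ((Measure.addHaar : Measure U) (Subtype.val ⁻¹' A) *
        (Measure.addHaar : Measure V) (Subtype.val ⁻¹' B)) := by
    intro A B hA hB
    rw [← Measure.prod_prod, ← h]
    have : A + B = e '' ((Subtype.val ⁻¹' A) ×ˢ (Subtype.val ⁻¹' B)) := by
      ext z
      constructor
      · rintro ⟨a, ha, b, hb, rfl⟩
        exact ⟨(⟨a, hA a ha⟩, ⟨b, b, hB b hb⟩), ⟨ha, hb⟩, rfl⟩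
      · rintro ⟨p, ⟨ha, hb⟩, rfl⟩
        exact ⟨_, ha, _, hb, rfl⟩
    rw [this]
  rw [key _ _ hXu hXs, key _ _ hBu hBs, key _ _ hXu hBs, key _ _ hBu hXs]
  ring

theorem vol_ellipsoid_eq (Λ : Eu d ≃L[ℝ] Eu d) (c : Eu d) (r : ℝ) :
    {y : Eu d | ‖Λ y - c‖ ≤ r} = Λ ⁻¹' closedBall c r := by
  ext y
  simp [dist_eq_norm]

theorem vol_ellipsoid (Λ : Eu d ≃L[ℝ] Eu d) (c : Eu d) {r k : ℝ} (hk : 0 ≤ k) (hr : 0 < r) :
    volume {y : Eu d | ‖Λ y - c‖ ≤ k * r} =
      ENNReal.ofReal (k ^ d) * volume {v : Eu d | ‖Λ v‖ ≤ r} := by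
  have h := vol_ellipsoid_eq Λ 0 r
  simp only [sub_zero] at h
  rw [vol_ellipsoid_eq, h, Measure.addHaar_preimage_continuousLinearEquiv,
    Measure.addHaar_preimage_continuousLinearEquiv, Measure.addHaar_closedBall_mul _ _ hk hr.le,
    finrank_euclideanSpace_fin, mul_left_comm]

theorem vol_ellipsoid_pos (Λ : Eu d ≃L[ℝ] Eu d) (c : Eu d) {r : ℝ} (hr : 0 < r) :
    0 < volume {y : Eu d | ‖Λ y - c‖ ≤ r} ∧ volume {y : Eu d | ‖Λ y - c‖ ≤ r} < ⊤ := by
  rw [vol_ellipsoid_eq, Measure.addHaar_preimage_continuousLinearEquiv]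
  refine ⟨ENNReal.mul_pos ?_ (measure_closedBall_pos _ _ hr).ne',
    ENNReal.mul_lt_top ENNReal.ofReal_lt_top measure_closedBall_lt_top⟩
  exact (ENNReal.ofReal_pos.2
    (abs_pos.2 (LinearEquiv.isUnit_det' Λ.symm.toLinearEquiv).ne_zero)).ne'

theorem vol_homothety_ball {K : Set (Eu d)} (hv : Convex ℝ K) {a : Eu d} {r σ : ℝ}
    (hσ : 0 < σ) (hr : σ ≤ r) (ha : ball a r ⊆ K) {y : Eu d}
    (hy : y ∈ AffineMap.homothety a (1 - σ / r) '' K) : ball y σ ⊆ K := by
  obtain ⟨k, hk, rfl⟩ := hy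
  have hr0 : 0 < r := hσ.trans_le hr
  intro z hz
  set s := σ / r with hs
  have hs0 : 0 < s := by positivity
  have hs1 : s ≤ 1 := (div_le_one hr0).2 hr
  set y := AffineMap.homothety a (1 - s) k with hy
  have hy' : y = (1 - s) • (k - a) + a := rfl
  have h1 : a + s⁻¹ • (z - y) ∈ K := by
    refine ha ?_
    rw [mem_ball_iff_norm, add_sub_cancel_left, norm_smul, Real.norm_of_nonneg (by positivity),
      inv_mul_lt_iff₀ hs0, hs, div_mul_cancel₀ _ hr0.ne']
    exact mem_ball_iff_norm.1 hz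
  have h2 := hv hk h1 (sub_nonneg.2 hs1) hs0.le (by ring)
  have h3 : (1 - s) • k + s • (a + s⁻¹ • (z - y)) = z := by
    rw [smul_add, smul_inv_smul₀ hs0.ne', hy']
    module
  rwa [h3] at h2

/-- The σ-layer along the boundary of a convex body has volume O(σ). -/
theorem convex_layer {K : Set (Eu d)} (hc : IsCompact K) (hv : Convex ℝ K)
    (hi : (interior K).Nonempty) : ∃ C : ℝ, 0 ≤ C ∧ ∀ σ : ℝ, 0 < σ →
      volume {y ∈ K | ¬ ball y σ ⊆ K} ≤ ENNReal.ofReal (C * σ) := by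
  obtain ⟨a, ha⟩ := hi
  obtain ⟨r, hr, har⟩ := Metric.mem_nhds_iff.1 (mem_interior_iff_mem_nhds.1 ha)
  have hK : volume K ≠ ⊤ := hc.measure_lt_top.ne
  have hV : 0 ≤ volume.real K := measureReal_nonneg
  refine ⟨(d + 1) * volume.real K / r, by positivity, fun σ hσ => ?_⟩
  have hfin : volume {y ∈ K | ¬ ball y σ ⊆ K} ≠ ⊤ :=
    measure_ne_top_of_subset (sep_subset _ _) hK
  rw [ENNReal.le_ofReal_iff_toReal_le hfin (by positivity), ← measureReal_def]
  have e : (d + 1) * volume.real K / r * σ = (d + 1) * (σ / r) * volume.real K := by ring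
  rw [e]
  rcases le_total σ r with h | h
  · set H := AffineMap.homothety a (1 - σ / r) '' K with hH
    have hs1 : σ / r ≤ 1 := (div_le_one hr).2 h
    have hs0 : 0 < σ / r := by positivity
    have hHK : H ⊆ K := fun y hy => vol_homothety_ball hv hσ h har hy (mem_ball_self hσ)
    have hHm : MeasurableSet H :=
      (hc.image (AffineMap.continuous_of_finiteDimensional _)).measurableSet
    have h1 : {y ∈ K | ¬ ball y σ ⊆ K} ⊆ K \ H :=
      fun y hy => ⟨hy.1, fun h' => hy.2 (vol_homothety_ball hv hσ h har h')⟩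
    have h2 : volume.real H = (1 - σ / r) ^ d * volume.real K := by
      rw [measureReal_def, hH, Measure.addHaar_image_homothety, finrank_euclideanSpace_fin,
        ENNReal.toReal_mul, ENNReal.toReal_ofReal (abs_nonneg _),
        abs_of_nonneg (pow_nonneg (sub_nonneg.2 hs1) _), measureReal_def]
    have h3 : 1 + d * (-(σ / r)) ≤ (1 + -(σ / r)) ^ d := one_add_mul_le_pow (by linarith) d
    rw [← sub_eq_add_neg 1 (σ / r)] at h3
    refine (measureReal_mono h1 (measure_ne_top_of_subset sdiff_subset hK)).trans ?_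
    rw [measureReal_sdiff hHK hHm hK, h2]
    nlinarith
  · refine (measureReal_mono (sep_subset _ _) hK).trans ?_
    have h1 : 1 ≤ σ / r := (one_le_div hr).2 h
    have h2 : (0 : ℝ) ≤ d := Nat.cast_nonneg d
    have h3 : 1 ≤ (d + 1) * (σ / r) := by nlinarith
    nlinarith

end Vale.Agent.P109
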