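import Mathlib
import Vale.Agent.P109.Vol

/-! A priori estimate for orbits in a tube, volume distortion of Psi. -/

namespace Vale.Agent.P109

open MeasureTheory Set Metric Module
open scoped ENNReal

variable {d : ℕ} {f : Eu d → Eu d} {x : ℕ → Eu d} {Q : ℕ → Eu d ≃L[ℝ] Eu d}
  {π : Eu d →L[ℝ] Eu d} {T : ℕ} {R ε Γ : ℝ}

theorem Tube.mono (h : Tube f x Q π T R ε Γ) {T' : ℕ} (hT : T' ≤ T) : Tube f x Q π T' R ε Γ where
  Q0 := h.Q0
  lin := fun t ht => h.lin t (by omega)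
  idem := h.idem
  stab := fun s t hst ht => h.stab s t hst (by omega)
  unst := fun s t hst ht => h.unst s t hst (by omega)
  eps := h.eps
  gam := h.gam

theorem Tube.shift (h : Tube f x Q π T R ε Γ) {N : ℕ} (hN : N ≤ T) :
    Tube f (fun t => x (N + t)) (fun t => (Q N).symm.trans (Q (N + t)))
      ((Q N : Eu d →L[ℝ] Eu d) ∘L π ∘L ((Q N).symm : Eu d →L[ℝ] Eu d)) (T - N) R ε Γ where
  Q0 := fun v => by simp
  lin := fun t ht y hy y' hy' => by
    have := h.lin (N + t) (by omega) y hy y' hy'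
    simpa [add_assoc] using this
  idem := fun v => by simp [h.idem]
  stab := fun s t hst ht v => by
    have := h.stab (N + s) (N + t) (by omega) (by omega) ((Q N).symm v)
    simpa using this
  unst := fun s t hst ht v => by
    have := h.unst (N + s) (N + t) (by omega) (by omega) ((Q N).symm v)
    simpa using this
  eps := h.eps
  gam := h.gam

/-- Linear a priori estimate for a sequence written in the coordinates of time 0. -/
theorem Tube.apriori (h : Tube f x Q π T R ε Γ) (hs : 2 * T * Γ * ε ≤ 1) (δ : ℕ → Eu d) {t : ℕ}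
    (ht : t ≤ T) (hδ : ∀ s < t, ‖Q (s + 1) (δ (s + 1) - δ s)‖ ≤ ε * ‖Q s (δ s)‖) :
    ∀ s ≤ t, ‖Q s (δ s)‖ ≤ 2 * Γ * (‖π (δ 0)‖ + ‖Q t (δ t - π (δ t))‖) := by
  have hε := h.eps
  have hΓ : 0 ≤ Γ := zero_le_one.trans h.gam
  obtain ⟨s₀, hs₀, hmax⟩ := (Finset.range (t + 1)).exists_max_image (fun s => ‖Q s (δ s)‖)
    ⟨0, by simp⟩
  have hs₀' : s₀ ≤ t := by simpa [Nat.lt_succ_iff] using hs₀
  set M := ‖Q s₀ (δ s₀)‖ with hM
  have hM0 : 0 ≤ M := norm_nonneg _
  have hmax' : ∀ s ≤ t, ‖Q s (δ s)‖ ≤ M := fun s hs' => hmax s (by simpa [Nat.lt_succ_iff] using hs')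
  have hstep : ∀ s < t, ‖Q (s + 1) (δ (s + 1) - δ s)‖ ≤ ε * M := fun s hs' =>
    (hδ s hs').trans (mul_le_mul_of_nonneg_left (hmax' s hs'.le) hε)
  have h1 : ∀ j ≤ s₀, ‖Q s₀ (π (δ j))‖ ≤ Γ * ‖π (δ 0)‖ + j * (Γ * (ε * M)) := by
    intro j
    induction j with
    | zero =>
      intro _
      have := h.stab 0 s₀ (Nat.zero_le _) (by omega) (π (δ 0))
      rw [h.idem, h.Q0] at this
      simpa using this
    | succ j ih =>
      intro hj
      have h2 := h.stab (j + 1) s₀ hj (by omega) (δ (j + 1) - δ j)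
      have h3 := mul_le_mul_of_nonneg_left (hstep j (by omega)) hΓ
      rw [map_sub π, map_sub] at h2
      have h4 := norm_le_norm_sub_add (Q s₀ (π (δ (j + 1)))) (Q s₀ (π (δ j)))
      have h5 := ih (by omega)
      push_cast
      linarith
  have h2 : ∀ k, s₀ + k ≤ t → ‖Q s₀ (δ s₀ - π (δ s₀))‖ ≤
      ‖Q s₀ (δ (s₀ + k) - π (δ (s₀ + k)))‖ + k * (Γ * (ε * M)) := by
    intro k
    induction k with
    | zero => intro _; simp
    | succ k ih =>
      intro hk
      have h3 := h.unst s₀ (s₀ + k + 1) (by omega) (by omega) (δ (s₀ + k + 1) - δ (s₀ + k))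
      have h4 := mul_le_mul_of_nonneg_left (hstep (s₀ + k) (by omega)) hΓ
      have h5 := ih (by omega)
      have h6 : Q s₀ (δ (s₀ + k) - π (δ (s₀ + k))) =
          Q s₀ (δ (s₀ + k + 1) - π (δ (s₀ + k + 1))) -
          Q s₀ (δ (s₀ + k + 1) - δ (s₀ + k) - π (δ (s₀ + k + 1) - δ (s₀ + k))) := by
        simp only [map_sub]; abel
      have h7 := norm_sub_le (Q s₀ (δ (s₀ + k + 1) - π (δ (s₀ + k + 1))))
        (Q s₀ (δ (s₀ + k + 1) - δ (s₀ + k) - π (δ (s₀ + k + 1) - δ (s₀ + k))))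
      rw [← h6] at h7
      rw [← add_assoc]
      push_cast
      linarith
  have h3 := h2 (t - s₀) (by omega)
  rw [Nat.add_sub_cancel' hs₀', Nat.cast_sub hs₀'] at h3
  have h4 := h.unst s₀ t hs₀' ht (δ t - π (δ t))
  rw [map_sub π, h.idem, sub_self, sub_zero] at h4
  have h5 := h1 s₀ le_rfl
  have h6 : M ≤ ‖Q s₀ (π (δ s₀))‖ + ‖Q s₀ (δ s₀ - π (δ s₀))‖ := by
    rw [hM, map_sub]
    linarith [norm_le_norm_sub_add (Q s₀ (δ s₀)) (Q s₀ (π (δ s₀)))]
  have h7 : (t : ℝ) * (Γ * (ε * M)) ≤ M / 2 := by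
    have h8 : (t : ℝ) ≤ T := by exact_mod_cast ht
    have h9 : (t : ℝ) * (Γ * ε) ≤ T * (Γ * ε) := by gcongr
    nlinarith
  intro s hs'
  have := hmax' s hs'
  linarith

theorem lp_step (h : Tube f x Q π T R ε Γ) {y y' : Eu d} (hy : ∀ s ≤ T, f^[s] y ∈ ball (x s) R)
    (hy' : ∀ s ≤ T, f^[s] y' ∈ ball (x s) R) {s : ℕ} (hs : s < T) :
    ‖Q (s + 1) ((Q (s + 1)).symm (f^[s + 1] y - f^[s + 1] y') -
      (Q s).symm (f^[s] y - f^[s] y'))‖ ≤ ε * ‖f^[s] y - f^[s] y'‖ := by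
  rw [map_sub (Q (s + 1)), ContinuousLinearEquiv.apply_symm_apply, Function.iterate_succ_apply',
    Function.iterate_succ_apply']
  exact h.lin s hs _ (hy s hs.le) _ (hy' s hs.le)

theorem lp_psi_sub (h : Tube f x Q π T R ε Γ) (t : ℕ) (y y' : Eu d) :
    π (Psi f Q π t y - Psi f Q π t y') = π (y - y') ∧
    (Psi f Q π t y - Psi f Q π t y') - π (Psi f Q π t y - Psi f Q π t y') =
      (Q t).symm (f^[t] y - f^[t] y') - π ((Q t).symm (f^[t] y - f^[t] y')) := by
  have h1 : π (Psi f Q π t y - Psi f Q π t y') = π (y - y') := by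
    simp only [Psi, map_sub, map_add, h.idem]; abel
  refine ⟨h1, ?_⟩
  rw [h1]
  simp only [Psi, map_sub]; abel

theorem Tube.orbit_diff (h : Tube f x Q π T R ε Γ) (hs : 2 * T * Γ * ε ≤ 1) {t : ℕ} (ht : t ≤ T)
    {y y' : Eu d} (hy : ∀ s ≤ T, f^[s] y ∈ ball (x s) R) (hy' : ∀ s ≤ T, f^[s] y' ∈ ball (x s) R) :
    ∀ s ≤ t, ‖f^[s] y - f^[s] y'‖ ≤ 2 * Γ * (‖π (Psi f Q π t y - Psi f Q π t y')‖ +
      ‖Q t ((Psi f Q π t y - Psi f Q π t y') - π (Psi f Q π t y - Psi f Q π t y'))‖) := by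
  intro s hs'
  have := h.apriori hs (fun s => (Q s).symm (f^[s] y - f^[s] y')) ht (fun s hs'' => by
    rw [ContinuousLinearEquiv.apply_symm_apply]
    exact lp_step h hy hy' (by omega)) s hs'
  have h0 : (Q 0).symm (f^[0] y - f^[0] y') = y - y' := by
    rw [ContinuousLinearEquiv.symm_apply_eq, h.Q0]; rfl
  rw [(lp_psi_sub h t y y').2, (lp_psi_sub h t y y').1]
  rwa [ContinuousLinearEquiv.apply_symm_apply, h0] at this

theorem Tube.vol_psi (h : Tube f x Q π T R ε Γ) (hs : 8 * (d + 1) * (T + 1) * Γ ^ 2 * ε ≤ 1)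
    (Y : Set (Eu d)) (hY : ∀ y ∈ Y, ∀ s ≤ T, f^[s] y ∈ ball (x s) R) :
    volume Y ≤ 3 * volume (Psi f Q π T '' Y) ∧ volume (Psi f Q π T '' Y) ≤ 3 * volume Y := by
  have hε := h.eps
  have hΓ := h.gam
  have hd0 : (0 : ℝ) ≤ d := Nat.cast_nonneg d
  have hT0 : (0 : ℝ) ≤ T := Nat.cast_nonneg T
  have hx0 : 0 ≤ Γ ^ 2 * ε := by positivity
  have hs1 : 8 * ((d + 1) * (T + 1)) * (Γ ^ 2 * ε) ≤ 1 := by linarith
  have hdT : (0 : ℝ) ≤ d * T := by positivity
  have hs2 : 2 * T * Γ * ε ≤ 1 := by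
    have h1 : Γ * ε ≤ Γ ^ 2 * ε := by gcongr; nlinarith
    have h2 : T * (Γ * ε) ≤ T * (Γ ^ 2 * ε) := by gcongr
    nlinarith
  have hs3 : 8 * (Γ ^ 2 * ε) ≤ 1 := by nlinarith
  set K : ℝ := 1 + 8 * (Γ ^ 2 * ε) with hK
  have hK0 : 0 ≤ K := by positivity
  have key : ∀ t < T,
      volume (Psi f Q π (t + 1) '' Y) ≤ ENNReal.ofReal (K ^ d) * volume (Psi f Q π t '' Y) ∧
      volume (Psi f Q π t '' Y) ≤ ENNReal.ofReal (K ^ d) * volume (Psi f Q π (t + 1) '' Y) := by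
    intro t ht
    set J : Eu d →L[ℝ] Eu d × Eu d :=
      π.prod ((Q t : Eu d →L[ℝ] Eu d) ∘L (ContinuousLinearMap.id ℝ _ - π)) with hJ
    have hJa : ∀ v, J v = (π v, Q t (v - π v)) := fun v => rfl
    have hJi : Function.Injective J := by
      refine (injective_iff_map_eq_zero J).2 fun v hv => ?_
      rw [hJa, Prod.mk_eq_zero] at hv
      have := (Q t).map_eq_zero_iff.1 hv.2
      rwa [hv.1, sub_zero] at this
    have hdiff : ∀ a ∈ Y, ∀ b ∈ Y,
        ‖J (Psi f Q π (t + 1) a - Psi f Q π (t + 1) b) - J (Psi f Q π t a - Psi f Q π t b)‖ ≤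
          4 * (Γ ^ 2 * ε) * ‖J (Psi f Q π t a - Psi f Q π t b)‖ := by
      intro a ha b hb
      have h1 := h.orbit_diff hs2 ht.le (hY a ha) (hY b hb) t le_rfl
      have h2 := lp_step h (hY a ha) (hY b hb) ht
      have h3 := h.unst t (t + 1) (by omega) (by omega)
        ((Q (t + 1)).symm (f^[t + 1] a - f^[t + 1] b) - (Q t).symm (f^[t] a - f^[t] b))
      have h4 := norm_fst_le (J (Psi f Q π t a - Psi f Q π t b))
      have h5 := norm_snd_le (J (Psi f Q π t a - Psi f Q π t b))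
      have h6 : J (Psi f Q π (t + 1) a - Psi f Q π (t + 1) b) - J (Psi f Q π t a - Psi f Q π t b) =
          (0, Q t (((Q (t + 1)).symm (f^[t + 1] a - f^[t + 1] b) -
            (Q t).symm (f^[t] a - f^[t] b)) - π ((Q (t + 1)).symm (f^[t + 1] a - f^[t + 1] b) -
            (Q t).symm (f^[t] a - f^[t] b)))) := by
        rw [hJa, hJa, (lp_psi_sub h _ a b).2, (lp_psi_sub h _ a b).2, (lp_psi_sub h _ a b).1,
          (lp_psi_sub h _ a b).1, Prod.mk_sub_mk, sub_self, ← map_sub, map_sub π]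
        congr 2
        abel
      rw [h6, Prod.norm_mk, norm_zero, max_eq_right (norm_nonneg _)]
      rw [hJa] at h4 h5
      simp only at h4 h5
      rw [← hJa] at h4 h5
      have h7 : ‖f^[t] a - f^[t] b‖ ≤ 2 * Γ * (2 * ‖J (Psi f Q π t a - Psi f Q π t b)‖) :=
        h1.trans (by gcongr; linarith)
      calc _ ≤ Γ * (ε * (2 * Γ * (2 * ‖J (Psi f Q π t a - Psi f Q π t b)‖))) :=
            h3.trans (by gcongr; exact h2.trans (by gcongr))
        _ = _ := by ring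
    constructor
    · refine vol_compare J hJi _ _ Y hK0 fun a ha b hb => ?_
      have h1 := hdiff a ha b hb
      have h2 := norm_le_norm_sub_add (J (Psi f Q π (t + 1) a - Psi f Q π (t + 1) b))
        (J (Psi f Q π t a - Psi f Q π t b))
      have h3 := norm_nonneg (J (Psi f Q π t a - Psi f Q π t b))
      nlinarith
    · refine vol_compare J hJi _ _ Y hK0 fun a ha b hb => ?_
      have h1 := hdiff a ha b hb
      have h2 := norm_le_norm_sub_add (J (Psi f Q π t a - Psi f Q π t b))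
        (J (Psi f Q π (t + 1) a - Psi f Q π (t + 1) b))
      rw [norm_sub_rev] at h2
      have h3 := norm_nonneg (J (Psi f Q π t a - Psi f Q π t b))
      have h4 := norm_nonneg (J (Psi f Q π (t + 1) a - Psi f Q π (t + 1) b))
      have h5 : ‖J (Psi f Q π t a - Psi f Q π t b)‖ ≤
        2 * ‖J (Psi f Q π (t + 1) a - Psi f Q π (t + 1) b)‖ := by nlinarith
      nlinarith
  have iter : ∀ t ≤ T, volume (Psi f Q π t '' Y) ≤ ENNReal.ofReal (K ^ d) ^ t * volume Y ∧
      volume Y ≤ ENNReal.ofReal (K ^ d) ^ t * volume (Psi f Q π t '' Y) := by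
    intro t
    induction t with
    | zero =>
      intro _
      have : Psi f Q π 0 '' Y = Y := by
        have h0 : ∀ y, Psi f Q π 0 y = y := fun y => by
          have h1 : (Q 0).symm y = y := by rw [ContinuousLinearEquiv.symm_apply_eq, h.Q0]
          simp [Psi, h1]
        simp [h0]
      simp [this]
    | succ t ih =>
      intro ht
      obtain ⟨h1, h2⟩ := ih (by omega)
      obtain ⟨h3, h4⟩ := key t (by omega)
      constructor
      · rw [pow_succ', mul_assoc]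
        exact h3.trans (by gcongr)
      · rw [pow_succ, mul_assoc]
        exact h2.trans (by gcongr)
  have h3 : ENNReal.ofReal (K ^ d) ^ T ≤ 3 := by
    rw [← ENNReal.ofReal_pow (by positivity), ← pow_mul]
    have h4 : K ^ (d * T) ≤ Real.exp 1 := by
      calc K ^ (d * T) ≤ Real.exp (8 * (Γ ^ 2 * ε)) ^ (d * T) :=
            pow_le_pow_left₀ hK0 (by linarith [Real.add_one_le_exp (8 * (Γ ^ 2 * ε))]) _
        _ = Real.exp ((d * T : ℕ) * (8 * (Γ ^ 2 * ε))) := (Real.exp_nat_mul _ _).symm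
        _ ≤ Real.exp 1 := Real.exp_le_exp.2 (by push_cast; nlinarith)
    have h5 := Real.exp_one_lt_d9
    calc _ ≤ ENNReal.ofReal 3 := ENNReal.ofReal_le_ofReal (by linarith)
      _ = 3 := by norm_num
  obtain ⟨h1, h2⟩ := iter T le_rfl
  exact ⟨h2.trans (by gcongr), h1.trans (by gcongr)⟩

end Vale.Agent.P109
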