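import Mathlib
import Vale.Agent.P109.Defs

/-! The Green operator of a tube. -/

namespace Vale.Agent.P109

open MeasureTheory Set Metric Module
open scoped ENNReal

variable {d : ℕ} {f : Eu d → Eu d} {x : ℕ → Eu d} {Q : ℕ → Eu d ≃L[ℝ] Eu d}
  {π : Eu d →L[ℝ] Eu d} {T : ℕ} {R ε Γ : ℝ}

/-- Stable part summed over the past, unstable part summed over the future. -/
noncomputable def lpG (π : Eu d →L[ℝ] Eu d) (ρ : ℕ → Eu d) (t s : ℕ) : Eu d :=
  ∑ j ∈ Finset.range s, π (ρ j) - ∑ j ∈ Finset.Ico s t, (ρ j - π (ρ j))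

theorem lpG_sub (ρ ρ' : ℕ → Eu d) (t s : ℕ) :
    lpG π ρ t s - lpG π ρ' t s = lpG π (fun j => ρ j - ρ' j) t s := by
  simp only [lpG, map_sub, Finset.sum_sub_distrib]
  abel

theorem lpG_succ (ρ : ℕ → Eu d) {t s : ℕ} (h : s < t) :
    lpG π ρ t (s + 1) = lpG π ρ t s + ρ s := by
  rw [lpG, lpG, Finset.sum_range_succ, Finset.sum_eq_sum_Ico_succ_bot h]
  abel

theorem Tube.lp_bound (h : Tube f x Q π T R ε Γ) (ρ : ℕ → Eu d) {s t : ℕ} (hs : s ≤ t)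
    (ht : t ≤ T) {c : ℝ} (hc : ∀ j < t, ‖Q (j + 1) (ρ j)‖ ≤ c) :
    ‖Q s (lpG π ρ t s)‖ ≤ t * Γ * c := by
  have hΓ : 0 ≤ Γ := zero_le_one.trans h.gam
  rw [lpG, map_sub, map_sum, map_sum]
  refine (norm_sub_le _ _).trans ((add_le_add (norm_sum_le _ _) (norm_sum_le _ _)).trans ?_)
  have h1 := Finset.sum_le_card_nsmul (Finset.range s) (fun j => ‖Q s (π (ρ j))‖) (Γ * c)
    fun j hj => (h.stab (j + 1) s (Finset.mem_range.1 hj) (hs.trans ht) _).trans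
      (mul_le_mul_of_nonneg_left (hc j ((Finset.mem_range.1 hj).trans_le hs)) hΓ)
  have h2 := Finset.sum_le_card_nsmul (Finset.Ico s t) (fun j => ‖Q s (ρ j - π (ρ j))‖) (Γ * c)
    fun j hj => (h.unst s (j + 1) ((Finset.mem_Ico.1 hj).1.trans (Nat.le_succ j))
      (le_trans (Finset.mem_Ico.1 hj).2 ht) _).trans
      (mul_le_mul_of_nonneg_left (hc j (Finset.mem_Ico.1 hj).2) hΓ)
  rw [Finset.card_range, nsmul_eq_mul] at h1
  rw [Nat.card_Ico, nsmul_eq_mul, Nat.cast_sub hs] at h2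
  linarith

theorem Tube.lp_lin (h : Tube f x Q π T R ε Γ) {s : ℕ} (hs : s ≤ T) (a : Eu d) :
    ‖Q s a‖ ≤ Γ * (‖π a‖ + ‖Q T (a - π a)‖) := by
  have h1 := h.stab 0 s (Nat.zero_le s) hs (π a)
  have h2 := h.unst s T hs le_rfl (a - π a)
  rw [h.idem, h.Q0] at h1
  rw [map_sub π, h.idem, sub_self, sub_zero] at h2
  calc ‖Q s a‖ = ‖Q s (π a) + Q s (a - π a)‖ := by rw [← map_add, add_sub_cancel]
    _ ≤ _ := (norm_add_le _ _).trans (by rw [mul_add]; exact add_le_add h1 h2)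

theorem Tube.lp_symm0 (h : Tube f x Q π T R ε Γ) (v : Eu d) : (Q 0).symm v = v := by
  rw [ContinuousLinearEquiv.symm_apply_eq, h.Q0]

theorem lp_psi (t : ℕ) (y y' : Eu d) : Psi f Q π t y - Psi f Q π t y' =
    ((Q t).symm (f^[t] y - f^[t] y') - π ((Q t).symm (f^[t] y - f^[t] y'))) + π (y - y') := by
  simp only [Psi, map_sub]
  abel

end Vale.Agent.P109
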