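import Mathlib
import Vale.Agent.P109.LPA

/-! Shadowing in a tube with prescribed stable and unstable coordinates. -/

namespace Vale.Agent.P109

open MeasureTheory Set Metric Module
open scoped ENNReal

theorem Tube.shadow {d : ℕ} {f : Eu d → Eu d} {x : ℕ → Eu d} {Q : ℕ → Eu d ≃L[ℝ] Eu d}
    {π : Eu d →L[ℝ] Eu d} {T : ℕ} {R ε Γ : ℝ} (h : Tube f x Q π T R ε Γ)
    (hs : 2 * T * Γ * ε ≤ 1) {y : Eu d} (hy : ∀ s ≤ T, ‖f^[s] y - x s‖ ≤ R / 2) (a : Eu d) {b : ℝ}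
    (hb : ‖π a‖ + ‖Q T (a - π a)‖ ≤ b) (hR : 2 * Γ * b < R / 2) :
    ∃ y', Psi f Q π T y' = Psi f Q π T y + a ∧ (∀ s ≤ T, ‖f^[s] y' - f^[s] y‖ ≤ 2 * Γ * b) ∧
      ‖y' - y - a‖ ≤ 2 * T * Γ ^ 2 * ε * b ∧
      ‖f^[T] y' - f^[T] y - Q T a‖ ≤ 2 * T * Γ ^ 2 * ε * b := by
  have hΓ : 0 ≤ Γ := zero_le_one.trans h.gam
  have hb0 : 0 ≤ b := (add_nonneg (norm_nonneg _) (norm_nonneg _)).trans hb
  have hr : 0 ≤ 2 * Γ * b := by positivity
  obtain ⟨ρ, hρ⟩ : ∃ ρ : (Fin (T + 1) → Eu d) → ℕ → Eu d, ∀ w j, Q (j + 1) (ρ w j) =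
      f (f^[j] y + w (Fin.ofNat (T + 1) j)) - f (f^[j] y) -
        Q (j + 1) ((Q j).symm (w (Fin.ofNat (T + 1) j))) :=
    ⟨fun w j => (Q (j + 1)).symm _, fun w j => (Q (j + 1)).apply_symm_apply _⟩
  have h1 : ∀ w : Fin (T + 1) → Eu d, ‖w‖ ≤ 2 * Γ * b → ∀ j < T,
      f^[j] y + w (Fin.ofNat (T + 1) j) ∈ ball (x j) R := fun w hw j hj => by
    rw [mem_ball_iff_norm, add_sub_right_comm]
    have := norm_le_pi_norm w (Fin.ofNat (T + 1) j)
    linarith [norm_add_le (f^[j] y - x j) (w (Fin.ofNat (T + 1) j)), hy j hj.le]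
  have h2 : ∀ w w' : Fin (T + 1) → Eu d, ‖w‖ ≤ 2 * Γ * b → ‖w'‖ ≤ 2 * Γ * b → ∀ j < T,
      ‖Q (j + 1) (ρ w j - ρ w' j)‖ ≤ ε * ‖w - w'‖ := fun w w' hw hw' j hj => by
    have h3 := h.lin j hj _ (h1 w hw j hj) _ (h1 w' hw' j hj)
    rw [add_sub_add_left_eq_sub] at h3
    refine le_trans (le_of_eq (congrArg _ ?_)) (h3.trans (mul_le_mul_of_nonneg_left
      (norm_le_pi_norm (w - w') (Fin.ofNat (T + 1) j)) h.eps))
    rw [map_sub, hρ, hρ, map_sub, map_sub]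
    abel
  have h3 : ∀ w : Fin (T + 1) → Eu d, ‖w‖ ≤ 2 * Γ * b → ∀ s ≤ T,
      ‖Q s (lpG π (ρ w) T s)‖ ≤ T * Γ * (ε * ‖w‖) := fun w hw s hs =>
    h.lp_bound _ hs le_rfl fun j hj => by
      have h4 := h2 w 0 hw (norm_zero.trans_le hr) j hj
      rwa [map_sub, hρ 0, Pi.zero_apply, add_zero, map_zero, map_zero, sub_self, sub_zero, sub_zero,
        sub_zero] at h4
  let F : (Fin (T + 1) → Eu d) → Fin (T + 1) → Eu d := fun w s => Q s (a + lpG π (ρ w) T s)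
  have hm : MapsTo F (closedBall 0 (2 * Γ * b)) (closedBall 0 (2 * Γ * b)) := fun w hw => by
    rw [mem_closedBall_zero_iff] at hw ⊢
    refine (pi_norm_le_iff_of_nonneg hr).2 fun s => ?_
    have h4 := (h.lp_lin (Nat.lt_succ_iff.1 s.2) a).trans (mul_le_mul_of_nonneg_left hb hΓ)
    have h5 := h3 w hw s (Nat.lt_succ_iff.1 s.2)
    have h6 := mul_le_mul_of_nonneg_right hs (norm_nonneg w)
    have h7 := norm_add_le (Q s a) (Q s (lpG π (ρ w) T s))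
    rw [← map_add] at h7
    change ‖Q s (a + lpG π (ρ w) T s)‖ ≤ _
    linarith
  have hc : ContractingWith (1 / 2) (hm.restrict F _ _) := by
    refine ⟨by norm_num, LipschitzWith.of_dist_le_mul fun w w' => ?_⟩
    change dist (F w) (F w') ≤ _ * dist (w : Fin (T + 1) → Eu d) w'
    rw [dist_eq_norm, dist_eq_norm]
    refine (pi_norm_le_iff_of_nonneg (by positivity)).2 fun s => ?_
    have h4 := h.lp_bound _ (Nat.lt_succ_iff.1 s.2) le_rfl
      (h2 w w' (mem_closedBall_zero_iff.1 w.2) (mem_closedBall_zero_iff.1 w'.2))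
    have h6 := mul_le_mul_of_nonneg_right hs (norm_nonneg (w.1 - w'.1))
    change ‖Q s (a + lpG π (ρ w) T s) - Q s (a + lpG π (ρ w') T s)‖ ≤ _
    rw [← map_sub, add_sub_add_left_eq_sub, lpG_sub]
    push_cast
    linarith
  obtain ⟨w, hw, hF, -⟩ := ContractingWith.exists_fixedPoint' isClosed_closedBall.isComplete hm hc
    (mem_closedBall_self hr) (edist_ne_top _ _)
  rw [mem_closedBall_zero_iff] at hw
  have h4 : ∀ s ≤ T, w (Fin.ofNat (T + 1) s) = Q s (a + lpG π (ρ w) T s) := fun s hs => by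
    have e : ((Fin.ofNat (T + 1) s : Fin (T + 1)) : ℕ) = s :=
      Nat.mod_eq_of_lt (Nat.lt_succ_of_le hs)
    have h5 : Q _ (a + lpG π (ρ w) T _) = _ := congrFun hF (Fin.ofNat (T + 1) s)
    rw [← h5, e]
  have h5 : ∀ s ≤ T, f^[s] (y + w (Fin.ofNat (T + 1) 0)) - f^[s] y = w (Fin.ofNat (T + 1) s) := by
    intro s hs
    induction s with
    | zero => exact add_sub_cancel_left _ _
    | succ s ih =>
      have h6 := h4 s (Nat.le_of_succ_le hs)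
      rw [h4 _ hs, lpG_succ _ hs, ← add_assoc, map_add, hρ, ← (Q s).symm_apply_eq.2 h6,
        Function.iterate_succ_apply', Function.iterate_succ_apply',
        ← ih (Nat.le_of_succ_le hs), add_sub_cancel, add_sub_cancel]
  have h6 : ∀ s ≤ T, ‖Q s (lpG π (ρ w) T s)‖ ≤ 2 * T * Γ ^ 2 * ε * b := fun s hs =>
    (h3 w hw s hs).trans ((mul_le_mul_of_nonneg_left (mul_le_mul_of_nonneg_left hw h.eps)
      (by positivity)).trans_eq (by ring))
  refine ⟨y + w (Fin.ofNat (T + 1) 0), ?_, fun s hs => ?_, ?_, ?_⟩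
  · rw [← sub_eq_iff_eq_add', lp_psi, h5 T le_rfl, add_sub_cancel_left, h4 T le_rfl,
      h4 0 (Nat.zero_le T), h.Q0, ContinuousLinearEquiv.symm_apply_apply]
    simp [lpG, map_sum, h.idem]
  · rw [h5 s hs]
    exact (norm_le_pi_norm w _).trans hw
  · have h7 := h6 0 (Nat.zero_le T)
    rw [h.Q0] at h7
    rwa [add_sub_cancel_left, h4 0 (Nat.zero_le T), h.Q0, add_sub_cancel_left]
  · rw [h5 T le_rfl, h4 T le_rfl, map_add, add_sub_cancel_left]
    exact h6 T le_rfl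

end Vale.Agent.P109
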