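import Mathlib
import Vale.Agent.P109.LP
import Vale.Agent.P109.Shadow

/-! Local product structure of the volume in a tube. -/

namespace Vale.Agent.P109

open MeasureTheory Set Metric Module
open scoped ENNReal

open scoped Pointwise

theorem Tube.local_prod {d : ℕ} {f : Eu d → Eu d} {x : ℕ → Eu d} {Q : ℕ → Eu d ≃L[ℝ] Eu d}
    {π : Eu d →L[ℝ] Eu d} {T : ℕ} {R ε Γ : ℝ} (h : Tube f x Q π T R ε Γ) {N : ℕ} (hN : N ≤ T)
    (Λ : Eu d ≃L[ℝ] Eu d) {lam r σ : ℝ} (hlam : 1 ≤ lam) (hΛ₁ : ∀ v, ‖v‖ ≤ ‖Λ v‖)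
    (hΛ₂ : ∀ v, ‖Λ v‖ ≤ lam * ‖v‖) (hΛπ : ∀ v, ‖Λ (Q N (π v))‖ ≤ 4 * ‖Λ (Q N v)‖) (hr : 0 < r)
    (hs : 20 * (d + 1) * (T + 1) * Γ ^ 2 * lam * ε ≤ 1) (hσ : 20 * Γ * r ≤ σ) (hR : σ < R / 2)
    (Y : Set (Eu d)) (hY : ∀ y ∈ Y, ∀ s ≤ T, ‖f^[s] y - x s‖ ≤ R / 2)
    (hd : ∀ y ∈ Y, ∀ y' ∈ Y, ‖Λ (f^[N] y - f^[N] y')‖ ≤ r) :
    volume Y * volume {v : Eu d | ‖Λ v‖ ≤ r} ≤ 27 *
      volume {y' | ∃ y ∈ Y, (∀ t, N + t ≤ T → ‖f^[t] y' - f^[N + t] y‖ ≤ σ) ∧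
        ‖Λ (y' - f^[N] y)‖ ≤ 11 * r} *
      volume {y' | ∃ y ∈ Y, (∀ t ≤ N, ‖f^[t] y' - f^[t] y‖ ≤ σ) ∧
        ‖Λ (f^[N] y' - f^[N] y)‖ ≤ 11 * r} := by
  rcases Y.eq_empty_or_nonempty with rfl | ⟨y₀, hy₀⟩
  · simp
  have hε := h.eps
  have hΓ := h.gam
  have hd0 : (0 : ℝ) ≤ d := Nat.cast_nonneg d
  have hσ0 : 0 < σ := lt_of_lt_of_le (by positivity) hσ
  have hsm : ∀ T' : ℕ, T' ≤ T → 8 * (d + 1) * (T' + 1) * Γ ^ 2 * ε ≤ 1 ∧ 2 * T' * Γ * ε ≤ 1 ∧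
      lam * (2 * T' * Γ ^ 2 * ε * (10 * r)) ≤ r := by
    intro T' hT'
    have h1 : (T' : ℝ) ≤ T := by exact_mod_cast hT'
    have h2 : (0 : ℝ) ≤ T' := Nat.cast_nonneg _
    have h3 : Γ ≤ Γ ^ 2 := by nlinarith
    have h4 : (T' + 1 : ℝ) * Γ ^ 2 * ε ≤ (T + 1) * Γ ^ 2 * lam * ε := by
      have : (T' + 1 : ℝ) * Γ ^ 2 ≤ (T + 1) * Γ ^ 2 * lam :=
        le_trans (by gcongr) (le_mul_of_one_le_right (by positivity) hlam)
      gcongr
    have h5 : (0 : ℝ) ≤ (T + 1) * Γ ^ 2 * lam * ε := by positivity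
    have h6 : 20 * (d + 1) * ((T + 1) * Γ ^ 2 * lam * ε) ≤ 1 := by linarith
    have h7 : (T + 1) * Γ ^ 2 * lam * ε ≤ 1 / 20 := by nlinarith
    refine ⟨by nlinarith, ?_, ?_⟩
    · have : (T' : ℝ) * Γ * ε ≤ (T' + 1) * Γ ^ 2 * ε := by gcongr; linarith
      linarith
    · have h8 : (T' : ℝ) * Γ ^ 2 * lam * ε ≤ (T + 1) * Γ ^ 2 * lam * ε := by gcongr; linarith
      have : lam * (2 * T' * Γ ^ 2 * ε * (10 * r)) = 20 * (T' * Γ ^ 2 * lam * ε) * r := by ring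
      rw [this]
      exact mul_le_of_le_one_left hr.le (by linarith)
  set α' : Set (Eu d) := {y' | ∃ y ∈ Y, (∀ t, N + t ≤ T → ‖f^[t] y' - f^[N + t] y‖ ≤ σ) ∧
    ‖Λ (y' - f^[N] y)‖ ≤ 11 * r} with hα'
  set β' : Set (Eu d) := {y' | ∃ y ∈ Y, (∀ t ≤ N, ‖f^[t] y' - f^[t] y‖ ≤ σ) ∧
    ‖Λ (f^[N] y' - f^[N] y)‖ ≤ 11 * r} with hβ'
  have hsh := h.shift hN
  set π' : Eu d →L[ℝ] Eu d :=
    (Q N : Eu d →L[ℝ] Eu d) ∘L π ∘L ((Q N).symm : Eu d →L[ℝ] Eu d) with hπ'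
  have π'_apply : ∀ v, π' v = Q N (π ((Q N).symm v)) := fun v => rfl
  have π'Q : ∀ v, π' (Q N v) = Q N (π v) := fun v => by
    rw [π'_apply, ContinuousLinearEquiv.symm_apply_apply]
  have hΛs : ∀ v, ‖Λ (π' v)‖ ≤ 4 * ‖Λ v‖ := fun v => by
    have := hΛπ ((Q N).symm v)
    rwa [ContinuousLinearEquiv.apply_symm_apply] at this
  have hΛu : ∀ v, ‖Λ (v - π' v)‖ ≤ 5 * ‖Λ v‖ := fun v => by
    rw [map_sub]
    linarith [norm_sub_le (Λ v) (Λ (π' v)), hΛs v]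
  have hid := hsh.idem
  set Xu : Set (Eu d) :=
    (fun y => Q N ((Q T).symm (f^[T] y) - π ((Q T).symm (f^[T] y)))) '' Y with hXu
  set Xs : Set (Eu d) := (fun y => Q N (π y)) '' Y with hXs
  set Bs : Set (Eu d) := {s | π' s = s ∧ ‖Λ (s - π' (f^[N] y₀))‖ ≤ 4 * r} with hBs
  set Bu : Set (Eu d) := {u | π' u = 0 ∧ ‖Λ (u - (f^[N] y₀ - π' (f^[N] y₀)))‖ ≤ 5 * r} with hBu
  have hprod := prod_vol π' hid (Xu := Xu) (Bu := Bu) (Xs := Xs) (Bs := Bs)
    (by rintro _ ⟨y, -, rfl⟩; rw [π'Q, map_sub π, h.idem, sub_self, map_zero])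
    (fun v hv => hv.1) (by rintro _ ⟨y, -, rfl⟩; rw [π'Q, h.idem]) (fun v hv => hv.1)
  set D := ENNReal.ofReal |LinearMap.det (Q N : Eu d →ₗ[ℝ] Eu d)| with hD
  have hDim : ∀ s : Set (Eu d), volume (Q N '' s) = D * volume s := fun s =>
    Measure.addHaar_image_continuousLinearEquiv volume (Q N) s
  have hD0 : D ≠ 0 := by
    rw [hD, ne_eq, ENNReal.ofReal_eq_zero, not_le, abs_pos]
    exact (LinearEquiv.isUnit_det' (Q N).toLinearEquiv).ne_zero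
  have hball : ∀ {a b c : Eu d}, ‖a - b‖ ≤ σ → ‖b - c‖ ≤ R / 2 → a ∈ ball c R := by
    intro a b c h1 h2
    rw [mem_ball_iff_norm]
    linarith [norm_sub_le_norm_sub_add_norm_sub a b c]
  have e1 : volume {v : Eu d | ‖Λ v‖ ≤ r} ≤ volume (Bu + Bs) := by
    rw [← measure_preimage_add volume (-f^[N] y₀) {v : Eu d | ‖Λ v‖ ≤ r}]
    refine measure_mono fun w hw => ?_
    have hw' : ‖Λ (w - f^[N] y₀)‖ ≤ r := by
      rw [sub_eq_neg_add]; exact hw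
    refine ⟨w - π' w, ⟨by rw [map_sub, hid, sub_self], ?_⟩, π' w, ⟨hid w, ?_⟩, by simp⟩
    · have := hΛu (w - f^[N] y₀)
      rw [map_sub π'] at this
      rw [show w - π' w - (f^[N] y₀ - π' (f^[N] y₀)) =
        w - f^[N] y₀ - (π' w - π' (f^[N] y₀)) by abel]
      linarith
    · have := hΛs (w - f^[N] y₀)
      rw [map_sub π'] at this
      linarith
  have e2 : D * volume Y ≤ 3 * volume (Xu + Xs) := by
    have h1 := (h.vol_psi (hsm T le_rfl).1 Y fun y hy s hs' =>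
      hball (b := f^[s] y) (by simpa using hσ0.le) (hY y hy s hs')).1
    calc D * volume Y ≤ D * (3 * volume (Psi f Q π T '' Y)) := by gcongr
      _ = 3 * volume (Q N '' (Psi f Q π T '' Y)) := by rw [hDim]; ring
      _ ≤ _ := by
        gcongr
        rintro _ ⟨_, ⟨y, hy, rfl⟩, rfl⟩
        exact ⟨_, mem_image_of_mem _ hy, _, mem_image_of_mem _ hy, by rw [Psi, map_add]⟩
  have e3 : volume (Xu + Bs) ≤ 3 * volume α' := by
    have hs' := hsm (T - N) (Nat.sub_le _ _)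
    refine le_trans (measure_mono ?_) (hsh.vol_psi hs'.1 α' ?_).2
    · rintro _ ⟨_, ⟨y, hy, rfl⟩, s, hs1, rfl⟩
      have ha : π' (s - π' (f^[N] y)) = s - π' (f^[N] y) := by rw [map_sub, hs1.1, hid]
      have ha2 : ‖Λ (s - π' (f^[N] y))‖ ≤ 8 * r := by
        have h1 := hΛs (f^[N] y₀ - f^[N] y)
        have h2 := hd y₀ hy₀ y hy
        rw [map_sub π', map_sub Λ] at h1
        have h3 := hs1.2
        rw [map_sub Λ] at h3 ⊢
        linarith [norm_sub_le_norm_sub_add_norm_sub (Λ s) (Λ (π' (f^[N] y₀))) (Λ (π' (f^[N] y)))]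
      obtain ⟨y', h1, h2, h3, -⟩ := hsh.shadow hs'.2.1 (y := f^[N] y)
        (fun t ht => by
          rw [← Function.iterate_add_apply, add_comm t N]
          exact hY y hy _ (by omega)) (s - π' (f^[N] y)) (b := 10 * r)
        (by rw [ha, sub_self, map_zero, norm_zero]; linarith [hΛ₁ (s - π' (f^[N] y))])
        (by linarith)
      refine ⟨y', ⟨y, hy, fun t ht => ?_, ?_⟩, ?_⟩
      · have := h2 t (by omega)
        rw [← Function.iterate_add_apply, add_comm t N] at this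
        linarith
      · have h4 := (hΛ₂ _).trans (mul_le_mul_of_nonneg_left h3 (by linarith))
        rw [map_sub Λ] at h4
        linarith [norm_le_norm_sub_add (Λ (y' - f^[N] y)) (Λ (s - π' (f^[N] y))), hs'.2.2]
      · rw [h1, Psi, ← Function.iterate_add_apply, Nat.sub_add_cancel hN, Nat.add_sub_cancel' hN]
        have h5 : ((Q N).symm.trans (Q T)).symm (f^[T] y) = Q N ((Q T).symm (f^[T] y)) := rfl
        rw [h5, π'Q]
        simp only [map_sub]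
        abel
    · rintro y' ⟨y, hy, h1, -⟩ t ht
      exact hball (h1 t (by omega)) (hY y hy _ (by omega))
  have e4 : volume (Bu + Xs) ≤ D * (3 * volume β') := by
    have hs' := hsm N hN
    have hm := h.mono hN
    refine le_trans (measure_mono ?_) ((hDim (Psi f Q π N '' β')).le.trans
      (mul_le_mul' le_rfl (hm.vol_psi hs'.1 β' ?_).2))
    · rintro _ ⟨u, hu, _, ⟨y, hy, rfl⟩, rfl⟩
      have ha : π ((Q N).symm (u - (f^[N] y - π' (f^[N] y)))) = 0 := by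
        apply (Q N).injective
        rw [← π'_apply, map_sub, map_sub, hu.1, hid, sub_self, sub_self, map_zero]
      have ha2 : ‖Λ (u - (f^[N] y - π' (f^[N] y)))‖ ≤ 10 * r := by
        have h1 := hΛu (f^[N] y₀ - f^[N] y)
        have h2 := hd y₀ hy₀ y hy
        rw [map_sub π', show f^[N] y₀ - f^[N] y - (π' (f^[N] y₀) - π' (f^[N] y)) =
          (f^[N] y₀ - π' (f^[N] y₀)) - (f^[N] y - π' (f^[N] y)) by abel, map_sub Λ] at h1
        have h3 := hu.2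
        rw [map_sub Λ] at h3 ⊢
        linarith [norm_sub_le_norm_sub_add_norm_sub (Λ u) (Λ (f^[N] y₀ - π' (f^[N] y₀)))
          (Λ (f^[N] y - π' (f^[N] y)))]
      obtain ⟨y', h1, h2, -, h3⟩ := hm.shadow hs'.2.1 (y := y)
        (fun t ht => hY y hy _ (by omega)) ((Q N).symm (u - (f^[N] y - π' (f^[N] y))))
        (b := 10 * r)
        (by
          rw [ha, sub_zero, norm_zero, ContinuousLinearEquiv.apply_symm_apply]
          linarith [hΛ₁ (u - (f^[N] y - π' (f^[N] y)))])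
        (by linarith)
      rw [ContinuousLinearEquiv.apply_symm_apply] at h3
      refine ⟨_, ⟨y', ⟨y, hy, fun t ht => (h2 t ht).trans (by linarith), ?_⟩, rfl⟩, ?_⟩
      · have h4 := (hΛ₂ _).trans (mul_le_mul_of_nonneg_left h3 (by linarith))
        rw [map_sub Λ] at h4
        linarith [norm_le_norm_sub_add (Λ (f^[N] y' - f^[N] y))
          (Λ (u - (f^[N] y - π' (f^[N] y)))), hs'.2.2]
      · rw [h1, Psi, map_add, map_add, map_sub, ContinuousLinearEquiv.apply_symm_apply,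
          ContinuousLinearEquiv.apply_symm_apply, ← π'_apply]
        simp only
        abel
    · rintro y' ⟨y, hy, h1, -⟩ t ht
      exact hball (h1 t ht) (hY y hy _ (by omega))
  refine (ENNReal.mul_le_mul_iff_right hD0 ENNReal.ofReal_ne_top).1 ?_
  calc D * (volume Y * volume {v : Eu d | ‖Λ v‖ ≤ r})
      = D * volume Y * volume {v : Eu d | ‖Λ v‖ ≤ r} := by ring
    _ ≤ 3 * volume (Xu + Xs) * volume (Bu + Bs) := by gcongr
    _ = 3 * (volume (Xu + Bs) * volume (Bu + Xs)) := by rw [mul_assoc, hprod]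
    _ ≤ 3 * (3 * volume α' * (D * (3 * volume β'))) := by gcongr
    _ = _ := by ring

end Vale.Agent.P109
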