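import Mathlib
import Vale.Agent.P109.LocalProd
import Vale.Agent.P109.Grid
import Vale.Agent.P109.Coc

/-! The product inequality for one cell. -/

namespace Vale.Agent.P109

open MeasureTheory Set Metric Module
open scoped ENNReal

variable {d : ℕ} {Ω : Type*} [MeasurableSpace Ω] {ν : Measure Ω} {S : Ω → Ω}

theorem PW.tube (P : PW d ν S) {z : Ω} {T : ℕ} {R Γ : ℝ} (hR : 0 ≤ R) (hΓ : 1 ≤ Γ)
    (hz : ∀ t < T, S^[t] z ∈ P.Good R) {π : Eu d →L[ℝ] Eu d} (hπ : ∀ v, π (π v) = π v)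
    (hst : ∀ s t, s ≤ t → t ≤ T → ∀ v, ‖coc P.A S z t (π v)‖ ≤ Γ * ‖coc P.A S z s v‖)
    (hun : ∀ s t, s ≤ t → t ≤ T → ∀ v, ‖coc P.A S z s (v - π v)‖ ≤ Γ * ‖coc P.A S z t v‖) :
    Tube P.f (fun t => P.Θ (S^[t] z)) (coc P.A S z) π T R (P.L * R) Γ where
  Q0 := fun _ => rfl
  lin := by
    intro t ht y hy y' hy'
    rw [coc_succ, ContinuousLinearEquiv.apply_symm_apply]
    exact P.good_lin R _ (hz t ht) y hy y' hy'
  idem := hπ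
  stab := hst
  unst := hun
  eps := mul_nonneg (zero_le_one.trans P.one_le) hR
  gam := hΓ

theorem PW.cell_ineq (P : PW d ν S) {N h : ℕ} (hN : 0 < N) {z₀ : Ω} {π : Eu d →L[ℝ] Eu d}
    {R Γ lam r σ : ℝ} (hgood : ∀ t < 2 * N, S^[t] z₀ ∈ P.Good R)
    (ht : Tube P.f (fun t => P.Θ (S^[t] z₀)) (coc P.A S z₀) π (2 * N - 1) R (P.L * R) Γ)
    (Λ : Eu d ≃L[ℝ] Eu d) (hlam : 1 ≤ lam) (hΛ₁ : ∀ v, ‖v‖ ≤ ‖Λ v‖)
    (hΛ₂ : ∀ v, ‖Λ v‖ ≤ lam * ‖v‖)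
    (hΛπ : ∀ v, ‖Λ (coc P.A S z₀ N (π v))‖ ≤ 4 * ‖Λ (coc P.A S z₀ N v)‖) (hr : 0 < r)
    (hs : 20 * (d + 1) * (2 * N) * Γ ^ 2 * lam * (P.L * R) ≤ 1)
    (hσ : 80 * (d + 1) * Γ * r ≤ σ) (hR : σ < R / 2) (hρ : d * (1 / 2 : ℝ) ^ h ≤ R / 2)
    (c : Eu d) (Y : Set Ω) (hY₁ : ∀ y ∈ Y, P.itin h (2 * N) y = P.itin h (2 * N) z₀)
    (hY₂ : ∀ y ∈ Y, ∀ t < 2 * N, GG ((1 / 2 : ℝ) ^ h) σ (P.Θ (S^[t] y)))
    (hY₃ : ∀ y ∈ Y, ‖Λ (P.Θ (S^[N] y)) - c‖ ≤ 2 * (d + 1) * r) :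
    ν Y * volume {y : Eu d | ‖Λ y - c‖ ≤ 48 * (d + 1) * r} ≤
      ENNReal.ofReal (27 * 12 ^ d * P.L ^ 3) *
        ν {z | P.itin h N z = P.itin h N (S^[N] z₀) ∧ ‖Λ (P.Θ z) - c‖ ≤ 48 * (d + 1) * r} *
        ν {z | P.itin h N z = P.itin h N z₀ ∧ ‖Λ (P.Θ (S^[N] z)) - c‖ ≤ 48 * (d + 1) * r} := by
  have hd0 : (0 : ℝ) ≤ d := Nat.cast_nonneg d
  have hρ0 : (0 : ℝ) < (1 / 2 : ℝ) ^ h := by positivity
  have hL0 : 0 ≤ P.L := zero_le_one.trans P.one_le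
  have hr1 : 0 < 4 * ((d : ℝ) + 1) * r := by positivity
  have hT : ((2 * N - 1 : ℕ) : ℝ) + 1 = 2 * N := by
    rw [Nat.cast_sub (by omega)]; push_cast; ring
  have hclose : ∀ y ∈ Y, ∀ s < 2 * N, ‖P.Θ (S^[s] y) - P.Θ (S^[s] z₀)‖ ≤ R / 2 := fun y hy s hs' =>
    (norm_sub_of_box_eq hρ0 ((P.itin_eq_iff h (2 * N) y z₀).1 (hY₁ y hy) s hs')).trans hρ
  have key := ht.local_prod (N := N) (by omega) Λ hlam hΛ₁ hΛ₂ hΛπ hr1 (by rw [hT]; exact hs)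
    (σ := σ) (by linarith) hR (P.Θ '' Y)
    (by
      rintro _ ⟨y, hy, rfl⟩ s hs'
      rw [P.semi_iter]
      exact hclose y hy s (by omega))
    (by
      rintro _ ⟨y, hy, rfl⟩ _ ⟨y', hy', rfl⟩
      rw [P.semi_iter, P.semi_iter, map_sub]
      have := norm_sub_le_norm_sub_add_norm_sub (Λ (P.Θ (S^[N] y))) c (Λ (P.Θ (S^[N] y')))
      have h2 := hY₃ y hy
      have h3 := hY₃ y' hy'
      rw [norm_sub_rev] at h3
      linarith)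
  set α' : Set (Eu d) := {y' | ∃ y ∈ P.Θ '' Y,
    (∀ t, N + t ≤ 2 * N - 1 → ‖P.f^[t] y' - P.f^[N + t] y‖ ≤ σ) ∧
      ‖Λ (y' - P.f^[N] y)‖ ≤ 11 * (4 * (d + 1) * r)} with hα'
  set β' : Set (Eu d) := {y' | ∃ y ∈ P.Θ '' Y, (∀ t ≤ N, ‖P.f^[t] y' - P.f^[t] y‖ ≤ σ) ∧
      ‖Λ (P.f^[N] y' - P.f^[N] y)‖ ≤ 11 * (4 * (d + 1) * r)} with hβ'
  have hα : volume α' ≤ ENNReal.ofReal P.L *
      ν {z | P.itin h N z = P.itin h N (S^[N] z₀) ∧ ‖Λ (P.Θ z) - c‖ ≤ 48 * (d + 1) * r} := by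
    refine (P.vol_le α' ?_).trans (by
      gcongr
      rintro w ⟨_, ⟨y, hy, rfl⟩, h1, h2⟩
      refine ⟨(P.itin_eq_iff h N _ _).2 fun t ht' => ?_, ?_⟩
      · have h3 := h1 t (by omega)
        rw [P.semi_iter, P.semi_iter] at h3
        rw [(hY₂ y hy (N + t) (by omega)).box_eq hρ0 h3, ← Function.iterate_add_apply,
          add_comm t N]
        exact (P.itin_eq_iff h (2 * N) y z₀).1 (hY₁ y hy) _ (by omega)
      · rw [P.semi_iter, map_sub] at h2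
        have := norm_sub_le_norm_sub_add_norm_sub (Λ (P.Θ w)) (Λ (P.Θ (S^[N] y))) c
        have h3 := hY₃ y hy
        nlinarith)
    rintro y' ⟨_, ⟨y, hy, rfl⟩, h1, -⟩
    refine P.good_sub R _ (hgood N (by omega)) ?_
    have h3 := h1 0 (by omega)
    rw [add_zero, P.semi_iter, Function.iterate_zero_apply] at h3
    have h4 := hclose y hy N (by omega)
    have := norm_sub_le_norm_sub_add_norm_sub y' (P.Θ (S^[N] y)) (P.Θ (S^[N] z₀))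
    rw [mem_ball_iff_norm]
    linarith
  have hβ : volume β' ≤ ENNReal.ofReal P.L *
      ν {z | P.itin h N z = P.itin h N z₀ ∧ ‖Λ (P.Θ (S^[N] z)) - c‖ ≤ 48 * (d + 1) * r} := by
    refine (P.vol_le β' ?_).trans (by
      gcongr
      rintro w ⟨_, ⟨y, hy, rfl⟩, h1, h2⟩
      refine ⟨(P.itin_eq_iff h N _ _).2 fun t ht' => ?_, ?_⟩
      · have h3 := h1 t (by omega)
        rw [P.semi_iter, P.semi_iter] at h3
        rw [(hY₂ y hy t (by omega)).box_eq hρ0 h3]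
        exact (P.itin_eq_iff h (2 * N) y z₀).1 (hY₁ y hy) _ (by omega)
      · rw [P.semi_iter, P.semi_iter, map_sub] at h2
        have := norm_sub_le_norm_sub_add_norm_sub (Λ (P.Θ (S^[N] w))) (Λ (P.Θ (S^[N] y))) c
        have h3 := hY₃ y hy
        nlinarith)
    rintro y' ⟨_, ⟨y, hy, rfl⟩, h1, -⟩
    refine P.good_sub R _ (hgood 0 (by omega)) ?_
    have h3 := h1 0 (by omega)
    have h4 := hclose y hy 0 (by omega)
    simp only [Function.iterate_zero_apply] at h3 h4 ⊢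
    have := norm_sub_le_norm_sub_add_norm_sub y' (P.Θ y) (P.Θ z₀)
    rw [mem_ball_iff_norm]
    linarith
  have hνY : ν Y ≤ ENNReal.ofReal P.L * volume (P.Θ '' Y) :=
    (measure_mono (subset_preimage_image P.Θ Y)).trans (P.le_vol _)
  have hC : volume {y : Eu d | ‖Λ y - c‖ ≤ 48 * (d + 1) * r} =
      ENNReal.ofReal (12 ^ d) * volume {v : Eu d | ‖Λ v‖ ≤ 4 * (d + 1) * r} := by
    rw [← vol_ellipsoid Λ c (by norm_num) hr1]
    congr 1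
    ext y
    simp only [mem_ofPred_eq]
    rw [show (12 : ℝ) * (4 * (d + 1) * r) = 48 * (d + 1) * r by ring]
  have hconst : ENNReal.ofReal (27 * 12 ^ d * P.L ^ 3) = 27 * ENNReal.ofReal (12 ^ d) *
      ENNReal.ofReal P.L ^ 3 := by
    rw [ENNReal.ofReal_mul (by positivity), ENNReal.ofReal_mul (by norm_num),
      ENNReal.ofReal_pow hL0]
    norm_num
  rw [hC, hconst]
  calc _ ≤ ENNReal.ofReal P.L * volume (P.Θ '' Y) *
        (ENNReal.ofReal (12 ^ d) * volume {v : Eu d | ‖Λ v‖ ≤ 4 * (d + 1) * r}) := by gcongr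
    _ = ENNReal.ofReal P.L * ENNReal.ofReal (12 ^ d) *
        (volume (P.Θ '' Y) * volume {v : Eu d | ‖Λ v‖ ≤ 4 * (d + 1) * r}) := by ring
    _ ≤ ENNReal.ofReal P.L * ENNReal.ofReal (12 ^ d) * (27 * volume α' * volume β') := by gcongr
    _ ≤ ENNReal.ofReal P.L * ENNReal.ofReal (12 ^ d) * (27 * (ENNReal.ofReal P.L *
        ν {z | P.itin h N z = P.itin h N (S^[N] z₀) ∧ ‖Λ (P.Θ z) - c‖ ≤ 48 * (d + 1) * r}) *
        (ENNReal.ofReal P.L * ν {z | P.itin h N z = P.itin h N z₀ ∧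
          ‖Λ (P.Θ (S^[N] z)) - c‖ ≤ 48 * (d + 1) * r})) := by gcongr
    _ = _ := by ring

end Vale.Agent.P109
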