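import Mathlib
import Vale.Agent.P109.Defs

/-! A two-source extractor (Lindsey lemma) and the code. -/

namespace Vale.Agent.P109

open MeasureTheory Set Metric Module
open scoped ENNReal

theorem extr_card_restrict {A B : Type} [Fintype A] [Fintype B] [DecidableEq A] [DecidableEq B]
    {ι : A → B} (hι : Function.Injective ι) (v : A → ZMod 2) :
    (Finset.univ.filter fun D : B → ZMod 2 => D ∘ ι = v).card * 2 ^ Fintype.card A =
      2 ^ Fintype.card B := by
  let φ : (B → ZMod 2) →+ (A → ZMod 2) := AddMonoidHom.mk' (fun D => D ∘ ι) fun _ _ => rfl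
  have hs : ∀ w, w ∈ range φ := fun w => hι.surjective_comp_right w
  have h1 := Finset.card_eq_sum_card_fiberwise (f := φ) (s := Finset.univ) (t := Finset.univ)
    fun _ _ => Finset.mem_coe.2 (Finset.mem_univ _)
  rw [Finset.sum_congr rfl fun w _ => AddMonoidHom.card_fiber_eq_of_mem_range φ (hs w) (hs v),
    Finset.sum_const, Finset.card_univ, Finset.card_univ, Fintype.card_fun, Fintype.card_fun,
    ZMod.card, smul_eq_mul, mul_comm] at h1
  exact h1.symm

theorem extr_lhl {V R P : Type} [Fintype V] [Fintype R] [Fintype P] [DecidableEq V]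
    [DecidableEq P] (Ext : V → R → P) (hP : 0 < Fintype.card P)
    (hu : ∀ v v', v ≠ v' →
      (Finset.univ.filter fun r => Ext v r = Ext v' r).card * Fintype.card P = Fintype.card R)
    (x : V → ℝ) (y : R → P → ℝ) (c : ℝ) (hc : 0 ≤ c) (hx : ∀ v, 0 ≤ x v) (hy : ∀ r p, 0 ≤ y r p)
    (hxc : ∀ v, x v ≤ c) (hyc : ∀ r, ∑ p, y r p ≤ c) :
    ∑ v, ∑ r, x v * y r (Ext v r) ≤ (∑ v, x v) * (∑ r, ∑ p, y r p) / Fintype.card P +
      √(Fintype.card R) * c * √((∑ v, x v) * (∑ r, ∑ p, y r p)) := by
  set S := ∑ v, x v with hS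
  set Y := ∑ r, ∑ p, y r p with hY
  set m : ℝ := (Fintype.card P : ℝ) with hm
  set N : ℝ := (Fintype.card R : ℝ) with hN
  have hm0 : 0 < m := by rw [hm]; exact_mod_cast hP
  have hN0 : 0 ≤ N := Nat.cast_nonneg _
  have hS0 : 0 ≤ S := Finset.sum_nonneg fun v _ => hx v
  let g : R → P → ℝ := fun r p => ∑ v, if Ext v r = p then x v else 0
  have h1 : ∑ v, ∑ r, x v * y r (Ext v r) = ∑ r, ∑ p, y r p * g r p := by
    rw [Finset.sum_comm]
    refine Finset.sum_congr rfl fun r _ => ?_
    simp only [g, Finset.mul_sum, mul_ite, mul_zero]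
    rw [Finset.sum_comm]
    simp [mul_comm]
  have h2 : ∀ r, ∑ p, g r p = S := fun r => by
    simp only [g]
    rw [Finset.sum_comm]
    simp [hS]
  have h3 : ∀ r, ∑ p, g r p ^ 2 = ∑ v, ∑ v', if Ext v r = Ext v' r then x v * x v' else 0 := by
    intro r
    simp only [g, pow_two, Finset.sum_mul_sum]
    rw [Finset.sum_comm]
    refine Finset.sum_congr rfl fun v _ => ?_
    rw [Finset.sum_comm]
    refine Finset.sum_congr rfl fun v' _ => ?_
    simp only [ite_mul, zero_mul, mul_ite, mul_zero, eq_comm (a := Ext v' r)]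
    simp
  have h4 : ∑ r, ∑ p, g r p ^ 2 ≤ N / m * S ^ 2 + N * (c * S) := by
    simp only [h3]
    rw [Finset.sum_comm, pow_two, hS, Finset.sum_mul_sum, Finset.mul_sum, Finset.mul_sum,
      Finset.mul_sum, ← Finset.sum_add_distrib]
    refine Finset.sum_le_sum fun v _ => ?_
    rw [Finset.sum_comm, Finset.mul_sum]
    have h5 : ∀ v', ∑ r, (if Ext v r = Ext v' r then x v * x v' else 0) ≤
        N / m * (x v * x v') + if v = v' then N * (c * x v) else 0 := by
      intro v'
      have hp := mul_nonneg (hx v) (hx v')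
      split_ifs with h
      · subst h
        simp only [if_true, Finset.sum_const, Finset.card_univ, nsmul_eq_mul, ← hN]
        have := mul_le_mul_of_nonneg_left (mul_le_mul_of_nonneg_right (hxc v) (hx v)) hN0
        have := mul_nonneg (div_nonneg hN0 hm0.le) hp
        linarith
      · rw [← Finset.sum_filter, Finset.sum_const, nsmul_eq_mul, add_zero]
        refine le_of_eq (congrArg (· * _) ?_)
        rw [eq_div_iff hm0.ne', hm, hN]
        exact_mod_cast hu v v' h
    refine (Finset.sum_le_sum fun v' _ => h5 v').trans (le_of_eq ?_)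
    simp [Finset.sum_add_distrib]
  have h6 : ∑ q : R × P, (g q.1 q.2 - S / m) ^ 2 ≤ N * (c * S) := by
    have e : ∀ r, ∑ p, (g r p - S / m) ^ 2 = ∑ p, g r p ^ 2 - S ^ 2 / m := fun r => by
      simp only [sub_sq, Finset.sum_add_distrib, Finset.sum_sub_distrib, ← Finset.sum_mul,
        ← Finset.mul_sum, h2, Finset.sum_const, Finset.card_univ, nsmul_eq_mul, ← hm]
      field_simp
      ring
    rw [Fintype.sum_prod_type]
    simp only [e, Finset.sum_sub_distrib, Finset.sum_const, Finset.card_univ, nsmul_eq_mul, ← hN]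
    have : N * (S ^ 2 / m) = N / m * S ^ 2 := by ring
    linarith
  have h7 : ∑ q : R × P, y q.1 q.2 ^ 2 ≤ c * Y := by
    rw [Fintype.sum_prod_type, hY, Finset.mul_sum]
    refine Finset.sum_le_sum fun r _ => ?_
    rw [Finset.mul_sum]
    refine Finset.sum_le_sum fun p _ => ?_
    rw [pow_two]
    exact mul_le_mul_of_nonneg_right
      ((Finset.single_le_sum (fun p _ => hy r p) (Finset.mem_univ p)).trans (hyc r)) (hy r p)
  have h8 := Real.sum_mul_le_sqrt_mul_sqrt Finset.univ (fun q : R × P => y q.1 q.2)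
    fun q => g q.1 q.2 - S / m
  have h9 : ∑ q : R × P, y q.1 q.2 * (g q.1 q.2 - S / m) =
      ∑ r, ∑ p, y r p * g r p - S * Y / m := by
    rw [Fintype.sum_prod_type]
    simp only [mul_sub, Finset.sum_sub_distrib, ← Finset.sum_mul, ← hY]
    ring
  have h10 : √(c * Y) * √(N * (c * S)) = √N * c * √(S * Y) := by
    rw [Real.sqrt_mul hc, Real.sqrt_mul hN0, Real.sqrt_mul hc, Real.sqrt_mul hS0]
    have := Real.mul_self_sqrt hc
    linear_combination (√Y * √N * √S) * this
  have h11 := mul_le_mul (Real.sqrt_le_sqrt h7) (Real.sqrt_le_sqrt h6) (Real.sqrt_nonneg _)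
    (Real.sqrt_nonneg _)
  rw [h1]
  linarith

theorem extractor (A P : Type) [Fintype A] [Fintype P] [DecidableEq A] [DecidableEq P]
    (hA : 0 < Fintype.card A) (h : Fintype.card P ≤ Fintype.card A) :
    ∃ Ext : (A → ZMod 2) → (A → ZMod 2) → (P → ZMod 2), ExtProp Ext := by
  obtain ⟨ι⟩ := Function.Embedding.nonempty_of_card_le h
  let e : (A → ZMod 2) ≃ₗ[ZMod 2] GaloisField 2 (Fintype.card A) :=
    LinearEquiv.ofFinrankEq _ _ (by rw [GaloisField.finrank 2 hA.ne']; simp)
  refine ⟨fun v r => e.symm (e v * e r) ∘ ι, fun x y c hx hy hxc hyc => ?_⟩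
  have key := extr_lhl (fun v r : A → ZMod 2 => e.symm (e v * e r) ∘ ι) Fintype.card_pos ?_ x y c
    ((hx 0).trans (hxc 0)) hx hy hxc hyc
  · simpa using key
  · intro v v' hv
    have h0 : e v - e v' ≠ 0 := sub_ne_zero.2 (e.injective.ne hv)
    let σ : (A → ZMod 2) ≃ (A → ZMod 2) :=
      e.toEquiv.trans ((Equiv.mulLeft₀ _ h0).trans e.symm.toEquiv)
    have h1 := extr_card_restrict ι.injective 0
    rw [Fintype.card_fun, Fintype.card_fun, ZMod.card, ← h1]
    congr 1
    refine Finset.card_equiv σ fun r => ?_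
    simp only [Finset.mem_filter, Finset.mem_univ, true_and]
    change _ ↔ e.symm ((e v - e v') * e r) ∘ ι = 0
    rw [sub_mul, map_sub, ← sub_eq_zero]
    rfl

end Vale.Agent.P109
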