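import Mathlib
import Vale.Agent.P109.Extr

/-! The code with ties at all levels. -/

namespace Vale.Agent.P109

open MeasureTheory Set Metric Module
open scoped ENNReal

theorem code_lt {s q r m : ℕ} (hs : s < q) (hr : r < m) : s * m + r < q * m :=
  calc s * m + r < (s + 1) * m := by rw [add_mul, one_mul]; omega
    _ ≤ q * m := Nat.mul_le_mul_right _ hs

theorem code_div {s r m : ℕ} (hr : r < m) : (s * m + r) / m = s := by
  rw [add_comm, Nat.add_mul_div_right _ _ (by omega), Nat.div_eq_of_lt hr, zero_add]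

theorem code_mod {s r m : ℕ} (hr : r < m) : (s * m + r) % m = r := by
  rw [add_comm, Nat.add_mul_mod_self_right, Nat.mod_eq_of_lt hr]

theorem code_inj {q J : ℕ} (c : ℕ) {a b : Fin q × Fin J}
    (h : (c + a.1) * (2 * J) + a.2 = (c + b.1) * (2 * J) + b.2) : a = b := by
  have ha : (a.2 : ℕ) < 2 * J := by omega
  have hb : (b.2 : ℕ) < 2 * J := by omega
  have h1 := congrArg (· / (2 * J)) h
  have h2 := congrArg (· % (2 * J)) h
  simp only [code_div ha, code_div hb, code_mod ha, code_mod hb] at h1 h2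
  exact Prod.ext (Fin.ext (by omega)) (Fin.ext h2)

theorem code_exists (J k : ℕ) (hJ : 0 < J) (hk : 0 < k) : ∃ code, IsCode J k code := by
  have hq : ∀ i, 0 < k * 2 ^ i := fun i => by positivity
  choose Ext hExt using fun i => extractor (Fin (k * 2 ^ i) × Fin J) (Fin (k * 2 ^ i))
    (by simpa using ⟨hk, hJ⟩) (by simpa using Nat.le_mul_of_pos_right _ hJ)
  let Dt : (Fin (nlev J k J) → ZMod 2) → ℕ → ZMod 2 := fun D a =>
    if h : a < nlev J k J then D ⟨a, h⟩ else 0
  have hDt : ∀ D (a : Fin (nlev J k J)), Dt D a = D a := fun D a => dif_pos a.2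
  let F : ℕ → ℕ → ℕ → (Fin (nlev J k J) → ZMod 2) → ZMod 2 := fun i B o D =>
    if h : o < k * 2 ^ i then
      Ext i (fun p => Dt D ((B * (4 * (k * 2 ^ i)) + p.1) * (2 * J) + p.2))
        (fun p => Dt D ((B * (4 * (k * 2 ^ i)) + 3 * (k * 2 ^ i) + p.1) * (2 * J) + p.2)) ⟨o, h⟩
    else 0
  let G : ℕ → ℕ → (Fin (nlev J k J) → ZMod 2) → ZMod 2 := fun i s D =>
    F i (s / (4 * (k * 2 ^ i))) (s % (4 * (k * 2 ^ i)) - 3 * (k * 2 ^ i)) D
  refine ⟨fun D a => if a % (2 * J) < J then Dt D a else G (a % (2 * J) - J) (a / (2 * J)) D,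
    fun i hi => ⟨Ext i, hExt i, fun B hB => ?_⟩⟩
  have hn : nlev J k i = 4 * (k * 2 ^ i * (2 * J)) := by
    unfold nlev
    ring
  have b1 : ∀ (s : Fin (k * 2 ^ i)) (r : ℕ), r < 2 * J →
      B * nlev J k i ≤ (B * (4 * (k * 2 ^ i)) + s) * (2 * J) + r ∧
      4 * ((B * (4 * (k * 2 ^ i)) + s) * (2 * J) + r) < (4 * B + 1) * nlev J k i := by
    intro s r hr
    have := code_lt s.2 hr
    rw [hn]
    constructor <;> nlinarith
  have b2 : ∀ (s : Fin (k * 2 ^ i)) (r : ℕ), r < 2 * J →
      (4 * B + 3) * nlev J k i ≤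
        4 * ((B * (4 * (k * 2 ^ i)) + 3 * (k * 2 ^ i) + s) * (2 * J) + r) ∧
      (B * (4 * (k * 2 ^ i)) + 3 * (k * 2 ^ i) + s) * (2 * J) + r < (B + 1) * nlev J k i := by
    intro s r hr
    have := code_lt s.2 hr
    rw [hn]
    constructor <;> nlinarith
  have r2 : ∀ r : Fin J, (r : ℕ) < 2 * J := fun r => by omega
  have b3 : ∀ a : Fin (k * 2 ^ i) × Fin J,
      (B * (4 * (k * 2 ^ i)) + a.1) * (2 * J) + a.2 < nlev J k J := fun a => by
    have := (b1 a.1 a.2 (r2 _)).2
    nlinarith
  refine ⟨fun a => ⟨_, b3 a⟩, fun a => ⟨_, (b2 a.1 a.2 (r2 _)).2.trans_le hB⟩,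
    fun p => (B * (4 * (k * 2 ^ i)) + 3 * (k * 2 ^ i) + p) * (2 * J) + (J + i),
    fun a b h => code_inj _ (congrArg Fin.val h), fun a b h => code_inj _ (congrArg Fin.val h),
    fun a => b1 a.1 a.2 (r2 _), fun a => b2 a.1 a.2 (r2 _), fun p => b2 p _ (by omega),
    fun D => ⟨fun a => ?_, fun a => ?_, fun p => ?_⟩⟩
  · rw [← hDt D]
    exact if_pos (by rw [code_mod (r2 _)]; exact a.2.2)
  · rw [← hDt D]
    exact if_pos (by rw [code_mod (r2 _)]; exact a.2.2)
  · have h1 : J + i < 2 * J := by omega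
    have h2 : 3 * (k * 2 ^ i) + p < 4 * (k * 2 ^ i) := by omega
    dsimp only
    rw [code_mod h1, code_div h1, if_neg (by omega), Nat.add_sub_cancel_left]
    simp only [G]
    rw [add_assoc, code_mod h2, code_div h2, Nat.add_sub_cancel_left]
    refine (dif_pos p.2).trans ?_
    congr 1
    · funext a
      exact hDt D ⟨_, b3 a⟩
    · funext a
      exact hDt D ⟨_, (b2 a.1 a.2 (r2 _)).2.trans_le hB⟩

theorem word_exists (J k : ℕ) (hJ : 0 < J) (hk : 0 < k) : ∃ wd, IsWord J k wd := by
  obtain ⟨code, hc⟩ := code_exists J k hJ hk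
  let e : (Fin (nlev J k J) → ZMod 2) ≃ Fin (2 ^ nlev J k J) :=
    Fintype.equivFinOfCardEq (by simp)
  let dat : ℕ → Fin (nlev J k J) → ZMod 2 := fun x =>
    if h : x < 2 ^ nlev J k J then e.symm ⟨x, h⟩ else 0
  refine ⟨_, code, dat, hc, ⟨mapsTo_univ _ _, fun x hx y hy h => ?_, fun D _ => ?_⟩, fun _ => rfl⟩
  · simp only [dat, dif_pos (mem_Iio.1 hx), dif_pos (mem_Iio.1 hy)] at h
    exact congrArg Fin.val (e.symm.injective h)
  · exact ⟨e D, (e D).2, by simp [dat]⟩

/-- Number of data vectors with prescribed values on an injective family of positions. -/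
theorem card_restrict {A B : Type} [Fintype A] [Fintype B] [DecidableEq A] [DecidableEq B]
    {ι : A → B} (hι : Function.Injective ι) (v : A → ZMod 2) :
    (Finset.univ.filter fun D : B → ZMod 2 => D ∘ ι = v).card * 2 ^ Fintype.card A =
      2 ^ Fintype.card B := extr_card_restrict hι v

theorem code_count (u M : ℕ) :
    4 * ((Finset.range (4 * u * (2 * M))).filter fun a => 2 * a < 4 * u * (2 * M) ∧
      4 * u ≤ 4 * (a % (4 * u)) ∧ 4 * (a % (4 * u)) < 3 * (4 * u)).card = 4 * u * (2 * M) := by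
  rcases Nat.eq_zero_or_pos u with rfl | hu
  · simp
  have h : ((Finset.range (4 * u * (2 * M))).filter fun a => 2 * a < 4 * u * (2 * M) ∧
      4 * u ≤ 4 * (a % (4 * u)) ∧ 4 * (a % (4 * u)) < 3 * (4 * u)).card =
      (Finset.range M ×ˢ Finset.Ico u (3 * u)).card := by
    refine Finset.card_nbij' (fun a => (a / (4 * u), a % (4 * u))) (fun p => p.1 * (4 * u) + p.2)
      ?_ ?_ ?_ ?_
    · intro a ha
      simp only [Finset.coe_filter, Finset.mem_range, mem_ofPred_eq] at ha
      simp only [Finset.coe_product, Finset.coe_range, Finset.coe_Ico, mem_prod, mem_Iio, mem_Ico]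
      refine ⟨Nat.div_lt_of_lt_mul (by nlinarith [ha.2.1]), by omega, by omega⟩
    · intro p hp
      simp only [Finset.coe_product, Finset.coe_range, Finset.coe_Ico, mem_prod, mem_Iio,
        mem_Ico] at hp
      have h1 : p.2 < 4 * u := by omega
      have h2 := code_lt hp.1 h1
      simp only [Finset.coe_filter, Finset.mem_range, mem_ofPred_eq, code_mod h1]
      refine ⟨by nlinarith, by nlinarith, by omega, by omega⟩
    · intro a _
      exact Nat.div_add_mod' _ _
    · intro p hp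
      simp only [Finset.coe_product, Finset.coe_range, Finset.coe_Ico, mem_prod, mem_Iio,
        mem_Ico] at hp
      have h1 : p.2 < 4 * u := by omega
      simp only [code_mod h1, code_div h1]
  rw [h, Finset.card_product, Finset.card_range, Nat.card_Ico, show 3 * u - u = 2 * u by omega]
  ring

/-- Number of letter positions in the first half of the top word and in the middle half of their
block of level i. -/
theorem card_tie_positions (J k i : ℕ) (hi : i < J) :
    4 * ((Finset.range (nlev J k J)).filter fun a => 2 * a < nlev J k J ∧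
      nlev J k i ≤ 4 * (a % nlev J k i) ∧ 4 * (a % nlev J k i) < 3 * nlev J k i).card =
      nlev J k J := by
  obtain ⟨j, rfl⟩ := Nat.exists_eq_add_of_lt hi
  have h1 : nlev (i + j + 1) k i = 4 * (2 * (i + j + 1) * k * 2 ^ i) := by
    unfold nlev
    ring
  have h2 : nlev (i + j + 1) k (i + j + 1) = 4 * (2 * (i + j + 1) * k * 2 ^ i) * (2 * 2 ^ j) := by
    unfold nlev
    ring
  rw [h1, h2]
  exact code_count _ _

end Vale.Agent.P109
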