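import Mathlib
import Vale.Agent.P109.FinRV

/-! Conditional entropy of finite random variables. -/

namespace Vale.Agent.P109

open MeasureTheory Set Metric Module
open scoped ENNReal

variable {Ω Ω' α β γ : Type*} [MeasurableSpace Ω] [MeasurableSpace Ω'] {ν : Measure Ω}

theorem ent_integrable [IsFiniteMeasure ν] {U : Ω → α} {D : Ω → β} (hU : FinRV U) (hD : FinRV D) :
    Integrable (fun z => Real.log (pr ν D z / pr ν (fun y => (U y, D y)) z)) ν :=
  (hU.prod hD).integrable fun p =>
    Real.log (ν.real (D ⁻¹' {p.2}) / ν.real ((fun y => (U y, D y)) ⁻¹' {p}))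

theorem ent_pr_pair (U : Ω → α) (D : Ω → β) (z : Ω) :
    pr ν (fun y => (U y, D y)) z = ν.real (D ⁻¹' {D z} ∩ U ⁻¹' {U z}) := by
  unfold pr
  congr 1
  ext y
  simp [and_comm]

theorem ent_cond_sum [IsFiniteMeasure ν] {U : Ω → α} (hU : FinRV U) (E : Set Ω) (t : Finset α) :
    ∑ a ∈ t, ν.real (E ∩ U ⁻¹' {a}) / ν.real E ≤ 1 := by
  rw [← Finset.sum_div]
  exact div_le_one_of_le₀ (hU.sum_measure_le E t) measureReal_nonneg

/-- The conditional entropy is at most the log-loss of any predictor. -/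
theorem Hc_le_predictor [IsProbabilityMeasure ν] {U : Ω → α} {D : Ω → β} (hU : FinRV U)
    (hD : FinRV D) (q : α → β → ℝ) (hq : ∀ a b, 0 ≤ q a b)
    (hsum : ∀ (b : β) (t : Finset α), ∑ a ∈ t, q a b ≤ 1)
    (hpos : ∀ᵐ z ∂ν, 0 < q (U z) (D z)) :
    Hc ν U D ≤ ∫ z, -Real.log (q (U z) (D z)) ∂ν := by
  classical
  have hX := hU.prod hD
  have hg := gibbs (ν := ν) hX (s := univ) (fun _ _ _ _ => trivial)
    (fun p => q p.1 p.2 * ν.real (D ⁻¹' {p.2})) (fun p => mul_nonneg (hq _ _) measureReal_nonneg)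
    (by
      filter_upwards [hpos, hD.pr_pos (ν := ν)] with z h1 h2 _
      exact mul_pos h1 h2) (c := 1)
    (by
      intro t _
      refine (Finset.sum_le_sum_of_subset_of_nonneg Finset.subset_product
        fun p _ _ => mul_nonneg (hq _ _) measureReal_nonneg).trans ?_
      rw [Finset.sum_product_right]
      have h1 := hD.sum_measure_le (ν := ν) univ (t.image Prod.snd)
      simp only [univ_inter, probReal_univ] at h1
      refine le_trans (Finset.sum_le_sum fun b _ => ?_) h1
      dsimp only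
      rw [← Finset.sum_mul]
      exact mul_le_of_le_one_left measureReal_nonneg (hsum b _))
  rw [Measure.restrict_univ, probReal_univ, sub_self] at hg
  have i1 : Integrable (fun z => Real.log (q (U z) (D z) * ν.real (D ⁻¹' {D z}) /
      pr ν (fun y => (U y, D y)) z)) ν := hX.integrable fun p =>
    Real.log (q p.1 p.2 * ν.real (D ⁻¹' {p.2}) / ν.real ((fun y => (U y, D y)) ⁻¹' {p}))
  have i2 : Integrable (fun z => -Real.log (q (U z) (D z))) ν :=
    hX.integrable fun p => -Real.log (q p.1 p.2)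
  have e : Hc ν U D = ∫ z, (Real.log (q (U z) (D z) * ν.real (D ⁻¹' {D z}) /
      pr ν (fun y => (U y, D y)) z) + -Real.log (q (U z) (D z))) ∂ν := by
    refine integral_congr_ae ?_
    filter_upwards [hpos, hD.pr_pos (ν := ν), hX.pr_pos (ν := ν)] with z h1 h2 h3
    change _ = Real.log (_ * pr ν D z / _) + _
    rw [mul_div_assoc, Real.log_mul h1.ne' (div_pos h2 h3).ne']
    ring
  rw [e, integral_add i1 i2]
  exact add_le_of_nonpos_left hg

theorem Hc_nonneg [IsProbabilityMeasure ν] {U : Ω → α} {D : Ω → β} (hU : FinRV U)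
    (hD : FinRV D) : 0 ≤ Hc ν U D := by
  refine integral_nonneg_of_ae ?_
  filter_upwards [(hU.prod hD).pr_pos (ν := ν)] with z h
  refine Real.log_nonneg ((one_le_div h).2 ?_)
  rw [ent_pr_pair]
  exact measureReal_mono inter_subset_left

theorem Hc_mono [IsProbabilityMeasure ν] {U : Ω → α} {D : Ω → β} {D' : Ω → γ} (hU : FinRV U)
    (hD' : FinRV D') (h : Refines D' D) : Hc ν U D' ≤ Hc ν U D := by
  have hD := hD'.of_refines h
  let E : γ → Set Ω := fun b => {y | ∃ z, D' z = b ∧ D y = D z}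
  have hE : ∀ z, E (D' z) = D ⁻¹' {D z} := fun z => by
    ext y
    exact ⟨fun ⟨x, h1, h2⟩ => h2.trans (h x z h1), fun hy => ⟨z, rfl, hy⟩⟩
  refine (Hc_le_predictor hU hD' (fun a b => ν.real (E b ∩ U ⁻¹' {a}) / ν.real (E b))
    (fun _ _ => div_nonneg measureReal_nonneg measureReal_nonneg)
    (fun b t => ent_cond_sum hU _ t) ?_).trans (le_of_eq ?_)
  · filter_upwards [hD.pr_pos (ν := ν), (hU.prod hD).pr_pos (ν := ν)] with z h1 h2
    rw [hE, ← ent_pr_pair]
    exact div_pos h2 h1
  · refine integral_congr_ae (Filter.Eventually.of_forall fun z => ?_)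
    dsimp only
    rw [hE, ← ent_pr_pair, ← Real.log_inv, inv_div]
    rfl

theorem Hc_congr {U : Ω → α} {U' : Ω → γ} (D : Ω → β) (h : Refines U U') (h' : Refines U' U) :
    Hc ν U D = Hc ν U' D := by
  unfold Hc
  congr 1
  funext z
  rw [ent_pr_pair, ent_pr_pair]
  have : U ⁻¹' {U z} = U' ⁻¹' {U' z} := by
    ext y
    exact ⟨h y z, h' y z⟩
  rw [this]

theorem Hc_comp {ν' : Measure Ω'} {T : Ω' → Ω} (hT : MeasurePreserving T ν' ν) {U : Ω → α}
    {D : Ω → β} (hU : FinRV U) (hD : FinRV D) :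
    Hc ν' (fun z => U (T z)) (fun z => D (T z)) = Hc ν U D := by
  have hX := hU.prod hD
  have hm : Measurable fun z => Real.log (pr ν D z / pr ν (fun y => (U y, D y)) z) :=
    fun s _ => hX.measurableSet_preimage ((fun p =>
      Real.log (ν.real (D ⁻¹' {p.2}) / ν.real ((fun y => (U y, D y)) ⁻¹' {p}))) ⁻¹' s)
  unfold Hc
  rw [← hT.map_eq, integral_map hT.measurable.aemeasurable (hT.map_eq.symm ▸ hm.aestronglyMeasurable),
    hT.map_eq]
  congr 1
  funext z
  have e1 : pr ν' (fun z => D (T z)) z = pr ν D (T z) :=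
    hT.measureReal_preimage (hD.2 _).nullMeasurableSet
  have e2 : pr ν' (fun y => (U (T y), D (T y))) z = pr ν (fun y => (U y, D y)) (T z) :=
    hT.measureReal_preimage (hX.2 _).nullMeasurableSet
  rw [e1, e2]

theorem Hc_le_add_log_card [IsProbabilityMeasure ν] {U : Ω → α} {D : Ω → β} {G : Ω → γ}
    (hU : FinRV U) (hD : FinRV D) (hG : FinRV G) :
    Hc ν U D ≤ Hc ν U (fun z => (D z, G z)) + Real.log (range G).ncard := by
  have hY := hD.prod hG
  rw [ncard_eq_toFinset_card _ hG.1]
  set F := hG.1.toFinset with hF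
  let E : β → γ → Set Ω := fun b g => (fun z => (D z, G z)) ⁻¹' {(b, g)}
  let q : α → β → ℝ := fun a b =>
    (∑ g ∈ F, ν.real (E b g ∩ U ⁻¹' {a}) / ν.real (E b g)) / F.card
  have hn : ∀ a b g, 0 ≤ ν.real (E b g ∩ U ⁻¹' {a}) / ν.real (E b g) := fun _ _ _ =>
    div_nonneg measureReal_nonneg measureReal_nonneg
  have key : ∀ᵐ z ∂ν, 0 < q (U z) (D z) ∧ -Real.log (q (U z) (D z)) ≤
      Real.log (pr ν (fun z => (D z, G z)) z / pr ν (fun y => (U y, (D y, G y))) z) +
        Real.log F.card := by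
    filter_upwards [hY.pr_pos (ν := ν), (hU.prod hY).pr_pos (ν := ν)] with z h1 h2
    have hz : G z ∈ F := by simp [hF]
    have hm : (0 : ℝ) < F.card := by exact_mod_cast Finset.card_pos.2 ⟨_, hz⟩
    have h3 : pr ν (fun y => (U y, (D y, G y))) z / pr ν (fun z => (D z, G z)) z / F.card ≤
        q (U z) (D z) := by
      refine div_le_div_of_nonneg_right ?_ hm.le
      rw [ent_pr_pair]
      exact Finset.single_le_sum (fun g _ => hn (U z) (D z) g) hz
    have h4 := div_pos (div_pos h2 h1) hm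
    refine ⟨h4.trans_le h3, ?_⟩
    have h5 := Real.log_le_log h4 h3
    rw [Real.log_div (div_pos h2 h1).ne' hm.ne', Real.log_div h2.ne' h1.ne'] at h5
    rw [Real.log_div h1.ne' h2.ne']
    linarith
  refine (Hc_le_predictor hU hD q (fun a b => div_nonneg (Finset.sum_nonneg fun g _ => hn a b g)
    (Nat.cast_nonneg _)) (fun b t => ?_) (key.mono fun z h => h.1)).trans ?_
  · rw [← Finset.sum_div, Finset.sum_comm]
    refine div_le_one_of_le₀ ?_ (Nat.cast_nonneg _)
    simpa using Finset.sum_le_card_nsmul F _ 1 fun g _ => ent_cond_sum (ν := ν) hU (E b g) t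
  · refine (integral_mono_ae ((hU.prod hD).integrable fun p => -Real.log (q p.1 p.2))
      ((ent_integrable hU hY).add (integrable_const _)) (key.mono fun z h => h.2)).trans
      (le_of_eq ?_)
    simp only [Pi.add_apply]
    rw [integral_add (ent_integrable hU hY) (integrable_const _), integral_const, probReal_univ,
      one_smul]
    rfl

end Vale.Agent.P109
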