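import Mathlib
import Vale.Agent.P109.Ent
import Vale.Agent.P109.Grid

/-! Fano type bound, approximation by small cells, the initial potential. -/

namespace Vale.Agent.P109

open MeasureTheory Set Metric Module
open scoped ENNReal

theorem exists_guess {Ω α β : Type*} [Nonempty α] (P : Ω → α) (ξ : Ω → β) (bad : Set Ω)
    (h : ∀ z ∉ bad, ∀ z' ∉ bad, ξ z = ξ z' → P z = P z') :
    ∃ g : β → α, ∀ z ∉ bad, P z = g (ξ z) := by
  classical
  refine ⟨fun b => if h : ∃ z, z ∉ bad ∧ ξ z = b then P h.choose else Classical.arbitrary α,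
    fun z hz => ?_⟩
  have e : ∃ z', z' ∉ bad ∧ ξ z' = ξ z := ⟨z, hz, rfl⟩
  simp only [dif_pos e]
  exact h z hz _ e.choose_spec.1 e.choose_spec.2.symm

theorem fano (α : Type*) [Fintype α] {η : ℝ} (hη : 0 < η) : ∃ ε : ℝ, 0 < ε ∧
    ∀ {Ω β : Type*} [MeasurableSpace Ω] (ν : Measure Ω) [IsProbabilityMeasure ν] (n : ℕ)
      (U g : Fin n → Ω → α) (D : Ω → β), (∀ j, FinRV (U j)) → FinRV D → (∀ j, Refines D (g j)) →
      (∀ j, ν.real {z | U j z ≠ g j z} ≤ ε) → Hc ν (fun z j => U j z) D ≤ n * η := by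
  classical
  obtain ⟨e, e0, e1, he⟩ : ∃ e : ℝ, 0 < e ∧ e < 1 ∧ Real.log (1 - e) = -(η / 2) :=
    ⟨1 - Real.exp (-(η / 2)), sub_pos.2 (Real.exp_lt_one_iff.2 (by linarith)),
      sub_lt_self _ (Real.exp_pos _), by rw [sub_sub_cancel, Real.log_exp]⟩
  obtain ⟨L, hL⟩ : ∃ L, L = |Real.log (e / Fintype.card α)| + 1 := ⟨_, rfl⟩
  have L0 : 0 < L := by rw [hL]; positivity
  refine ⟨η / 2 / L, by positivity, fun {Ω β} _ ν _ n U g D hU hD hg hε => ?_⟩
  obtain ⟨z0⟩ := nonempty_of_isProbabilityMeasure ν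
  choose g' hg' using fun j => have : Nonempty α := ⟨g j z0⟩
    exists_guess (g j) D ∅ fun z _ z' _ => hg j z z'
  let r : α → α → ℝ := fun a a' => (if a = a' then 1 - e else 0) + e / Fintype.card α
  have r0 : ∀ a a', 0 < r a a' := fun a a' => by
    have : Nonempty α := ⟨a⟩
    have : (0 : ℝ) < Fintype.card α := by exact_mod_cast Fintype.card_pos
    exact add_pos_of_nonneg_of_pos (by split_ifs <;> linarith) (by positivity)
  have r1 : ∀ a', ∑ a, r a a' = 1 := fun a' => by
    have : Nonempty α := ⟨a'⟩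
    have : (Fintype.card α : ℝ) ≠ 0 := by exact_mod_cast Fintype.card_ne_zero
    simp [r, Finset.sum_add_distrib, mul_div_cancel₀ _ this]
  refine (Hc_le_predictor (FinRV.pi hU) hD (fun u b => ∏ j, r (u j) (g' j b))
    (fun u b => (Finset.prod_pos fun j _ => r0 _ _).le) (fun b t => ?_)
    (ae_of_all _ fun z => Finset.prod_pos fun j _ => r0 _ _)).trans ?_
  · refine (Finset.sum_le_univ_sum_of_nonneg fun u =>
      (Finset.prod_pos fun j _ => r0 _ _).le).trans_eq ?_
    rw [← Fintype.piFinset_univ, ← Finset.prod_univ_sum (fun _ => Finset.univ)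
      fun j a => r a (g' j b)]
    simp [r1]
  have hi := fun j => ((hU j).prod hD).integrable (ν := ν) fun x => -Real.log (r x.1 (g' j x.2))
  simp only [Real.log_prod fun j _ => (r0 _ _).ne', ← Finset.sum_neg_distrib]
  rw [integral_finsetSum _ fun j _ => hi j]
  refine (Finset.sum_le_card_nsmul _ _ η fun j _ => ?_).trans_eq (by simp)
  have hm : MeasurableSet {z | U j z ≠ g j z} :=
    ((hU j).prod (hD.of_refines (hg j))).measurableSet_preimage {p | p.1 ≠ p.2}
  have i2 := (integrable_const (μ := ν) L).indicator hm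
  refine (integral_mono (hi j) ((integrable_const (η / 2)).add i2) fun z => ?_).trans ?_
  · simp only [Pi.add_apply, ← hg' j z (notMem_empty z), indicator_apply, mem_ofPred_eq]
    by_cases h : U j z = g j z
    · have := Real.log_le_log (sub_pos.2 e1) (show 1 - e ≤ r (U j z) (g j z) by
        simp only [r, if_pos h]
        exact le_add_of_nonneg_right (by positivity))
      rw [if_neg (not_not.2 h)]
      linarith
    · simp only [r, if_neg h, if_pos h, zero_add]
      linarith [neg_le_abs (Real.log (e / Fintype.card α))]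
  · rw [integral_add' (integrable_const _) i2, integral_indicator_const _ hm, integral_const]
    have := (le_div_iff₀ L0).1 (hε j)
    simp only [probReal_univ, smul_eq_mul]
    linarith

theorem approx_cells {Ω Y α : Type*} [MeasurableSpace Ω] [MetricSpace Y] [CompleteSpace Y]
    [SecondCountableTopology Y] [MeasurableSpace Y] [BorelSpace Y] (ν : Measure Ω)
    [IsFiniteMeasure ν] {Θ : Ω → Y} (hΘ : MeasurableEmbedding Θ) {P : Ω → α} (hP : FinRV P)
    {ε : ℝ} (hε : 0 < ε) : ∃ δ : ℝ, 0 < δ ∧ ∃ bad : Set Ω, MeasurableSet bad ∧ ν.real bad < ε ∧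
      ∀ z ∉ bad, ∀ z' ∉ bad, dist (Θ z) (Θ z') < δ → P z = P z' := by
  have hc : (0 : ℝ) < hP.1.toFinset.card + 1 := by positivity
  choose K hK hKc hKm using fun a => (hΘ.measurableSet_image.2 (hP.2 a)).exists_isCompact_sdiff_lt
    (μ := ν.map Θ) (measure_ne_top _ _) (ε := ENNReal.ofReal (ε / (hP.1.toFinset.card + 1)))
    (ENNReal.ofReal_pos.2 (div_pos hε hc)).ne'
  have h1 : ∀ᶠ δ in nhdsWithin (0 : ℝ) (Ioi 0), ∀ a ∈ range P, ∀ b ∈ range P, a ≠ b →
      ∀ x ∈ K a, ∀ y ∈ K b, δ ≤ dist x y := by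
    refine (Filter.eventually_all_finite hP.1).2 fun a _ =>
      (Filter.eventually_all_finite hP.1).2 fun b _ => ?_
    by_cases hab : a = b
    · simp [hab]
    obtain ⟨δ, hδ, hd⟩ := Disjoint.exists_thickenings (s := K a) (t := K b)
      (Disjoint.mono (hK a) (hK b) ((disjoint_image_iff hΘ.injective).2
        (Disjoint.preimage _ (disjoint_singleton.2 hab)))) (hKc a) (hKc b).isClosed
    filter_upwards [Ioo_mem_nhdsGT hδ] with t ht _ x hx y hy
    by_contra h
    exact disjoint_left.1 hd (self_subset_thickening hδ _ hx)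
      (mem_thickening_iff.2 ⟨y, hy, (not_le.1 h).trans ht.2⟩)
  obtain ⟨δ, hδ, hδ0⟩ := (h1.and self_mem_nhdsWithin).exists
  refine ⟨δ, hδ0, ⋃ a ∈ hP.1.toFinset, Θ ⁻¹' (Θ '' (P ⁻¹' {a}) \ K a),
    Finset.measurableSet_biUnion _ fun a _ => hΘ.measurable
      ((hΘ.measurableSet_image.2 (hP.2 a)).diff (hKc a).measurableSet), ?_, fun z hz z' hz' h => ?_⟩
  · refine ((measureReal_biUnion_finset_le _ _).trans (Finset.sum_le_card_nsmul _ _
      (ε / (hP.1.toFinset.card + 1)) fun a _ => ENNReal.toReal_le_of_le_ofReal (div_pos hε hc).le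
        ((hΘ.map_apply ν _).symm.trans_le (hKm a).le))).trans_lt ?_
    rw [nsmul_eq_mul, ← mul_div_assoc, div_lt_iff₀ hc]
    linarith
  · have key : ∀ z, z ∉ ⋃ a ∈ hP.1.toFinset, Θ ⁻¹' (Θ '' (P ⁻¹' {a}) \ K a) → Θ z ∈ K (P z) :=
      fun z hz => by_contra fun h => hz (mem_biUnion (x := P z) (by simp) ⟨⟨z, rfl, rfl⟩, h⟩)
    by_contra hne
    exact (hδ _ (mem_range_self z) _ (mem_range_self z') hne _ (key z hz) _ (key z' hz')).not_gt h

theorem PW.init {d : ℕ} {Ω : Type*} [MeasurableSpace Ω] {ν : Measure Ω} [IsProbabilityMeasure ν]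
    {S : Ω → Ω} (P : PW d ν S) (hS : MeasurePreserving S ν ν) {sym : Ω → ZMod 2}
    (hsym : Measurable sym) {η : ℝ} (hη : 0 < η) : ∃ h₀ : ℕ, ∀ h ≥ h₀, ∀ l n : ℕ, 0 < l →
      Hc ν (name S sym l n) (P.itin h (l * n)) ≤ n * η := by
  obtain ⟨ε, hε, hF⟩ := fano (ZMod 2) hη
  have hs : FinRV sym := FinRV.of_measurable hsym (toFinite _)
  obtain ⟨δ, hδ, bad, hb, hbε, hbad⟩ := approx_cells ν P.emb hs hε
  have h1 := (tendsto_pow_atTop_nhds_zero_of_lt_one (r := (1 / 2 : ℝ)) (by norm_num)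
    (by norm_num)).const_mul (d : ℝ)
  rw [mul_zero] at h1
  obtain ⟨h₀, hh⟩ := Filter.eventually_atTop.1 (h1.eventually (gt_mem_nhds hδ))
  refine ⟨h₀, fun h hh' l n hl => ?_⟩
  obtain ⟨g, hg⟩ := exists_guess sym (fun z => box ((1 / 2 : ℝ) ^ h) (P.Θ z)) bad
    fun z hz z' hz' e => hbad z hz z' hz'
      ((dist_eq_norm _ _).trans_lt ((norm_sub_of_box_eq (by positivity) e).trans_lt (hh h hh')))
  refine hF ν n (fun j z => sym (S^[l * j] z))
    (fun j z => g (box ((1 / 2 : ℝ) ^ h) (P.Θ (S^[l * j] z)))) _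
    (fun j => hs.precomp (hS.measurable.iterate _)) (P.finRV_itin hS.measurable _ _)
    (fun j z z' e => congrArg g (by
      simpa [PW.itin, name] using congrFun e ⟨l * j, Nat.mul_lt_mul_of_pos_left j.2 hl⟩))
    fun j => le_trans (measureReal_mono ?_)
      (((hS.iterate (l * j)).measureReal_preimage hb.nullMeasurableSet).trans_le hbε.le)
  exact fun z hz => by_contra fun h' => hz (hg _ h')

theorem blockEntropy_eq {X : Type} [MeasurableSpace X] (μ : Measure X) [IsProbabilityMeasure μ]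
    {T : X → X} (hT : Measurable T) {N : ℕ} {P : X → Fin N} (hP : Measurable P) (n : ℕ) :
    blockEntropy μ T P n = Hc μ (name T P 1 n) (fun _ => ()) := by
  have hU : FinRV (name T P 1 n) := (FinRV.of_measurable hP (toFinite _)).name hT 1 n
  have h1 := hU.setIntegral_eq (ν := μ)
    (fun w => -Real.log (μ.real (name T P 1 n ⁻¹' {w}))) MeasurableSet.univ
  have h2 : ∀ w : Fin n → Fin N, {x | ∀ i : Fin n, P (T^[i] x) = w i} = name T P 1 n ⁻¹' {w} :=
    fun w => by ext x; simp [name, funext_iff]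
  rw [Measure.restrict_univ] at h1
  refine Eq.trans ?_ (h1.symm.trans (integral_congr_ae (ae_of_all _ fun z => ?_)))
  · simp only [blockEntropy, h2, univ_inter, Real.negMulLog, mul_neg, neg_mul]
    refine (Finset.sum_subset (Finset.subset_univ _) fun w _ hw => ?_).symm
    rw [preimage_singleton_eq_empty.2 (by simpa using hw)]
    simp
  · have e : (fun y => (name T P 1 n y, ())) ⁻¹' {(name T P 1 n z, ())} =
        name T P 1 n ⁻¹' {name T P 1 n z} := by ext y; simp
    simp [pr, e]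

end Vale.Agent.P109
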