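import Mathlib
import Vale.Agent.P109.Defs

/-! A standard Borel probability space without atoms is isomorphic to the unit interval. -/

namespace Vale.Agent.P109

open MeasureTheory Set Metric Module
open scoped ENNReal

open ProbabilityTheory in
theorem iso_flat (ρ : Measure ℝ) [IsProbabilityMeasure ρ] [NullSingletonClass ρ] (a : ℝ) :
    ρ {y | a < y ∧ cdf ρ y ≤ cdf ρ a} = 0 := by
  refine measure_mono_null (t := (⋃ q : ℚ, ⋃ _ : cdf ρ q ≤ cdf ρ a, Ioc a q) ∪
    {y | (a < y ∧ cdf ρ y ≤ cdf ρ a) ∧ ∀ q : ℚ, cdf ρ q ≤ cdf ρ a → q < y}) (fun y hy => ?_)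
    (measure_union_null (measure_iUnion_null fun q => measure_iUnion_null fun hq => ?_)
      (Subsingleton.measure_zero ?_ ρ))
  · by_cases h : ∀ q : ℚ, cdf ρ q ≤ cdf ρ a → q < y
    · exact Or.inr ⟨hy, h⟩
    · push Not at h
      obtain ⟨q, hq, h⟩ := h
      exact Or.inl (mem_iUnion₂.2 ⟨q, hq, hy.1, h⟩)
  · rw [← measure_cdf ρ, StieltjesFunction.measure_Ioc]
    exact ENNReal.ofReal_of_nonpos (sub_nonpos.2 hq)
  · have key : ∀ y y' : ℝ, cdf ρ y' ≤ cdf ρ a → (∀ q : ℚ, cdf ρ q ≤ cdf ρ a → q < y) → y' ≤ y :=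
      fun y y' h1 h2 => not_lt.1 fun h => by
        obtain ⟨q, h3, h4⟩ := exists_rat_btwn h
        exact h3.not_gt (h2 q ((monotone_cdf ρ h4.le).trans h1))
    exact fun y hy y' hy' => (key y' y hy.1.2 hy'.2).antisymm (key y y' hy'.1.2 hy.2)

open ProbabilityTheory in
theorem iso_cont (ρ : Measure ℝ) [IsProbabilityMeasure ρ] [NullSingletonClass ρ] :
    Continuous (cdf ρ) := by
  refine continuous_iff_continuousAt.2 fun x => ?_
  have h := (cdf ρ).measure_singleton x
  rw [measure_cdf, measure_singleton, eq_comm, ENNReal.ofReal_eq_zero, sub_nonpos] at h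
  rw [(monotone_cdf ρ).continuousAt_iff_leftLim_eq_rightLim, (cdf ρ).rightLim_eq]
  exact ((monotone_cdf ρ).leftLim_le le_rfl).antisymm h

open ProbabilityTheory in
theorem iso_law (ρ : Measure ℝ) [IsProbabilityMeasure ρ] [NullSingletonClass ρ]
    (t : unitInterval) : ρ {y | cdf ρ y ≤ t} = ENNReal.ofReal t := by
  have key : ∀ s ∈ Ioo (0 : ℝ) 1, ρ {y | cdf ρ y ≤ s} = ENNReal.ofReal s := fun s hs => by
    obtain ⟨a, rfl⟩ := mem_range_of_exists_le_of_exists_ge (iso_cont ρ)
      ((tendsto_cdf_atBot ρ).eventually (ge_mem_nhds hs.1)).exists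
      ((tendsto_cdf_atTop ρ).eventually (le_mem_nhds hs.2)).exists
    rw [ofReal_cdf]
    refine le_antisymm ((measure_mono (t := Iic a ∪ {y | a < y ∧ cdf ρ y ≤ cdf ρ a})
      fun y hy => (le_or_gt y a).imp id fun h => ⟨h, hy⟩).trans ((measure_union_le _ _).trans_eq
      ?_)) (measure_mono fun y hy => monotone_cdf ρ hy)
    rw [iso_flat, add_zero]
  rcases t.2.1.eq_or_lt with h | h
  · rw [← h, ENNReal.ofReal_zero]
    refine le_antisymm (ENNReal.le_of_forall_pos_le_add fun ε hε _ => ?_) zero_le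
    have h1 : (0 : ℝ) < min (ε : ℝ) (1 / 2) := lt_min hε (by norm_num)
    refine (measure_mono fun y (hy : cdf ρ y ≤ 0) => hy.trans h1.le).trans
      ((key _ ⟨h1, (min_le_right _ _).trans_lt (by norm_num)⟩).trans_le ?_)
    rw [zero_add, ← ENNReal.ofReal_coe_nnreal]
    exact ENNReal.ofReal_le_ofReal (min_le_left _ _)
  rcases t.2.2.eq_or_lt with h' | h'
  · simp [h', cdf_le_one]
  · exact key _ ⟨h, h'⟩

open ProbabilityTheory in
theorem isoUnitInterval {X : Type} [MeasurableSpace X] [StandardBorelSpace X] (μ : Measure X)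
    [IsProbabilityMeasure μ] [NullSingletonClass μ] : IsoUnitInterval μ := by
  obtain ⟨x0⟩ := nonempty_of_isProbabilityMeasure μ
  have hι := measurableEmbedding_embeddingReal X
  generalize embeddingReal X = ι at hι
  have : IsProbabilityMeasure (μ.map ι) :=
    Measure.isProbabilityMeasure_map hι.measurable.aemeasurable
  have : NullSingletonClass (μ.map ι) := ⟨fun y => by
    rw [hι.map_apply]
    exact (subsingleton_singleton.preimage hι.injective).measure_zero μ⟩
  have hc := (iso_cont (μ.map ι)).measurable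
  let F : X → unitInterval := fun x => ⟨cdf (μ.map ι) (ι x), cdf_nonneg _ _, cdf_le_one _ _⟩
  have hF : Measurable F := (hc.comp hι.measurable).subtype_mk
  let N : Set X := ⋃ a : ℚ, ι ⁻¹' {y | (a : ℝ) < y ∧ cdf (μ.map ι) y ≤ cdf (μ.map ι) a}
  have hN : MeasurableSet N := MeasurableSet.iUnion fun a => hι.measurable
    (measurableSet_Ioi.inter (measurableSet_le hc measurable_const))
  have hN0 : μ N = 0 := measure_iUnion_null fun a => (hι.map_apply μ _).symm.trans (iso_flat _ _)
  have hlt : ∀ x x', x' ∉ N → ι x < ι x' → F x ≠ F x' := fun x x' hx' h e => by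
    obtain ⟨a, h1, h2⟩ := exists_rat_btwn h
    exact hx' (mem_iUnion.2 ⟨a, h2, (congrArg Subtype.val e).ge.trans (monotone_cdf _ h1.le)⟩)
  have hinj : InjOn F Nᶜ := fun x hx x' hx' e => hι.injective <| le_antisymm
    (not_lt.1 fun h => hlt x' x hx h e.symm) (not_lt.1 fun h => hlt x x' hx' h e)
  have hmap : μ.map F = volume := Measure.ext_of_Iic _ _ fun t => by
    rw [Measure.map_apply hF measurableSet_Iic, unitInterval.volume_Iic, ← iso_law (μ.map ι),
      hι.map_apply]
    rfl
  have := hN.compl.standardBorel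
  have hE : MeasurableEmbedding (Nᶜ.domRestrict F) :=
    (hF.comp measurable_subtype_coe).measurableEmbedding hinj.injective
  have hI := hN.compl.image_of_measurable_injOn hF hinj
  have hG : LeftInvOn (Function.extend (Nᶜ.domRestrict F) Subtype.val fun _ => x0) F Nᶜ :=
    fun x hx => hE.injective.extend_apply _ _ ⟨x, hx⟩
  refine ⟨Nᶜ, F '' Nᶜ, F, _, hN.compl, hI, by rwa [compl_compl], ?_, hinj.bijOn_image,
    ⟨hG, hG.rightInvOn_image⟩, hF, hE.measurable_extend measurable_subtype_coe measurable_const,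
    hmap⟩
  rw [← hmap, Measure.map_apply hF hI.compl]
  exact measure_mono_null (fun x hx => by_contra fun h => hx ⟨x, h, rfl⟩) hN0

end Vale.Agent.P109
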