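import Mathlib
import Vale.Agent.P109.Defs

/-! Jacobians on subspaces, the potential Vp, cocycles. -/

namespace Vale.Agent.P109

open MeasureTheory Set Metric Module
open scoped ENNReal

variable {d : ℕ}

theorem jac_nonneg (B : Eu d →L[ℝ] Eu d) (U : Submodule ℝ (Eu d)) : 0 ≤ jac B U := by
  exact LinearMap.normDet_nonneg _

theorem jac_bot (B : Eu d →L[ℝ] Eu d) : jac B ⊥ = 1 := by
  exact LinearMap.normDet_of_subsingleton _

theorem jac_pos (B : Eu d ≃L[ℝ] Eu d) (U : Submodule ℝ (Eu d)) :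
    0 < jac (B : Eu d →L[ℝ] Eu d) U := by
  refine (jac_nonneg _ U).lt_of_ne' fun h => LinearMap.normDet_eq_zero_iff_ker_ne_bot.1 h ?_
  exact LinearMap.ker_eq_bot.2 (B.injective.comp Subtype.val_injective)

theorem jac_comp (B₁ B₂ : Eu d →L[ℝ] Eu d) (U : Submodule ℝ (Eu d)) :
    jac (B₂ ∘L B₁) U = jac B₂ (U.map (B₁ : Eu d →ₗ[ℝ] Eu d)) * jac B₁ U := by
  rw [← LinearMap.range_domRestrict]
  exact LinearMap.normDet_comp ((B₁ : Eu d →ₗ[ℝ] Eu d).domRestrict U) (B₂ : Eu d →ₗ[ℝ] Eu d)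

theorem jac_gram {ι : Type} [Fintype ι] [DecidableEq ι] (x : ι → Eu d) (y : Eu d) (a : ι → ℝ)
    (h : ∀ i, inner ℝ (x i) (y - ∑ j, a j • x j) = 0) :
    (Matrix.gram ℝ (Sum.elim (fun _ : Unit => y) x)).det =
      ‖y - ∑ j, a j • x j‖ ^ 2 * (Matrix.gram ℝ x).det := by
  have h1 : ∀ i, inner ℝ y (x i) = ∑ j, a j * inner ℝ (x j) (x i) := fun i => by
    have h2 := h i
    rw [real_inner_comm, inner_sub_left, sum_inner, sub_eq_zero] at h2
    simpa only [real_inner_smul_left] using h2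
  have h3 : inner ℝ y y = ‖y - ∑ j, a j • x j‖ ^ 2 + ∑ j, a j * inner ℝ (x j) y := by
    have h4 : inner ℝ (∑ j, a j • x j) (y - ∑ j, a j • x j) = 0 := by
      simp only [sum_inner, real_inner_smul_left, h, mul_zero, Finset.sum_const_zero]
    have h5 : inner ℝ (∑ j, a j • x j) y = ∑ j, a j * inner ℝ (x j) y := by
      simp only [sum_inner, real_inner_smul_left]
    rw [← real_inner_self_eq_norm_sq, inner_sub_left, h4, sub_zero, inner_sub_right, ← h5,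
      real_inner_comm y (∑ j, a j • x j), sub_add_cancel]
  have e : Matrix.gram ℝ (Sum.elim (fun _ : Unit => y) x) =
      Matrix.fromBlocks 1 (Matrix.of fun _ j => a j) 0 1 *
        Matrix.fromBlocks (Matrix.of fun _ _ => ‖y - ∑ j, a j • x j‖ ^ 2) 0
          (Matrix.of fun i _ => inner ℝ (x i) y) (Matrix.gram ℝ x) := by
    rw [Matrix.fromBlocks_multiply]
    ext (i | i) (j | j)
    · simpa [Matrix.mul_apply] using h3
    · simpa [Matrix.mul_apply] using h1 j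
    · simp
    · simp
  rw [e, Matrix.det_mul, Matrix.det_fromBlocks_zero₂₁, Matrix.det_fromBlocks_zero₁₂]
  simp

theorem jac_sq (B : Eu d →L[ℝ] Eu d) (W : Submodule ℝ (Eu d)) {ι : Type} [Fintype ι]
    [DecidableEq ι] (c : ι → W) (hc : Orthonormal ℝ c) (hn : Fintype.card ι = finrank ℝ W) :
    jac B W ^ 2 = (Matrix.gram ℝ fun i => B (c i)).det := by
  have h := ((B : Eu d →ₗ[ℝ] Eu d).domRestrict W).normDet_sq_eq_det_gram
    (OrthonormalBasis.mk hc (hc.linearIndependent.span_eq_top_of_card_eq_finrank' hn).ge)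
  rw [OrthonormalBasis.coe_mk] at h
  exact h

theorem jac_sup' (B : Eu d →L[ℝ] Eu d) (U : Submodule ℝ (Eu d)) {v : Eu d} (hv : ‖v‖ = 1)
    (hU : v ∈ Uᗮ) :
    jac B (U ⊔ Submodule.span ℝ {v}) = jac B U * infDist (B v) (U.map (B : Eu d →ₗ[ℝ] Eu d)) ∧
    finrank ℝ (U ⊔ Submodule.span ℝ {v} : Submodule ℝ (Eu d)) = finrank ℝ U + 1 := by
  have hn : v ∉ U := fun h => by
    rw [inner_self_eq_zero.1 (hU v h), norm_zero] at hv
    exact zero_ne_one hv
  have hr := Submodule.finrank_sup_span_singleton hn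
  refine ⟨?_, hr⟩
  let b := stdOrthonormalBasis ℝ U
  let c : Unit ⊕ Fin (finrank ℝ U) → (U ⊔ Submodule.span ℝ {v} : Submodule ℝ (Eu d)) :=
    Sum.elim (fun _ => ⟨v, Submodule.mem_sup_right (Submodule.mem_span_singleton_self v)⟩)
      fun i => ⟨b i, Submodule.mem_sup_left (b i).2⟩
  have hc : Orthonormal ℝ c := by
    rw [orthonormal_iff_ite]
    rintro (i | i) (j | j)
    · rw [if_pos rfl]
      show inner ℝ v v = 1
      rw [real_inner_self_eq_norm_sq, hv, one_pow]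
    · rw [if_neg Sum.inl_ne_inr, real_inner_comm]
      exact hU _ (b j).2
    · rw [if_neg Sum.inr_ne_inl]
      exact hU _ (b i).2
    · simp only [Sum.inr.injEq]
      exact orthonormal_iff_ite.1 b.orthonormal i j
  obtain ⟨u, hu, hp⟩ := (U.map (B : Eu d →ₗ[ℝ] Eu d)).starProjection_apply_mem (B v)
  have h1 : ∑ j, b.repr ⟨u, hu⟩ j • B (b j) =
      (U.map (B : Eu d →ₗ[ℝ] Eu d)).starProjection (B v) := by
    have h2 := congrArg (fun w : U => B w) (b.sum_repr ⟨u, hu⟩)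
    simp only [Submodule.coe_sum, Submodule.coe_smul, map_sum, map_smul] at h2
    exact h2.trans hp
  have h3 := jac_gram (fun j => B (b j)) (B v) (b.repr ⟨u, hu⟩) fun i => by
    rw [h1, real_inner_comm]
    exact Submodule.starProjection_inner_eq_zero _ _ ⟨b i, (b i).2, rfl⟩
  have h4 := jac_sq B _ c hc (by rw [hr, Fintype.card_sum, Fintype.card_unit, Fintype.card_fin,
    add_comm])
  have h5 : (fun i => B (c i)) = Sum.elim (fun _ : Unit => B v) fun j => B (b j) := by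
    funext i
    rcases i with i | i <;> rfl
  rw [h5, h3, ← jac_sq B U b b.orthonormal (Fintype.card_fin _), h1,
    Submodule.starProjection_minimal, ← mul_pow, mul_comm] at h4
  rw [infDist_eq_iInf]
  simp only [dist_eq_norm]
  exact (sq_eq_sq₀ (jac_nonneg _ _) (mul_nonneg (jac_nonneg _ _)
    (Real.iInf_nonneg fun _ => norm_nonneg _))).1 h4

theorem jac_remove' (B : Eu d →L[ℝ] Eu d) (U : Submodule ℝ (Eu d)) {v : Eu d} (hv : ‖v‖ = 1)
    (hU : v ∈ U) : ∃ U' : Submodule ℝ (Eu d), finrank ℝ U = finrank ℝ U' + 1 ∧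
      jac B U ≤ jac B U' * ‖B v‖ := by
  have e : U ⊓ (Submodule.span ℝ {v})ᗮ ⊔ Submodule.span ℝ {v} = U := by
    have h : Submodule.span ℝ {v} ≤ U := (Submodule.span_singleton_le_iff_mem v U).2 hU
    rw [sup_comm, inf_comm, ← sup_inf_assoc_of_le _ h,
      Submodule.sup_orthogonal_of_hasOrthogonalProjection, top_inf_eq]
  obtain ⟨h1, h2⟩ := jac_sup' B (U ⊓ (Submodule.span ℝ {v})ᗮ) hv fun u hu =>
    Submodule.inner_left_of_mem_orthogonal (Submodule.mem_span_singleton_self v) hu.2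
  rw [e] at h1 h2
  refine ⟨_, h2, h1.trans_le (mul_le_mul_of_nonneg_left ?_ (jac_nonneg _ _))⟩
  exact (infDist_le_dist_of_mem (Submodule.zero_mem _)).trans_eq (dist_zero_right _)

/-- Adding a unit vector orthogonal to U multiplies the Jacobian by the distance to B U. -/
theorem jac_sup (B : Eu d ≃L[ℝ] Eu d) (U : Submodule ℝ (Eu d)) {v : Eu d} (hv : ‖v‖ = 1)
    (hU : v ∈ Uᗮ) :
    jac (B : Eu d →L[ℝ] Eu d) (U ⊔ Submodule.span ℝ {v}) =
      jac (B : Eu d →L[ℝ] Eu d) U * infDist (B v) (U.map (B : Eu d →ₗ[ℝ] Eu d)) ∧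
    finrank ℝ (U ⊔ Submodule.span ℝ {v} : Submodule ℝ (Eu d)) = finrank ℝ U + 1 := by
  exact jac_sup' (B : Eu d →L[ℝ] Eu d) U hv hU

/-- Removing a unit vector of U. -/
theorem jac_remove (B : Eu d ≃L[ℝ] Eu d) (U : Submodule ℝ (Eu d)) {v : Eu d} (hv : ‖v‖ = 1)
    (hU : v ∈ U) : ∃ U' : Submodule ℝ (Eu d), finrank ℝ U = finrank ℝ U' + 1 ∧
      jac (B : Eu d →L[ℝ] Eu d) U ≤ jac (B : Eu d →L[ℝ] Eu d) U' * ‖B v‖ := by
  exact jac_remove' (B : Eu d →L[ℝ] Eu d) U hv hU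

theorem jac_le (B : Eu d →L[ℝ] Eu d) {c : ℝ} (hc : 0 ≤ c) (hB : ∀ v, ‖B v‖ ≤ c * ‖v‖)
    (U : Submodule ℝ (Eu d)) : jac B U ≤ c ^ finrank ℝ U := by
  obtain ⟨n, hn⟩ : ∃ n, finrank ℝ U = n := ⟨_, rfl⟩
  rw [hn]
  induction n generalizing U with
  | zero => rw [Submodule.finrank_eq_zero.1 hn, jac_bot, pow_zero]
  | succ n ih =>
    let b := stdOrthonormalBasis ℝ U
    have hv : ‖(b ⟨0, by omega⟩ : Eu d)‖ = 1 := b.orthonormal.1 _
    obtain ⟨U', h1, h2⟩ := jac_remove' B U hv (b _).2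
    have h3 := hB (b ⟨0, by omega⟩)
    rw [hv, mul_one] at h3
    rw [pow_succ]
    exact h2.trans (mul_le_mul (ih U' (by omega)) h3 (norm_nonneg _) (pow_nonneg hc _))

theorem continuous_jac (U : Submodule ℝ (Eu d)) : Continuous fun B => jac B U := by
  let b := stdOrthonormalBasis ℝ U
  have e : (fun B => jac B U) = fun B : Eu d →L[ℝ] Eu d =>
      √(Matrix.gram ℝ fun i => B (b i)).det := funext fun B => by
    rw [← jac_sq B U b b.orthonormal (Fintype.card_fin _), Real.sqrt_sq (jac_nonneg _ _)]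
  rw [e]
  refine (Continuous.matrix_det (continuous_matrix fun i j => ?_)).sqrt
  simp only [Matrix.gram_apply]
  fun_prop

theorem jac_rank (U : Submodule ℝ (Eu d)) : finrank ℝ U ≤ d :=
  U.finrank_le.trans_eq finrank_euclideanSpace_fin

theorem jac_bdd (t : ℝ) (B : Eu d →L[ℝ] Eu d) :
    BddAbove (range fun U : Submodule ℝ (Eu d) => jac B U * Real.exp (-(t * finrank ℝ U))) := by
  refine ⟨(max 1 ‖B‖) ^ d * Real.exp (|t| * d), forall_mem_range.2 fun U => ?_⟩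
  have h1 := jac_le B (c := max 1 ‖B‖) (zero_le_one.trans (le_max_left _ _)) (fun v =>
    (B.le_opNorm v).trans (mul_le_mul_of_nonneg_right (le_max_right _ _) (norm_nonneg _))) U
  refine mul_le_mul (h1.trans (pow_le_pow_right₀ (le_max_left _ _) (jac_rank U)))
    (Real.exp_le_exp.2 ?_) (Real.exp_pos _).le (by positivity)
  rw [← neg_mul]
  exact mul_le_mul (neg_le_abs t) (Nat.cast_le.2 (jac_rank U)) (Nat.cast_nonneg _) (abs_nonneg _)

theorem jac_one_le (t : ℝ) (B : Eu d →L[ℝ] Eu d) :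
    1 ≤ ⨆ U : Submodule ℝ (Eu d), jac B U * Real.exp (-(t * finrank ℝ U)) :=
  le_trans (by simp [jac_bot]) (le_ciSup (jac_bdd t B) ⊥)

theorem Vp_nonneg (t : ℝ) (B : Eu d →L[ℝ] Eu d) : 0 ≤ Vp t B := by
  exact Real.log_nonneg (jac_one_le t B)

theorem Vp_le {t : ℝ} (ht : 0 ≤ t) (B : Eu d →L[ℝ] Eu d) {c : ℝ} (hc : 1 ≤ c)
    (hB : ∀ v, ‖B v‖ ≤ c * ‖v‖) : Vp t B ≤ d * Real.log c := by
  rw [← Real.log_pow]
  refine Real.log_le_log (one_pos.trans_le (jac_one_le t B)) (ciSup_le fun U => ?_)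
  refine (mul_le_mul ((jac_le B (zero_le_one.trans hc) hB U).trans
    (pow_le_pow_right₀ hc (jac_rank U))) (Real.exp_le_one_iff.2 ?_) (Real.exp_pos _).le
    (by positivity)).trans_eq (mul_one _)
  exact neg_nonpos.2 (by positivity)

theorem le_Vp (t : ℝ) (B : Eu d ≃L[ℝ] Eu d) (U : Submodule ℝ (Eu d)) :
    Real.log (jac (B : Eu d →L[ℝ] Eu d) U) - t * finrank ℝ U ≤ Vp t (B : Eu d →L[ℝ] Eu d) := by
  have h := Real.log_le_log (mul_pos (jac_pos B U) (Real.exp_pos _))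
    (le_ciSup (jac_bdd t (B : Eu d →L[ℝ] Eu d)) U)
  rwa [Real.log_mul (jac_pos B U).ne' (Real.exp_pos _).ne', Real.log_exp, ← sub_eq_add_neg] at h

theorem exists_near_Vp (t : ℝ) (B : Eu d ≃L[ℝ] Eu d) : ∃ U : Submodule ℝ (Eu d),
    Vp t (B : Eu d →L[ℝ] Eu d) - 1 ≤ Real.log (jac (B : Eu d →L[ℝ] Eu d) U) - t * finrank ℝ U := by
  have h0 := one_pos.trans_le (jac_one_le t (B : Eu d →L[ℝ] Eu d))
  obtain ⟨U, hU⟩ := exists_lt_of_lt_ciSup (mul_lt_of_lt_one_right h0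
    (Real.exp_lt_one_iff.2 neg_one_lt_zero))
  have h := Real.log_le_log (mul_pos h0 (Real.exp_pos _)) hU.le
  rw [Real.log_mul h0.ne' (Real.exp_pos _).ne', Real.log_exp,
    Real.log_mul (jac_pos B U).ne' (Real.exp_pos _).ne', Real.log_exp] at h
  exact ⟨U, h⟩

theorem Vp_trans (t₁ t₂ : ℝ) (B₁ B₂ : Eu d ≃L[ℝ] Eu d) :
    Vp (t₁ + t₂) (B₁.trans B₂ : Eu d →L[ℝ] Eu d) ≤
      Vp t₁ (B₁ : Eu d →L[ℝ] Eu d) + Vp t₂ (B₂ : Eu d →L[ℝ] Eu d) := by
  have h1 := one_pos.trans_le (jac_one_le t₁ (B₁ : Eu d →L[ℝ] Eu d))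
  have h2 := one_pos.trans_le (jac_one_le t₂ (B₂ : Eu d →L[ℝ] Eu d))
  rw [Vp, Vp, Vp, ← Real.log_mul h1.ne' h2.ne']
  refine Real.log_le_log (one_pos.trans_le (jac_one_le _ _)) (ciSup_le fun U => ?_)
  have h3 : finrank ℝ (U.map ((B₁ : Eu d →L[ℝ] Eu d) : Eu d →ₗ[ℝ] Eu d)) = finrank ℝ U :=
    LinearEquiv.finrank_map_eq B₁.toLinearEquiv U
  refine le_trans (le_of_eq ?_) (mul_le_mul (le_ciSup (jac_bdd t₁ _) U)
    (le_ciSup (jac_bdd t₂ _) (U.map ((B₁ : Eu d →L[ℝ] Eu d) : Eu d →ₗ[ℝ] Eu d)))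
    (mul_nonneg (jac_nonneg _ _) (Real.exp_pos _).le) h1.le)
  rw [h3, show (B₁.trans B₂ : Eu d →L[ℝ] Eu d) =
    (B₂ : Eu d →L[ℝ] Eu d) ∘L (B₁ : Eu d →L[ℝ] Eu d) from rfl, jac_comp, add_mul, neg_add,
    Real.exp_add]
  ring

theorem Vp_refl : Vp 0 (ContinuousLinearEquiv.refl ℝ (Eu d) : Eu d →L[ℝ] Eu d) = 0 := by
  have h := Vp_le (c := 1) le_rfl (ContinuousLinearEquiv.refl ℝ (Eu d) : Eu d →L[ℝ] Eu d) le_rfl
    fun v => by simp
  rw [Real.log_one, mul_zero] at h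
  exact le_antisymm h (Vp_nonneg _ _)

theorem measurable_Vp (t : ℝ) : Measurable (Vp (d := d) t) := by
  have h : LowerSemicontinuous fun B : Eu d →L[ℝ] Eu d =>
      ⨆ U : Submodule ℝ (Eu d), jac B U * Real.exp (-(t * finrank ℝ U)) :=
    lowerSemicontinuous_ciSup (f := fun (U : Submodule ℝ (Eu d)) (B : Eu d →L[ℝ] Eu d) =>
      jac B U * Real.exp (-(t * finrank ℝ U))) (jac_bdd t) fun U =>
      ((continuous_jac U).mul continuous_const).lowerSemicontinuous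
  exact Real.measurable_log.comp h.measurable

end Vale.Agent.P109
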