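import Mathlib
import Vale.Agent.P109.Jac

/-! Growth estimates along a near maximizing subspace. -/

namespace Vale.Agent.P109

open MeasureTheory Set Metric Module
open scoped ENNReal

variable {d : ℕ}

theorem growth_sub (Q : ℕ → Eu d ≃L[ℝ] Eu d) (θ : ℝ) (a m : ℕ) :
    Vp (θ * m) ((Q a).symm.trans (Q (a + m)) : Eu d →L[ℝ] Eu d) ≤
      ∑ c ∈ Finset.Ico a (a + m), Vp θ ((Q c).symm.trans (Q (c + 1)) : Eu d →L[ℝ] Eu d) := by
  induction m with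
  | zero =>
    have e : (Q a).symm.trans (Q (a + 0)) = ContinuousLinearEquiv.refl ℝ (Eu d) :=
      ContinuousLinearEquiv.ext (funext fun v => by simp)
    rw [e, Nat.cast_zero, mul_zero, Vp_refl]
    simp
  | succ m ih =>
    have e : (Q a).symm.trans (Q (a + (m + 1))) =
        ((Q a).symm.trans (Q (a + m))).trans ((Q (a + m)).symm.trans (Q (a + m + 1))) :=
      ContinuousLinearEquiv.ext (funext fun v => by simp [add_assoc])
    rw [e, ← add_assoc, Finset.sum_Ico_succ_top (Nat.le_add_right a m), Nat.cast_succ, mul_add,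
      mul_one]
    exact (Vp_trans _ _ _ _).trans (add_le_add ih le_rfl)

theorem growth_sub' (Q : ℕ → Eu d ≃L[ℝ] Eu d) (θ : ℝ) {a b : ℕ} (h : a ≤ b) :
    Vp (θ * (b - a)) ((Q a).symm.trans (Q b) : Eu d →L[ℝ] Eu d) ≤
      ∑ c ∈ Finset.Ico a b, Vp θ ((Q c).symm.trans (Q (c + 1)) : Eu d →L[ℝ] Eu d) := by
  obtain ⟨m, rfl⟩ := Nat.exists_eq_add_of_le h
  have := growth_sub Q θ a m
  rwa [Nat.cast_add, add_sub_cancel_left]

theorem growth_map (Q : ℕ → Eu d ≃L[ℝ] Eu d) (U : Submodule ℝ (Eu d)) (a b : ℕ) :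
    (U.map (Q a : Eu d →ₗ[ℝ] Eu d)).map ((Q a).symm.trans (Q b) : Eu d →ₗ[ℝ] Eu d) =
      U.map (Q b : Eu d →ₗ[ℝ] Eu d) := by
  rw [← Submodule.map_comp]
  congr 1
  ext1 v
  simp

theorem growth_rank (B : Eu d ≃L[ℝ] Eu d) (U : Submodule ℝ (Eu d)) :
    finrank ℝ (U.map (B : Eu d →ₗ[ℝ] Eu d)) = finrank ℝ U :=
  LinearEquiv.finrank_map_eq B.toLinearEquiv U

theorem growth_log (Q : ℕ → Eu d ≃L[ℝ] Eu d) (U : Submodule ℝ (Eu d)) (a b c : ℕ) :
    Real.log (jac ((Q a).symm.trans (Q c) : Eu d →L[ℝ] Eu d) (U.map (Q a : Eu d →ₗ[ℝ] Eu d))) =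
      Real.log (jac ((Q a).symm.trans (Q b) : Eu d →L[ℝ] Eu d) (U.map (Q a : Eu d →ₗ[ℝ] Eu d))) +
      Real.log (jac ((Q b).symm.trans (Q c) : Eu d →L[ℝ] Eu d)
        (U.map (Q b : Eu d →ₗ[ℝ] Eu d))) := by
  have e : ((Q a).symm.trans (Q c) : Eu d →L[ℝ] Eu d) =
      ((Q b).symm.trans (Q c) : Eu d →L[ℝ] Eu d) ∘L
        ((Q a).symm.trans (Q b) : Eu d →L[ℝ] Eu d) := by
    ext1 v
    simp
  have e2 := growth_map Q U a b
  rw [e, jac_comp, Real.log_mul (jac_pos _ _).ne' (jac_pos _ _).ne', add_comm]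
  congr 3

theorem growth_mid (Q : ℕ → Eu d ≃L[ℝ] Eu d) (hQ : ∀ v, Q 0 v = v) {n : ℕ} {θ D c : ℝ}
    (hD : ∑ b ∈ Finset.range n, Vp θ ((Q b).symm.trans (Q (b + 1)) : Eu d →L[ℝ] Eu d) -
      Vp (θ * n) (Q n : Eu d →L[ℝ] Eu d) ≤ D) {U : Submodule ℝ (Eu d)}
    (hU : Vp (θ * n) (Q n : Eu d →L[ℝ] Eu d) - c ≤
      Real.log (jac (Q n : Eu d →L[ℝ] Eu d) U) - θ * n * finrank ℝ U) {a b : ℕ} (hab : a ≤ b)
    (hb : b ≤ n) :
    Vp (θ * (b - a)) ((Q a).symm.trans (Q b) : Eu d →L[ℝ] Eu d) - (D + c) ≤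
      Real.log (jac ((Q a).symm.trans (Q b) : Eu d →L[ℝ] Eu d) (U.map (Q a : Eu d →ₗ[ℝ] Eu d))) -
        θ * (b - a) * finrank ℝ U := by
  have h0 : Q 0 = ContinuousLinearEquiv.refl ℝ (Eu d) := ContinuousLinearEquiv.ext (funext hQ)
  have e0 : (Q 0).symm.trans (Q n) = Q n := by
    rw [h0]
    exact ContinuousLinearEquiv.ext (funext fun v => rfl)
  have e1 : U.map (Q 0 : Eu d →ₗ[ℝ] Eu d) = U := by
    rw [h0]
    exact Submodule.map_id U
  have l1 := growth_log Q U 0 a n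
  have l2 := growth_log Q U a b n
  rw [e0, e1] at l1
  have v1 := (le_Vp (θ * (a - (0 : ℕ))) ((Q 0).symm.trans (Q a)) U).trans
    (growth_sub' Q θ (Nat.zero_le a))
  have v2 := (le_Vp (θ * (n - b)) ((Q b).symm.trans (Q n)) (U.map (Q b : Eu d →ₗ[ℝ] Eu d))).trans
    (growth_sub' Q θ hb)
  have v3 := growth_sub' Q θ hab
  rw [growth_rank] at v2
  rw [Finset.range_eq_Ico, ← Finset.sum_Ico_consecutive _ (Nat.zero_le b) hb,
    ← Finset.sum_Ico_consecutive _ (Nat.zero_le a) hab] at hD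
  rw [Nat.cast_zero, sub_zero] at v1
  linarith

theorem growth_in (B : Eu d ≃L[ℝ] Eu d) (W : Submodule ℝ (Eu d)) {t E : ℝ}
    (h : Vp t (B : Eu d →L[ℝ] Eu d) - E ≤
      Real.log (jac (B : Eu d →L[ℝ] Eu d) W) - t * finrank ℝ W) {x : Eu d} (hx : x ∈ W) :
    ‖x‖ * Real.exp t ≤ Real.exp E * ‖B x‖ := by
  by_cases h0 : x = 0
  · simp [h0]
  have hn : 0 < ‖x‖ := norm_pos_iff.2 h0
  obtain ⟨U', hU', hj⟩ := jac_remove B W (v := ‖x‖⁻¹ • x) (norm_smul_inv_norm h0)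
    (W.smul_mem _ hx)
  have h1 := le_Vp t B U'
  have hB : 0 < ‖B (‖x‖⁻¹ • x)‖ := by
    rw [norm_pos_iff, ne_eq, map_eq_zero_iff _ B.injective]
    exact smul_ne_zero (inv_ne_zero hn.ne') h0
  have h2 := Real.log_le_log (jac_pos B W) hj
  rw [Real.log_mul (jac_pos B U').ne' hB.ne'] at h2
  rw [hU'] at h
  push_cast at h
  have h3 : t - E ≤ Real.log ‖B (‖x‖⁻¹ • x)‖ := by linarith
  rw [← Real.exp_le_exp, Real.exp_log hB, map_smul, norm_smul, norm_inv, norm_norm, Real.exp_sub,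
    div_le_iff₀ (Real.exp_pos E)] at h3
  have := mul_le_mul_of_nonneg_left h3 hn.le
  rwa [← mul_assoc, ← mul_assoc, mul_inv_cancel₀ hn.ne', one_mul, mul_comm ‖B x‖] at this

theorem growth_inf (W : Submodule ℝ (Eu d)) {y : Eu d} (hy : y ∈ W) (z : Eu d) {c : ℝ}
    (hc : 0 < c) : infDist (y + c • z) (W : Set (Eu d)) ≤ infDist z (W : Set (Eu d)) * c := by
  rw [← div_le_iff₀ hc, le_infDist ⟨0, W.zero_mem⟩]
  intro u hu
  rw [div_le_iff₀ hc]
  refine (infDist_le_dist_of_mem (W.add_mem hy (W.smul_mem c hu))).trans (le_of_eq ?_)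
  rw [dist_add_left, dist_smul₀, Real.norm_eq_abs, abs_of_pos hc, mul_comm]

theorem growth_out (B : Eu d ≃L[ℝ] Eu d) (W : Submodule ℝ (Eu d)) {t E : ℝ}
    (h : Vp t (B : Eu d →L[ℝ] Eu d) - E ≤
      Real.log (jac (B : Eu d →L[ℝ] Eu d) W) - t * finrank ℝ W) (x : Eu d) :
    infDist (B x) (W.map (B : Eu d →ₗ[ℝ] Eu d)) ≤ Real.exp (t + E) * infDist x W := by
  obtain ⟨y, hy, q, hq, rfl⟩ := W.exists_add_mem_mem_orthogonal x
  have hy' : B y ∈ W.map (B : Eu d →ₗ[ℝ] Eu d) := Submodule.mem_map_of_mem hy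
  by_cases h0 : q = 0
  · rw [h0, add_zero, infDist_zero_of_mem hy']
    exact mul_nonneg (Real.exp_pos _).le infDist_nonneg
  have hn : 0 < ‖q‖ := norm_pos_iff.2 h0
  have h1 : ‖q‖ ≤ infDist (y + q) (W : Set (Eu d)) := by
    rw [le_infDist ⟨0, W.zero_mem⟩]
    intro u hu
    have a1 := norm_add_sq_eq_norm_sq_add_norm_sq_real
      (Submodule.inner_right_of_mem_orthogonal (W.sub_mem hy hu) hq)
    rw [dist_eq_norm, show y + q - u = y - u + q by abel]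
    exact abs_le_of_sq_le_sq' (by nlinarith [sq_nonneg ‖y - u‖]) (norm_nonneg _) |>.2
  obtain ⟨j1, j2⟩ := jac_sup B W (v := ‖q‖⁻¹ • q) (norm_smul_inv_norm h0) (Wᗮ.smul_mem _ hq)
  have h2 := le_Vp t B (W ⊔ Submodule.span ℝ {‖q‖⁻¹ • q})
  have h3 := jac_pos B (W ⊔ Submodule.span ℝ {‖q‖⁻¹ • q})
  rw [j1] at h3
  have h4 := (mul_pos_iff_of_pos_left (jac_pos B W)).1 h3
  rw [j1, j2, Real.log_mul (jac_pos B W).ne' h4.ne'] at h2
  push_cast at h2
  have h5 : Real.log (infDist (B (‖q‖⁻¹ • q)) (W.map (B : Eu d →ₗ[ℝ] Eu d))) ≤ t + E := by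
    linarith
  rw [← Real.exp_le_exp, Real.exp_log h4] at h5
  have e : B (y + q) = B y + ‖q‖ • B (‖q‖⁻¹ • q) := by
    rw [← map_smul, smul_smul, mul_inv_cancel₀ hn.ne', one_smul, map_add]
  rw [e]
  exact (growth_inf _ hy' _ hn).trans (mul_le_mul h5 h1 hn.le (Real.exp_pos _).le)

theorem growth {d : ℕ} (Q : ℕ → Eu d ≃L[ℝ] Eu d) (hQ : ∀ v, Q 0 v = v) (n : ℕ) {τ D : ℝ}
    (hτ : 0 ≤ τ)
    (hD : ∀ j : ℕ, j ≤ d + 1 →
      ∑ b ∈ Finset.range n, Vp (j * τ) ((Q b).symm.trans (Q (b + 1)) : Eu d →L[ℝ] Eu d) -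
        Vp (j * τ * n) (Q n : Eu d →L[ℝ] Eu d) ≤ D) :
    ∃ j : ℕ, j ≤ d ∧ ∃ U : Submodule ℝ (Eu d), ∀ a b : ℕ, a ≤ b → b ≤ n →
      (∀ w ∈ U, ‖Q a w‖ * Real.exp ((j + 1) * τ * (b - a)) ≤ Real.exp (D + 2) * ‖Q b w‖) ∧
      ∀ v, infDist (Q b v) (U.map (Q b : Eu d →ₗ[ℝ] Eu d)) ≤
        Real.exp (j * τ * (b - a) + (D + 2)) * infDist (Q a v) (U.map (Q a : Eu d →ₗ[ℝ] Eu d)) := by
  choose Us hUs using fun j : ℕ => exists_near_Vp (j * τ * n) (Q n)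
  obtain ⟨j, j', hj', hjj, hr⟩ : ∃ j j' : ℕ, j' ≤ d + 1 ∧ j < j' ∧
      finrank ℝ (Us j) = finrank ℝ (Us j') := by
    obtain ⟨x, hx, y, hy, hxy, h⟩ := Finset.exists_ne_map_eq_of_card_lt_of_maps_to
      (s := Finset.range (d + 2)) (t := Finset.range (d + 1)) (by simp)
      (f := fun j => finrank ℝ (Us j)) fun j _ => by
        have := Submodule.finrank_le (Us j)
        rw [finrank_euclideanSpace_fin] at this
        simp only [Finset.coe_range, Set.mem_Iio]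
        omega
    rw [Finset.mem_range] at hx hy
    rcases lt_or_gt_of_ne hxy with h1 | h1
    · exact ⟨x, y, by omega, h1, h⟩
    · exact ⟨y, x, by omega, h1, h.symm⟩
  have n1 : Vp (j' * τ * n) (Q n : Eu d →L[ℝ] Eu d) - 2 ≤
      Real.log (jac (Q n : Eu d →L[ℝ] Eu d) (Us j')) - j' * τ * n * finrank ℝ (Us j') := by
    linarith [hUs j']
  have n2 : Vp (j * τ * n) (Q n : Eu d →L[ℝ] Eu d) - 2 ≤
      Real.log (jac (Q n : Eu d →L[ℝ] Eu d) (Us j')) - j * τ * n * finrank ℝ (Us j') := by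
    have a1 := hUs j
    have a2 := hUs j'
    have a3 := le_Vp (j' * τ * n) (Q n) (Us j)
    rw [hr] at a1 a3
    linarith
  refine ⟨j, by omega, Us j', fun a b hab hb => ⟨fun w hw => ?_, fun v => ?_⟩⟩
  · have m := growth_mid Q hQ (hD j' hj') n1 hab hb
    rw [← growth_rank (Q a) (Us j')] at m
    have := growth_in _ _ m (x := Q a w) (Submodule.mem_map_of_mem hw)
    simp only [ContinuousLinearEquiv.trans_apply, ContinuousLinearEquiv.symm_apply_apply] at this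
    refine le_trans (mul_le_mul_of_nonneg_left (Real.exp_le_exp.2 ?_) (norm_nonneg _)) this
    have h1 : (j : ℝ) + 1 ≤ j' := by exact_mod_cast hjj
    have h2 : (0 : ℝ) ≤ b - a := sub_nonneg.2 (by exact_mod_cast hab)
    gcongr
  · have m := growth_mid Q hQ (hD j (by omega)) n2 hab hb
    rw [← growth_rank (Q a) (Us j')] at m
    have := growth_out _ _ m (Q a v)
    rw [growth_map] at this
    simpa only [ContinuousLinearEquiv.trans_apply, ContinuousLinearEquiv.symm_apply_apply]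
      using this

end Vale.Agent.P109
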