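import Mathlib
import Vale.Agent.P109.Growth
import Vale.Agent.P109.Coc

/-! From small defect to an invariant splitting with a gap. -/

namespace Vale.Agent.P109

open MeasureTheory Set Metric Module
open scoped ENNReal

/-- The projection onto U that is orthogonal after applying B. -/
noncomputable def splitPr {d : ℕ} (U : Submodule ℝ (Eu d)) (B : Eu d ≃L[ℝ] Eu d) :
    Eu d →L[ℝ] Eu d :=
  (B.symm : Eu d →L[ℝ] Eu d) ∘L (U.map (B : Eu d →ₗ[ℝ] Eu d)).starProjection ∘L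
    (B : Eu d →L[ℝ] Eu d)

section
variable {d : ℕ} (U : Submodule ℝ (Eu d)) (B : Eu d ≃L[ℝ] Eu d)

theorem split_apply (v : Eu d) :
    B (splitPr U B v) = (U.map (B : Eu d →ₗ[ℝ] Eu d)).starProjection (B v) :=
  B.apply_symm_apply _

theorem split_mem (v : Eu d) : splitPr U B v ∈ U := by
  obtain ⟨w, hw, e⟩ := (U.map (B : Eu d →ₗ[ℝ] Eu d)).starProjection_apply_mem (B v)
  rw [← split_apply] at e
  exact B.injective e ▸ hw

theorem split_fix {w : Eu d} (hw : w ∈ U) : splitPr U B w = w :=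
  B.injective <| by
    rw [split_apply]
    exact Submodule.starProjection_eq_self_iff.2 ⟨w, hw, rfl⟩

theorem split_norm (v : Eu d) : ‖B (splitPr U B v)‖ ≤ ‖B v‖ := by
  rw [split_apply]
  exact Submodule.norm_starProjection_apply_le _ _

theorem split_dist (v : Eu d) :
    infDist (B v) (U.map (B : Eu d →ₗ[ℝ] Eu d)) = ‖B (v - splitPr U B v)‖ := by
  rw [map_sub, split_apply, Submodule.starProjection_minimal, infDist_eq_iInf]
  simp only [dist_eq_norm]
  rfl

theorem split_dist_le (v : Eu d) : ‖B (v - splitPr U B v)‖ ≤ ‖B v‖ := by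
  rw [← split_dist]
  exact (infDist_le_dist_of_mem (U.map (B : Eu d →ₗ[ℝ] Eu d)).zero_mem).trans_eq (dist_zero_right _)

end

theorem split_iter {d : ℕ} (Q : ℕ → Eu d ≃L[ℝ] Eu d) {L : ℝ} (hL : 1 ≤ L)
    (hle : ∀ t v, ‖Q (t + 1) v‖ ≤ L * ‖Q t v‖) (hge : ∀ t v, ‖Q t v‖ ≤ L * ‖Q (t + 1) v‖)
    {u s t : ℕ} (h1 : s ≤ t) (h2 : t ≤ s + u) (v : Eu d) :
    ‖Q t v‖ ≤ L ^ u * ‖Q s v‖ ∧ ‖Q s v‖ ≤ L ^ u * ‖Q t v‖ := by
  have h0 : 0 ≤ L := zero_le_one.trans hL
  have key : ∀ m, ‖Q (s + m) v‖ ≤ L ^ m * ‖Q s v‖ ∧ ‖Q s v‖ ≤ L ^ m * ‖Q (s + m) v‖ := fun m => by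
    induction m with
    | zero => simp
    | succ m ih =>
      refine ⟨?_, ?_⟩
      · rw [pow_succ', mul_assoc]
        exact (hle _ _).trans (mul_le_mul_of_nonneg_left ih.1 h0)
      · rw [pow_succ, mul_assoc]
        exact ih.2.trans (mul_le_mul_of_nonneg_left (hge _ _) (pow_nonneg h0 _))
  obtain ⟨m, rfl⟩ := Nat.exists_eq_add_of_le h1
  have h3 : L ^ m ≤ L ^ u := pow_le_pow_right₀ hL (by omega)
  exact ⟨(key m).1.trans (mul_le_mul_of_nonneg_right h3 (norm_nonneg _)),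
    (key m).2.trans (mul_le_mul_of_nonneg_right h3 (norm_nonneg _))⟩

/-- The estimates at block times. -/
theorem split_block {d : ℕ} (P : ℕ → Eu d ≃L[ℝ] Eu d) {M θ κ D : ℝ} (hM : 1 ≤ M) (hθ : 0 ≤ θ)
    (hκ : θ ≤ κ) (hD : 0 ≤ D) (n : ℕ) (hle : ∀ t v, ‖P (t + 1) v‖ ≤ M * ‖P t v‖)
    (U : Submodule ℝ (Eu d))
    (hU : ∀ a b : ℕ, a ≤ b → b ≤ n →
      (∀ w ∈ U, ‖P a w‖ * Real.exp (κ * (b - a)) ≤ Real.exp D * ‖P b w‖) ∧
      ∀ v, infDist (P b v) (U.map (P b : Eu d →ₗ[ℝ] Eu d)) ≤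
        Real.exp (θ * (b - a) + D) * infDist (P a v) (U.map (P a : Eu d →ₗ[ℝ] Eu d)))
    {a b : ℕ} (hab : a ≤ b) (hb : b ≤ n) (v : Eu d) :
    ‖P b (v - splitPr U (P n) v)‖ ≤
      (n + 1) * Real.exp (2 * D) * M * Real.exp (θ * (b - a)) * ‖P a v‖ := by
  obtain ⟨c, hc⟩ : ∃ c, c = Real.exp (2 * D) * M * Real.exp (θ * (b - a)) * ‖P a v‖ := ⟨_, rfl⟩
  have c0 : 0 ≤ c := by rw [hc]; positivity
  have hq : ∀ r, a ≤ r → r ≤ n → ‖P r (v - splitPr U (P r) v)‖ ≤
      Real.exp (θ * (r - a) + D) * ‖P a v‖ := fun r h1 h2 => by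
    have := (hU a r h1 h2).2 v
    rw [split_dist, split_dist] at this
    exact this.trans (mul_le_mul_of_nonneg_left (split_dist_le U _ v) (Real.exp_pos _).le)
  have key : ∀ m, b + m ≤ n →
      ‖P b (splitPr U (P (b + m)) v - splitPr U (P b) v)‖ ≤ m * c := fun m hm => by
    induction m with
    | zero => simp
    | succ m ih =>
      have e : splitPr U (P (b + (m + 1))) v - splitPr U (P b) v =
          (splitPr U (P (b + m)) v - splitPr U (P b) v) +
            splitPr U (P (b + m + 1)) (v - splitPr U (P (b + m)) v) := by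
        rw [map_sub, split_fix U _ (split_mem U _ v), add_assoc]
        abel
      rw [e, map_add, Nat.cast_succ, add_mul, one_mul]
      refine (norm_add_le _ _).trans (add_le_add (ih (by omega)) ?_)
      have h1 := (hU b (b + m + 1) (by omega) hm).1 _
        (split_mem U (P (b + m + 1)) (v - splitPr U (P (b + m)) v))
      have h2 := (split_norm U (P (b + m + 1)) (v - splitPr U (P (b + m)) v)).trans
        ((hle _ _).trans (mul_le_mul_of_nonneg_left (hq (b + m) (by omega) (by omega))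
          (zero_le_one.trans hM)))
      refine le_of_mul_le_mul_right ((h1.trans (mul_le_mul_of_nonneg_left h2
        (Real.exp_pos _).le)).trans ?_) (Real.exp_pos _)
      have h3 : Real.exp D * Real.exp (θ * ((b + m : ℕ) - a) + D) ≤ Real.exp (2 * D) *
          Real.exp (θ * (b - a)) * Real.exp (κ * ((b + m + 1 : ℕ) - b)) := by
        rw [← Real.exp_add, ← Real.exp_add, ← Real.exp_add]
        refine Real.exp_le_exp.2 ?_
        push_cast
        nlinarith [mul_le_mul_of_nonneg_right hκ (Nat.cast_nonneg (α := ℝ) m)]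
      calc _ = Real.exp D * Real.exp (θ * ((b + m : ℕ) - a) + D) * (M * ‖P a v‖) := by ring
        _ ≤ _ := mul_le_mul_of_nonneg_right h3 (by positivity)
        _ = _ := by rw [hc]; ring
  obtain ⟨m, rfl⟩ := Nat.exists_eq_add_of_le hb
  have e : v - splitPr U (P (b + m)) v =
      (v - splitPr U (P b) v) - (splitPr U (P (b + m)) v - splitPr U (P b) v) := by abel
  have h1 : Real.exp (θ * (b - a) + D) * ‖P a v‖ ≤ c := by
    rw [hc, mul_right_comm (Real.exp _), ← Real.exp_add]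
    refine mul_le_mul_of_nonneg_right ((Real.exp_le_exp.2 (by linarith)).trans
      (le_mul_of_one_le_right (Real.exp_pos _).le hM)) (norm_nonneg _)
  rw [e, map_sub]
  refine (norm_sub_le _ _).trans ((add_le_add ((hq b hab hb).trans h1) (key m le_rfl)).trans ?_)
  calc c + m * c ≤ ((b + m : ℕ) + 1) * c := by
        push_cast
        nlinarith [mul_nonneg (Nat.cast_nonneg (α := ℝ) b) c0]
    _ = _ := by rw [hc]; ring

theorem splits_of_growth {d : ℕ} (Q : ℕ → Eu d ≃L[ℝ] Eu d) {L γ D : ℝ} (hL : 1 ≤ L) (hγ : 0 ≤ γ)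
    (hD : 0 ≤ D) (u n j : ℕ) (hu : 0 < u)
    (hle : ∀ t v, ‖Q (t + 1) v‖ ≤ L * ‖Q t v‖) (hge : ∀ t v, ‖Q t v‖ ≤ L * ‖Q (t + 1) v‖)
    (U : Submodule ℝ (Eu d))
    (hU : ∀ a b : ℕ, a ≤ b → b ≤ n →
      (∀ w ∈ U, ‖Q (a * u) w‖ * Real.exp ((j + 1) * (γ * u) * (b - a)) ≤
        Real.exp D * ‖Q (b * u) w‖) ∧
      ∀ v, infDist (Q (b * u) v) (U.map (Q (b * u) : Eu d →ₗ[ℝ] Eu d)) ≤
        Real.exp (j * (γ * u) * (b - a) + D) *
          infDist (Q (a * u) v) (U.map (Q (a * u) : Eu d →ₗ[ℝ] Eu d))) :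
    Splits Q (n * u) j γ (2 * (n + 1) * Real.exp (3 * D + (2 * j + 1) * (γ * u)) * L ^ (3 * u)) := by
  have hM : 1 ≤ L ^ u := one_le_pow₀ hL
  have g0 : 0 ≤ γ * u := by positivity
  have j0 : (0 : ℝ) ≤ j := Nat.cast_nonneg j
  have hb := fun a b h1 h2 v => split_block (fun a => Q (a * u)) hM (θ := j * (γ * u))
    (κ := (j + 1) * (γ * u)) (by positivity) (by nlinarith) hD n
    (fun t v => (split_iter Q hL hle hge (by nlinarith) (Nat.succ_mul t u).le v).1) U hU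
    (a := a) (b := b) h1 h2 v
  refine ⟨1 - splitPr U (Q (n * u)), fun v => ?_, fun s t hst ht v => ?_⟩
  · simp [split_fix U _ (split_mem U _ v)]
  have h1 : s / u ≤ t / u := Nat.div_le_div_right hst
  have h2 : t / u ≤ n := Nat.div_le_of_le_mul (by rwa [mul_comm])
  have s1 := Nat.div_mul_le_self s u
  have t1 := Nat.div_mul_le_self t u
  have s2 := (Nat.lt_div_mul_add (a := s) hu).le
  have t2 := (Nat.lt_div_mul_add (a := t) hu).le
  generalize s / u = a at h1 s1 s2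
  generalize t / u = b at h1 h2 t1 t2
  have s1' : (a : ℝ) * u ≤ s := by exact_mod_cast s1
  have t1' : (b : ℝ) * u ≤ t := by exact_mod_cast t1
  have s2' : (s : ℝ) ≤ a * u + u := by exact_mod_cast s2
  have t2' : (t : ℝ) ≤ b * u + u := by exact_mod_cast t2
  have n0 : (1 : ℝ) ≤ n + 1 := by linarith [Nat.cast_nonneg (α := ℝ) n]
  have e3 : L ^ (3 * u) = L ^ u * L ^ u * L ^ u := by ring
  rw [e3]
  generalize hL' : L ^ u = M at hM hb ⊢
  have it := fun (s t : ℕ) (h1 : s ≤ t) (h2 : t ≤ s + u) v => hL' ▸ split_iter Q hL hle hge h1 h2 v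
  have M0 : 0 ≤ M := zero_le_one.trans hM
  refine ⟨?_, ?_⟩
  · have k1 : Real.exp (2 * D) * Real.exp (j * (γ * u) * (b - a)) ≤
        Real.exp (3 * D + (2 * j + 1) * (γ * u)) * Real.exp (j * γ * (t - s)) := by
      rw [← Real.exp_add, ← Real.exp_add]
      refine Real.exp_le_exp.2 ?_
      nlinarith [mul_le_mul_of_nonneg_left (show u * (b - a) ≤ (t : ℝ) - s + u by linarith)
        (mul_nonneg j0 hγ), mul_nonneg j0 g0]
    calc _ ≤ M * ‖Q (b * u) (v - splitPr U (Q (n * u)) v)‖ := (it _ _ t1 t2 _).1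
      _ ≤ M * ((n + 1) * Real.exp (2 * D) * M * Real.exp (j * (γ * u) * (b - a)) *
          (M * ‖Q s v‖)) := mul_le_mul_of_nonneg_left ((hb a b h1 h2 v).trans
            (mul_le_mul_of_nonneg_left (it _ _ s1 s2 _).2 (by positivity))) M0
      _ = Real.exp (2 * D) * Real.exp (j * (γ * u) * (b - a)) *
          ((n + 1) * (M * M * M) * ‖Q s v‖) := by ring
      _ ≤ _ := mul_le_mul_of_nonneg_right k1 (by positivity)
      _ ≤ 2 * _ := le_mul_of_one_le_left (by positivity) one_le_two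
      _ = _ := by ring
  · have k1 : Real.exp D * Real.exp (2 * D) ≤
        Real.exp (3 * D + (2 * j + 1) * (γ * u)) * Real.exp (-((j + 1) * γ * (t - s))) *
          Real.exp ((j + 1) * (γ * u) * (b - a)) := by
      rw [← Real.exp_add, ← Real.exp_add, ← Real.exp_add]
      refine Real.exp_le_exp.2 ?_
      nlinarith [mul_le_mul_of_nonneg_left (show (t : ℝ) - s - u ≤ u * (b - a) by linarith)
        (mul_nonneg (add_nonneg j0 zero_le_one) hγ), mul_nonneg j0 g0]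
    have k2 := hb b b le_rfl h2 v
    rw [sub_self, mul_zero, Real.exp_zero, mul_one] at k2
    have k3 : ‖Q (b * u) (splitPr U (Q (n * u)) v)‖ ≤
        2 * ((n + 1) * Real.exp (2 * D) * M) * ‖Q (b * u) v‖ := by
      rw [← sub_sub_cancel v (splitPr U (Q (n * u)) v), map_sub, mul_assoc, two_mul]
      refine (norm_sub_le _ _).trans (add_le_add (le_mul_of_one_le_left (norm_nonneg _) ?_) k2)
      exact one_le_mul_of_one_le_of_one_le (one_le_mul_of_one_le_of_one_le n0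
        (Real.one_le_exp (by linarith))) hM
    have k4 := ((hU a b h1 h2).1 _ (split_mem U (Q (n * u)) v)).trans
      (mul_le_mul_of_nonneg_left (k3.trans (mul_le_mul_of_nonneg_left (it _ _ t1 t2 v).2
        (by positivity))) (Real.exp_pos _).le)
    rw [show v - (1 - splitPr U (Q (n * u))) v = splitPr U (Q (n * u)) v from sub_sub_cancel _ _]
    refine (it _ _ s1 s2 _).1.trans (le_of_mul_le_mul_right ?_
      (Real.exp_pos ((j + 1) * (γ * u) * (b - a))))
    rw [mul_assoc]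
    calc _ ≤ _ := mul_le_mul_of_nonneg_left k4 M0
      _ = Real.exp D * Real.exp (2 * D) * (2 * (n + 1) * (M * M * M) * ‖Q t v‖) := by ring
      _ ≤ _ := mul_le_mul_of_nonneg_right k1 (by positivity)
      _ = _ := by ring

theorem Splits.mono {d : ℕ} {Q : ℕ → Eu d ≃L[ℝ] Eu d} {T j : ℕ} {γ Γ Γ' : ℝ}
    (h : Splits Q T j γ Γ) (hΓ : Γ ≤ Γ') : Splits Q T j γ Γ' := by
  obtain ⟨π, h1, h2⟩ := h
  refine ⟨π, h1, fun s t hst ht v => ⟨(h2 s t hst ht v).1.trans ?_, (h2 s t hst ht v).2.trans ?_⟩⟩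
    <;> gcongr

theorem dfc_term_nonneg {d : ℕ} {Ω : Type*} (A : Ω → Eu d ≃L[ℝ] Eu d) (S : Ω → Ω) (t : ℝ)
    (u n : ℕ) (z : Ω) :
    0 ≤ ∑ b ∈ Finset.range n, Vp t (coc A S (S^[b * u] z) u : Eu d →L[ℝ] Eu d) -
      Vp (t * n) (coc A S z (n * u) : Eu d →L[ℝ] Eu d) := by
  induction n with
  | zero =>
    rw [Nat.cast_zero, mul_zero, zero_mul, Finset.sum_range_zero]
    exact sub_nonneg.2 Vp_refl.le
  | succ n ih =>
    have := Vp_trans (t * n) t (coc A S z (n * u)) (coc A S (S^[n * u] z) u)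
    rw [Finset.sum_range_succ, Nat.succ_mul, coc_add, Nat.cast_succ, mul_add_one]
    linarith

theorem splits_of_dfc {d : ℕ} {Ω : Type*} {A : Ω → Eu d ≃L[ℝ] Eu d} {L : ℝ} (hL : 1 ≤ L)
    (hle : ∀ z v, ‖A z v‖ ≤ L * ‖v‖) (hge : ∀ z v, ‖v‖ ≤ L * ‖A z v‖) (S : Ω → Ω) {γ D : ℝ}
    (hγ : 0 ≤ γ) (u n : ℕ) (hu : 0 < u) (z : Ω) (hz : dfc A S γ u n z ≤ D) :
    ∃ j ≤ d, Splits (coc A S z) (n * u) j γ
      (2 * (n + 1) * Real.exp (3 * (D + 2) + (2 * d + 1) * (γ * u)) * L ^ (3 * u)) := by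
  have h0 : ∀ j ∈ Finset.range (d + 2), 0 ≤ ∑ b ∈ Finset.range n,
      Vp (j * (γ * u)) (coc A S (S^[b * u] z) u : Eu d →L[ℝ] Eu d) -
        Vp (j * (γ * u) * n) (coc A S z (n * u) : Eu d →L[ℝ] Eu d) :=
    fun j _ => dfc_term_nonneg A S _ u n z
  have hD : 0 ≤ D := (Finset.sum_nonneg h0).trans hz
  obtain ⟨j, hj, U, hU⟩ := growth (fun a => coc A S z (a * u)) (fun v => by simp [coc_zero]) n
    (τ := γ * u) (D := D) (by positivity) fun j hj => by
      simp only [Nat.succ_mul, symm_trans_coc]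
      exact (Finset.single_le_sum h0 (Finset.mem_range.2 (by omega))).trans hz
  refine ⟨j, hj, (splits_of_growth (coc A S z) hL hγ (by linarith) u n j hu
    (fun t v => hle _ _) (fun t v => hge _ _) U hU).mono ?_⟩
  have : (j : ℝ) ≤ d := by exact_mod_cast hj
  have : 0 ≤ L := by linarith
  gcongr

end Vale.Agent.P109
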