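import Mathlib
import Vale.Agent.P109.Split

/-! Most scales are flat. -/

namespace Vale.Agent.P109

open MeasureTheory Set Metric Module
open scoped ENNReal

theorem flat_tele {ψ : ℕ → ℝ} {C : ℝ} (h0 : ∀ i, 0 ≤ ψ i) (hC : ∀ i, ψ i ≤ C) (r J : ℕ) :
    ∑ i ∈ Finset.range J, (ψ i - ψ (r + i)) ≤ r * C := by
  have h1 := Finset.sum_range_add ψ J r
  rw [add_comm J r, Finset.sum_range_add] at h1
  have h2 : 0 ≤ ∑ i ∈ Finset.range r, ψ (J + i) := Finset.sum_nonneg fun i _ => h0 _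
  have h3 := Finset.sum_le_card_nsmul (Finset.range r) ψ C fun i _ => hC i
  rw [Finset.card_range, nsmul_eq_mul] at h3
  rw [Finset.sum_sub_distrib]
  linarith

theorem flat_prob {d : ℕ} {Ω : Type*} [MeasurableSpace Ω] {ν : Measure Ω} [IsProbabilityMeasure ν]
    {S : Ω → Ω} (hS : MeasurePreserving S ν ν) {A : Ω → Eu d ≃L[ℝ] Eu d}
    (hA : Measurable fun z => (A z : Eu d →L[ℝ] Eu d)) {L : ℝ} (hL : 1 ≤ L)
    (hle : ∀ z v, ‖A z v‖ ≤ L * ‖v‖) {γ : ℝ} (hγ : 0 ≤ γ) (u₀ r J : ℕ) (hu : 0 < u₀) :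
    ∑ i ∈ Finset.range J, ν.real {z | ((u₀ * 2 ^ i : ℕ) : ℝ) < dfc A S γ (u₀ * 2 ^ i) (2 ^ r) z} ≤
      (d + 2) * 2 ^ r * r * (d * Real.log L) := by
  let V : ℕ → ℕ → Ω → ℝ := fun j u z => Vp (j * (γ * u)) (coc A S z u : Eu d →L[ℝ] Eu d)
  have hV0 : ∀ j u z, 0 ≤ V j u z := fun j u z => Vp_nonneg _ _
  have hV1 : ∀ j u z, V j u z ≤ u * (d * Real.log L) := fun j u z => by
    have := Vp_le (t := j * (γ * u)) (by positivity) (coc A S z u : Eu d →L[ℝ] Eu d)
      (one_le_pow₀ hL (n := u)) (coc_le (zero_le_one.trans hL) hle S z u)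
    rw [Real.log_pow] at this
    exact this.trans (le_of_eq (by ring))
  have hVm : ∀ j u, Measurable (V j u) := fun j u =>
    (measurable_Vp _).comp (measurable_coc hS.measurable hA u)
  have hVi : ∀ j u, Integrable (V j u) ν := fun j u =>
    Integrable.of_bound (hVm j u).aestronglyMeasurable (u * (d * Real.log L))
      (Filter.Eventually.of_forall fun z => by
        rw [Real.norm_of_nonneg (hV0 j u z)]
        exact hV1 j u z)
  have hVi' : ∀ j u t, Integrable (fun z => V j u (S^[t] z)) ν := fun j u t =>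
    (hS.iterate t).integrable_comp_of_integrable (hVi j u)
  have hVe : ∀ j u t, ∫ z, V j u (S^[t] z) ∂ν = ∫ z, V j u z ∂ν := fun j u t => by
    rw [← integral_map (hS.iterate t).measurable.aemeasurable (hVm j u).aestronglyMeasurable,
      (hS.iterate t).map_eq]
  let ψ : ℕ → ℕ → ℝ := fun j i => (∫ z, V j (u₀ * 2 ^ i) z ∂ν) / (u₀ * 2 ^ i : ℕ)
  have hup : ∀ i, (0 : ℝ) < (u₀ * 2 ^ i : ℕ) := fun i => by positivity
  have hψ0 : ∀ j i, 0 ≤ ψ j i := fun j i => div_nonneg (integral_nonneg (hV0 j _)) (hup i).le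
  have hψ1 : ∀ j i, ψ j i ≤ d * Real.log L := fun j i => by
    refine (div_le_iff₀' (hup i)).2 ?_
    have := integral_mono (hVi j (u₀ * 2 ^ i)) (integrable_const _) (hV1 j _)
    rwa [integral_const, probReal_univ, one_smul] at this
  have key : ∀ i, ν.real {z | ((u₀ * 2 ^ i : ℕ) : ℝ) < dfc A S γ (u₀ * 2 ^ i) (2 ^ r) z} ≤
      2 ^ r * ∑ j ∈ Finset.range (d + 2), (ψ j i - ψ j (r + i)) := by
    intro i
    have e1 : 2 ^ r * (u₀ * 2 ^ i) = u₀ * 2 ^ (r + i) := by ring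
    have e : dfc A S γ (u₀ * 2 ^ i) (2 ^ r) = fun z => ∑ j ∈ Finset.range (d + 2),
        (∑ b ∈ Finset.range (2 ^ r), V j (u₀ * 2 ^ i) (S^[b * (u₀ * 2 ^ i)] z) -
          V j (u₀ * 2 ^ (r + i)) z) := by
      funext z
      refine Finset.sum_congr rfl fun j _ => ?_
      simp only [V]
      rw [e1]
      congr 2
      push_cast
      ring
    have i1 : ∀ j, Integrable (fun z =>
        ∑ b ∈ Finset.range (2 ^ r), V j (u₀ * 2 ^ i) (S^[b * (u₀ * 2 ^ i)] z)) ν := fun j =>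
      integrable_finsetSum _ fun b _ => hVi' _ _ _
    have h1 := mul_meas_ge_le_integral_of_nonneg (μ := ν) (f := dfc A S γ (u₀ * 2 ^ i) (2 ^ r))
      (Filter.Eventually.of_forall fun z =>
        Finset.sum_nonneg fun j _ => dfc_term_nonneg A S _ _ _ z)
      (e ▸ integrable_finsetSum _ fun j _ => (i1 j).sub (hVi _ _)) (u₀ * 2 ^ i : ℕ)
    have h2 : ∫ z, dfc A S γ (u₀ * 2 ^ i) (2 ^ r) z ∂ν =
        (u₀ * 2 ^ i : ℕ) * (2 ^ r * ∑ j ∈ Finset.range (d + 2), (ψ j i - ψ j (r + i))) := by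
      rw [e]
      dsimp only
      rw [integral_finsetSum _ fun j _ => (i1 j).sub' (hVi _ _), Finset.mul_sum, Finset.mul_sum]
      refine Finset.sum_congr rfl fun j _ => ?_
      rw [integral_sub (i1 j) (hVi _ _), integral_finsetSum _ fun b _ => hVi' _ _ _]
      simp only [hVe, Finset.sum_const, Finset.card_range, nsmul_eq_mul, ψ]
      have : (u₀ : ℝ) ≠ 0 := by positivity
      push_cast
      field_simp
      ring
    rw [h2] at h1
    refine le_trans (measureReal_mono ?_ (measure_ne_top _ _)) (le_of_mul_le_mul_left h1 (hup i))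
    intro z hz
    exact le_of_lt (mem_ofPred_eq ▸ hz :)
  refine (Finset.sum_le_sum fun i _ => key i).trans ?_
  rw [← Finset.mul_sum, Finset.sum_comm]
  have h3 := Finset.sum_le_card_nsmul (Finset.range (d + 2)) _ _ fun j _ =>
    flat_tele (hψ0 j) (hψ1 j) r J
  rw [Finset.card_range, nsmul_eq_mul] at h3
  refine (mul_le_mul_of_nonneg_left h3 (by positivity)).trans (le_of_eq ?_)
  push_cast
  ring

end Vale.Agent.P109
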