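import Mathlib
import Vale.Agent.P109.Ent

/-! The information theoretic step. -/

namespace Vale.Agent.P109

open MeasureTheory Set Metric Module
open scoped ENNReal

section Aux
variable {Ω α β γ κ : Type*} [MeasurableSpace Ω] {ν : Measure Ω}

/-- Probability of a value. -/
noncomputable def infoP (ν : Measure Ω) (Y : Ω → α) (v : α) : ℝ := ν.real (Y ⁻¹' {v})

theorem info_nn (Y : Ω → α) (v : α) : 0 ≤ infoP ν Y v := measureReal_nonneg

theorem info_pair (Y : Ω → α) (w : Ω → κ) (y : α) (k : κ) :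
    infoP ν (fun z => (Y z, w z)) (y, k) = ν.real (w ⁻¹' {k} ∩ Y ⁻¹' {y}) := by
  unfold infoP
  congr 1
  ext z
  simp [and_comm]

theorem info_marg [IsFiniteMeasure ν] {Y : Ω → α} (hY : FinRV Y) (w : Ω → κ) (k : κ)
    (t : Finset α) : ∑ y ∈ t, infoP ν (fun z => (Y z, w z)) (y, k) ≤ infoP ν w k := by
  simp only [info_pair]
  exact hY.sum_measure_le _ t

theorem info_marg' [IsFiniteMeasure ν] {Y : Ω → α} (hY : FinRV Y) (U : Ω → β) (w : Ω → κ) (u : β)
    (k : κ) (t : Finset α) :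
    ∑ y ∈ t, infoP ν (fun z => (U z, Y z, w z)) (u, y, k) ≤ ν.real (w ⁻¹' {k} ∩ U ⁻¹' {u}) := by
  refine le_of_eq_of_le (Finset.sum_congr rfl fun y _ => ?_) (hY.sum_measure_le _ t)
  unfold infoP
  congr 1
  ext z
  simp only [mem_preimage, mem_singleton_iff, Prod.mk.injEq, mem_inter_iff]
  tauto

theorem info_intg [IsFiniteMeasure ν] {Y : Ω → α} {Z : Ω → β} (hY : FinRV Y) (hZ : FinRV Z)
    (g : α → ℝ) : Integrable (fun z => Real.log (g (Y z) / pr ν Z z)) ν :=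
  (hY.prod hZ).integrable fun x => Real.log (g x.1 / infoP ν Z x.2)

theorem info_gibbs [IsFiniteMeasure ν] {Y : Ω → α} {w : Ω → κ} (hY : FinRV Y) (hw : FinRV w)
    {S : Set Ω} (hS : ∀ z z', w z = w z' → z ∈ S → z' ∈ S) (q : α × κ → ℝ) (hq : ∀ x, 0 ≤ q x)
    (hpos : ∀ᵐ z ∂ν, z ∈ S → 0 < q (Y z, w z))
    (h : ∀ z ∈ S, ∀ t : Finset α, ∑ y ∈ t, q (y, w z) ≤ infoP ν w (w z)) :
    ∫ z in S, Real.log (q (Y z, w z) / pr ν (fun y => (Y y, w y)) z) ∂ν ≤ 0 := by
  classical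
  refine (gibbs (hY.prod hw) (fun z z' e => hS z z' (congrArg Prod.snd e)) q hq hpos
    (c := ν.real S) fun t ht => ?_).trans_eq (sub_self _)
  refine (Finset.sum_le_sum_of_subset_of_nonneg Finset.subset_product fun x _ _ => hq x).trans ?_
  rw [Finset.sum_product_right]
  refine (Finset.sum_le_sum fun k hk => ?_).trans (hw.sum_measure_le S _)
  obtain ⟨x, hx, rfl⟩ := Finset.mem_image.1 hk
  obtain ⟨z, hz, rfl⟩ := ht hx
  refine (h z hz _).trans_eq ?_
  exact congrArg ν.real (inter_eq_right.2 fun y hy => hS z y (Eq.symm hy) hz).symm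

theorem info_pt {pD pX p1 p2 pB pA p a b K M Q q : ℝ} (hD : 0 < pD) (hX : 0 < pX) (h1 : 0 < p1)
    (h2 : 0 < p2) (hB : 0 < pB) (hA : 0 < pA) (hp : 0 < p) (ha : 0 < a) (hb : 0 ≤ b) (hK : 0 < K)
    (hM : 0 < M) (hQ : 0 < Q) (hq : 0 < q) (h : pD ≤ K * Q * q) :
    Real.log (pD / pX) ≤ Real.log (pB / p1) + Real.log (pA / p2) +
      (Real.log (p1 * p2 / (a * p + b) / pX) + Real.log (Q / M / pA) + Real.log (q * p / pB) +
        b / a * p⁻¹ + (Real.log a + Real.log K + Real.log M)) := by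
  have e1 := Real.log_le_log hD h
  have e2 : Real.log ((a * p + b) / (a * p)) ≤ b / a * p⁻¹ :=
    (Real.log_le_sub_one_of_pos (by positivity)).trans_eq (by field_simp; ring)
  have e3 : a * p + b ≠ 0 := by positivity
  simp (disch := positivity) only [Real.log_div, Real.log_mul] at e1 e2 ⊢
  linarith

theorem info_pt' {pD pX p1 p2 pB pA : ℝ} (hD : 0 < pD) (hX : 0 < pX) (h1 : 0 < p1)
    (h2 : 0 < p2) (hB : 0 < pB) (hA : 0 < pA) :
    Real.log (pD / pX) ≤ Real.log (pB / p1) + Real.log (pA / p2) +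
      Real.log (p1 / pB * (p2 / pA) * pD / pX) := by
  simp (disch := positivity) only [Real.log_div, Real.log_mul]
  linarith

theorem info_inv [IsFiniteMeasure ν] {W : Ω → α} {Φ : Ω → β} (hW : FinRV W) (hΦ : FinRV Φ)
    {S : Set Ω} (hS : MeasurableSet S) :
    ∫ z in S, (pr ν (fun y => (W y, Φ y)) z)⁻¹ ∂ν ≤ (range W).ncard * (range Φ).ncard := by
  refine (((hW.prod hΦ).setIntegral_eq (fun k => (infoP ν (fun y => (W y, Φ y)) k)⁻¹) hS).trans_le
    (Finset.sum_le_card_nsmul _ _ 1 fun k _ => ?_)).trans ?_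
  · exact div_le_one_of_le₀ (measureReal_mono inter_subset_right) measureReal_nonneg
  · rw [nsmul_one, ← ncard_eq_toFinset_card _ (hW.prod hΦ).1, ← Nat.cast_mul, ← ncard_prod, Nat.cast_le]
    exact ncard_le_ncard (by rintro _ ⟨z, rfl⟩; simp) (hW.1.prod hΦ.1)

theorem info_off [IsFiniteMeasure ν] {U' U'' : Ω → α} {B A : Ω → β} {w : Ω → κ} (hU' : FinRV U')
    (hU'' : FinRV U'') (hB : FinRV B) (hA : FinRV A) (w0 : κ)
    (t : Finset ((α × α) × β × β)) :
    ∑ y ∈ t, infoP ν (fun z => (U' z, B z, w z)) (y.1.1, y.2.1, w0) /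
      infoP ν (fun z => (B z, w z)) (y.2.1, w0) *
      (infoP ν (fun z => (U'' z, A z, w z)) (y.1.2, y.2.2, w0) /
      infoP ν (fun z => (A z, w z)) (y.2.2, w0)) *
      infoP ν (fun z => ((B z, A z), w z)) (y.2, w0) ≤ infoP ν w w0 := by
  classical
  refine (Finset.sum_le_sum_of_subset_of_nonneg (Finset.subset_product.trans
    (Finset.product_subset_product_left Finset.subset_product)) fun x _ _ => ?_).trans ?_
  · exact mul_nonneg (mul_nonneg (div_nonneg (info_nn _ _) (info_nn _ _))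
      (div_nonneg (info_nn _ _) (info_nn _ _))) (info_nn _ _)
  rw [Finset.sum_product_right]
  refine (Finset.sum_le_sum fun k _ => ?_).trans (info_marg (hB.prod hA) w w0 _)
  dsimp only
  rw [← Finset.sum_mul, Finset.sum_product, ← Finset.sum_mul_sum (f := fun u => infoP ν
    (fun z => (U' z, B z, w z)) (u, k.1, w0) / infoP ν (fun z => (B z, w z)) (k.1, w0))
    (g := fun u => infoP ν (fun z => (U'' z, A z, w z)) (u, k.2, w0) /
      infoP ν (fun z => (A z, w z)) (k.2, w0)), ← Finset.sum_div, ← Finset.sum_div]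
  exact mul_le_of_le_one_left (info_nn _ _) (mul_le_one₀
    (div_le_one_of_le₀ (info_marg hU' _ _ _) (info_nn _ _))
    (div_nonneg (Finset.sum_nonneg fun _ _ => info_nn _ _) (info_nn _ _))
    (div_le_one_of_le₀ (info_marg hU'' _ _ _) (info_nn _ _)))

open Classical in
theorem info_on [IsFiniteMeasure ν] {U' U'' : Ω → α} {B A : Ω → β} {w : Ω → κ} (hB : FinRV B)
    (hA : FinRV A) (w0 : κ) {E : Set (α × α)} {a b : ℝ} (ha : 0 ≤ a) (hb : 0 ≤ b)
    (hE : ∀ s : Finset (α × α), ↑s ⊆ E →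
      ∑ p ∈ s, ν.real (w ⁻¹' {w0} ∩ U' ⁻¹' {p.1}) * ν.real (w ⁻¹' {w0} ∩ U'' ⁻¹' {p.2}) ≤
        a * infoP ν w w0 ^ 2 + b * infoP ν w w0) (t : Finset ((α × α) × β × β)) :
    ∑ y ∈ t, (if y.1 ∈ E then infoP ν (fun z => (U' z, B z, w z)) (y.1.1, y.2.1, w0) *
      infoP ν (fun z => (U'' z, A z, w z)) (y.1.2, y.2.2, w0) / (a * infoP ν w w0 + b) else 0) ≤
      infoP ν w w0 := by
  have h0 : 0 ≤ a * infoP ν w w0 + b := add_nonneg (mul_nonneg ha (info_nn _ _)) hb
  refine (Finset.sum_le_sum_of_subset_of_nonneg (Finset.subset_product.trans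
    (Finset.product_subset_product_right Finset.subset_product)) fun x _ _ => ?_).trans ?_
  · split_ifs
    · exact div_nonneg (mul_nonneg (info_nn _ _) (info_nn _ _)) h0
    · exact le_rfl
  rw [Finset.sum_product]
  have h1 := div_le_div_of_nonneg_right (hE ((t.image Prod.fst).filter (· ∈ E))
    fun p hp => (Finset.mem_filter.1 hp).2) h0
  rw [Finset.sum_div, Finset.sum_filter] at h1
  refine (Finset.sum_le_sum fun p _ => ?_).trans (h1.trans ?_)
  · dsimp only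
    split_ifs
    · rw [← Finset.sum_div, Finset.sum_product, ← Finset.sum_mul_sum
        (f := fun y => infoP ν (fun z => (U' z, B z, w z)) (p.1, y, w0))
        (g := fun y => infoP ν (fun z => (U'' z, A z, w z)) (p.2, y, w0))]
      exact div_le_div_of_nonneg_right (mul_le_mul (info_marg' hB _ _ _ _ _)
        (info_marg' hA _ _ _ _ _) (Finset.sum_nonneg fun _ _ => info_nn _ _) measureReal_nonneg) h0
    · simp
  · rw [show a * infoP ν w w0 ^ 2 + b * infoP ν w w0 = infoP ν w w0 * (a * infoP ν w w0 + b) by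
      ring, mul_div_assoc]
    exact mul_le_of_le_one_right (info_nn _ _) (div_self_le_one _)

theorem info_Q [IsProbabilityMeasure ν] {A : Ω → α} {W : Ω → β} {Φ : Ω → γ} (hA : FinRV A)
    (hW : FinRV W) (hΦ : FinRV Φ) {S : Set Ω}
    (hS : ∀ z z', (W z, Φ z) = (W z', Φ z') → z ∈ S → z' ∈ S) {Qf : α → β → ℝ} {Qt : ℝ}
    (h0 : ∀ a w, 0 ≤ Qf a w) (hQ : ∀ s : Finset (α × β), ∑ p ∈ s, Qf p.1 p.2 ≤ Qt)
    (hM : 0 < Qt * (range Φ).ncard) (hpos : ∀ᵐ z ∂ν, z ∈ S → 0 < Qf (A z) (W z)) :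
    ∫ z in S, Real.log (Qf (A z) (W z) / (Qt * (range Φ).ncard) /
      pr ν (fun y => (A y, W y, Φ y)) z) ∂ν ≤ 1 := by
  classical
  refine (gibbs (hA.prod (hW.prod hΦ)) (fun z z' e => hS z z' (congrArg Prod.snd e))
    (fun x => Qf x.1 x.2.1 / (Qt * (range Φ).ncard)) (fun x => div_nonneg (h0 _ _) hM.le)
    (hpos.mono fun z h hz => div_pos (h hz) hM) (c := 1) fun t ht => ?_).trans
    (sub_le_self _ measureReal_nonneg)
  rw [← Finset.sum_div, div_le_one hM, ← Finset.sum_fiberwise_of_maps_to (t := hΦ.1.toFinset)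
    (g := fun x => x.2.2) fun x hx => by obtain ⟨z, _, rfl⟩ := ht hx; simp,
    ncard_eq_toFinset_card _ hΦ.1, mul_comm, ← nsmul_eq_mul]
  refine Finset.sum_le_card_nsmul _ _ _ fun φ _ => le_of_eq_of_le ?_
    (hQ ((t.filter fun x => x.2.2 = φ).image fun x => (x.1, x.2.1)))
  rw [Finset.sum_image]
  intro x hx y hy e
  have e1 := (Finset.mem_filter.1 hx).2
  have e2 := (Finset.mem_filter.1 hy).2
  rw [Prod.mk.injEq] at e
  exact Prod.ext e.1 (Prod.ext e.2 (e1.trans e2.symm))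

theorem info_fin {S : Set Ω} (mS : MeasurableSet S) {f f1 f2 r r' : Ω → ℝ} (hf : Integrable f ν)
    (h1 : Integrable f1 ν) (h2 : Integrable f2 ν) (hr : Integrable r ν) (hr' : Integrable r' ν)
    (h : ∀ᵐ z ∂ν, z ∈ S → f z ≤ f1 z + f2 z + r z) (h' : ∀ᵐ z ∂ν, f z ≤ f1 z + f2 z + r' z) :
    ∫ z, f z ∂ν ≤ ∫ z, f1 z ∂ν + ∫ z, f2 z ∂ν + ∫ z in S, r z ∂ν + ∫ z in Sᶜ, r' z ∂ν := by
  have a1 := integral_mono_ae hf.integrableOn ((h1.add h2).add hr).integrableOn
    ((ae_restrict_iff' mS).2 h)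
  have a2 := integral_mono_ae (μ := ν.restrict Sᶜ) hf.integrableOn
    ((h1.add h2).add hr').integrableOn (ae_restrict_of_ae h')
  rw [integral_add' (h1.add h2).integrableOn hr.integrableOn,
    integral_add' h1.integrableOn h2.integrableOn] at a1
  rw [integral_add' (h1.add h2).integrableOn hr'.integrableOn,
    integral_add' h1.integrableOn h2.integrableOn] at a2
  linarith [integral_add_compl mS hf, integral_add_compl mS h1, integral_add_compl mS h2]

end Aux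

theorem info_step {Ω 𝒰 𝒟 𝒟' 𝒢 𝒲 𝒱 : Type*} [MeasurableSpace Ω] {ν : Measure Ω}
    [IsProbabilityMeasure ν] {U' U'' : Ω → 𝒰} {B A : Ω → 𝒟} {Dp : Ω → 𝒟'} {G : Ω → 𝒢}
    {W : Ω → 𝒲} {S₀ : Set Ω} {K Qt : ℝ} {Φ : Ω → 𝒱} {𝒯 : Set 𝒱} {a b : ℝ}
    (hU' : FinRV U') (hU'' : FinRV U'') (hDp : FinRV Dp)
    (hI : Indep ν B A Dp G W S₀ K Qt) (hT : Tie ν U' U'' Φ 𝒯 a b)
    (hK : 1 ≤ K) (hQ : 1 ≤ Qt) (ha : 0 < a) (hb : 0 ≤ b) :
    Hc ν (fun z => (U' z, U'' z)) Dp ≤ Hc ν U' B + Hc ν U'' A +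
      ν.real (S₀ ∩ Φ ⁻¹' 𝒯) * Real.log a + b / a * ((range W).ncard * (range Φ).ncard) +
      Real.log (range G).ncard + 2 * Real.log (range Φ).ncard + Real.log K + Real.log Qt + 1 := by
  classical
  obtain ⟨Qf, qf, hQ0, hq0, hQt, hq1, hbd⟩ := hI.bound
  obtain ⟨ℰ, hℰ, hE⟩ := hT.ex
  have hΦ := hT.finΦ
  have hW := hI.finW
  have hB := hDp.of_refines hI.refB
  have hA := hDp.of_refines hI.refA
  have hU := hU'.prod hU''
  have hw := hW.prod hΦ
  have s1 := Hc_le_add_log_card (ν := ν) hU hDp hI.finG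
  have s2 := Hc_le_add_log_card (ν := ν) hU (hDp.prod hI.finG) hΦ
  have s3 := Hc_mono (ν := ν) (D := fun z => ((B z, A z), W z, Φ z)) hU
    ((hDp.prod hI.finG).prod hΦ) fun z z' e => by
      have e1 := congrArg Prod.fst e
      have e2 := congrArg Prod.fst e1
      exact Prod.ext (Prod.ext (hI.refB z z' e2) (hI.refA z z' e2))
        (Prod.ext (hI.refW z z' e1) (Prod.mk.inj e).2)
  have s4 := Hc_mono (ν := ν) (D := B) hU' (hB.prod hw) fun z z' e => congrArg Prod.fst e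
  have s5 := Hc_mono (ν := ν) (D := A) hU'' (hA.prod hw) fun z z' e => congrArg Prod.fst e
  have hΦ1 : (1 : ℝ) ≤ (range Φ).ncard := by
    have := nonempty_of_isProbabilityMeasure ν
    exact_mod_cast (ncard_pos hΦ.1).2 (range_nonempty Φ)
  have hM : 0 < Qt * (range Φ).ncard := by positivity
  set S := S₀ ∩ Φ ⁻¹' 𝒯
  have hS : ∀ z z', (W z, Φ z) = (W z', Φ z') → z ∈ S → z' ∈ S := fun z z' e hz =>
    ⟨hI.detS z z' (hI.refG z z' (congrArg Prod.fst e)) hz.1,
      show Φ z' ∈ 𝒯 from (show Φ z = Φ z' from congrArg Prod.snd e) ▸ hz.2⟩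
  have mS := hw.measurableSet_of_det hS
  have hY := hU.prod (hB.prod hA)
  have eX : ∀ z, pr ν (fun y => ((U' y, U'' y), (B y, A y), W y, Φ y)) z =
      pr ν (fun y => (((U' y, U'' y), B y, A y), W y, Φ y)) z := fun z => by
    unfold pr
    congr 1
    ext y
    simp only [mem_preimage, mem_singleton_iff, Prod.mk.injEq]
    tauto
  have hp := (((hB.prod hA).prod hw).pr_pos (ν := ν)).and (((hY.prod hw).pr_pos (ν := ν)).and
    (((hU'.prod (hB.prod hw)).pr_pos (ν := ν)).and (((hU''.prod (hA.prod hw)).pr_pos (ν := ν)).and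
    (((hB.prod hw).pr_pos (ν := ν)).and (((hA.prod hw).pr_pos (ν := ν)).and
    (hw.pr_pos (ν := ν)))))))
  have hle : ∀ z ∈ S, pr ν (fun y => ((B y, A y), W y, Φ y)) z ≤
      K * Qf (A z) (W z) * qf (B z) (W z) := fun z hz => le_trans (measureReal_mono fun y hy => by
    simp only [mem_preimage, mem_singleton_iff, Prod.mk.injEq] at hy
    exact ⟨hy.1.1, hy.1.2, hy.2.1⟩) (hbd z hz.1)
  have hpos : ∀ᵐ z ∂ν, z ∈ S → 0 < Qf (A z) (W z) ∧ 0 < qf (B z) (W z) := hp.mono fun z h hz => by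
    have h1 := h.1.trans_le (hle z hz)
    exact ⟨(hQ0 _ _).lt_of_ne' fun e => by simp [e] at h1,
      (hq0 _ _).lt_of_ne' fun e => by simp [e] at h1⟩
  let q1 : ((𝒰 × 𝒰) × 𝒟 × 𝒟) × 𝒲 × 𝒱 → ℝ := fun x =>
    infoP ν (fun z => (U' z, B z, W z, Φ z)) (x.1.1.1, x.1.2.1, x.2) /
      infoP ν (fun z => (B z, W z, Φ z)) (x.1.2.1, x.2) *
      (infoP ν (fun z => (U'' z, A z, W z, Φ z)) (x.1.1.2, x.1.2.2, x.2) /
      infoP ν (fun z => (A z, W z, Φ z)) (x.1.2.2, x.2)) *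
      infoP ν (fun z => ((B z, A z), W z, Φ z)) (x.1.2, x.2)
  let q2 : ((𝒰 × 𝒰) × 𝒟 × 𝒟) × 𝒲 × 𝒱 → ℝ := fun x => if x.1.1 ∈ ℰ x.2.2 then
      infoP ν (fun z => (U' z, B z, W z, Φ z)) (x.1.1.1, x.1.2.1, x.2) *
      infoP ν (fun z => (U'' z, A z, W z, Φ z)) (x.1.1.2, x.1.2.2, x.2) /
        (a * infoP ν (fun z => (W z, Φ z)) x.2 + b) else 0
  have g1 := info_gibbs (ν := ν) hY hw (S := Sᶜ) (fun z z' e hz hz' => hz (hS z' z e.symm hz')) q1
    (fun x => mul_nonneg (mul_nonneg (div_nonneg (info_nn _ _) (info_nn _ _))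
      (div_nonneg (info_nn _ _) (info_nn _ _))) (info_nn _ _))
    (hp.mono fun z h _ => mul_pos (mul_pos (div_pos h.2.2.1 h.2.2.2.2.1)
      (div_pos h.2.2.2.1 h.2.2.2.2.2.1)) h.1)
    fun z _ t => info_off hU' hU'' hB hA _ t
  have g2 := info_gibbs (ν := ν) hY hw hS q2
    (fun x => by
      simp only [q2]
      split_ifs
      · exact div_nonneg (mul_nonneg (info_nn _ _) (info_nn _ _))
          (add_nonneg (mul_nonneg ha.le (info_nn _ _)) hb)
      · exact le_rfl)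
    ((hp.and hℰ).mono fun z h hz => by
      simp only [q2, if_pos (h.2 hz.2)]
      exact div_pos (mul_pos h.1.2.2.1 h.1.2.2.2.1)
        (add_pos_of_pos_of_nonneg (mul_pos ha h.1.2.2.2.2.2.2) hb))
    fun z hz t => info_on hB hA _ ha.le hb (hE _ hz.2 _ (hw.2 _)
      fun y (hy : (W y, Φ y) = (W z, Φ z)) => congrArg Prod.snd hy) t
  have g3 := info_Q (ν := ν) hA hW hΦ hS hQ0 hQt hM (hpos.mono fun z h hz => (h hz).1)
  have g4 := info_gibbs (ν := ν) hB hw hS
    (fun x => qf x.1 x.2.1 * infoP ν (fun z => (W z, Φ z)) x.2)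
    (fun x => mul_nonneg (hq0 _ _) (info_nn _ _))
    ((hp.and hpos).mono fun z h hz => mul_pos (h.2 hz).2 h.1.2.2.2.2.2.2)
    fun z _ t => by
      dsimp only
      rw [← Finset.sum_mul]
      exact mul_le_of_le_one_left (info_nn _ _) (hq1 _ t)
  have g5 := mul_le_mul_of_nonneg_left (info_inv (ν := ν) hW hΦ mS) (div_nonneg hb ha.le)
  have i0 := info_intg (ν := ν) ((hB.prod hA).prod hw) (hU.prod ((hB.prod hA).prod hw))
    (infoP ν fun z => ((B z, A z), W z, Φ z))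
  have i1 := info_intg (ν := ν) (hB.prod hw) (hU'.prod (hB.prod hw))
    (infoP ν fun z => (B z, W z, Φ z))
  have i2 := info_intg (ν := ν) (hA.prod hw) (hU''.prod (hA.prod hw))
    (infoP ν fun z => (A z, W z, Φ z))
  have j1 := info_intg (ν := ν) (hY.prod hw) (hY.prod hw) q1
  have j2 := info_intg (ν := ν) (hY.prod hw) (hY.prod hw) q2
  have j3 := info_intg (ν := ν) (hA.prod hW) (hA.prod hw)
    fun x => Qf x.1 x.2 / (Qt * (range Φ).ncard)
  have j4 := info_intg (ν := ν) (hB.prod hw) (hB.prod hw)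
    fun x => qf x.1 x.2.1 * infoP ν (fun z => (W z, Φ z)) x.2
  have j5 := (hw.integrable (ν := ν) fun x => (infoP ν (fun z => (W z, Φ z)) x)⁻¹).const_mul (b / a)
  have j6 := integrable_const (μ := ν)
    (Real.log a + Real.log K + Real.log (Qt * (range Φ).ncard))
  have key := info_fin mS i0 i1 i2 ((((j2.add j3).add j4).add j5).add j6) j1
    (((hp.and hpos).and hℰ).mono fun z ⟨⟨⟨a1, a2, a3, a4, a5, a6, a7⟩, a8⟩, a9⟩ hz => by
      simp only [Pi.add_apply, eX, q2, if_pos (a9 hz.2)]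
      exact info_pt a1 a2 a3 a4 a5 a6 a7 ha hb (by linarith) hM (a8 hz).1 (a8 hz).2 (hle z hz))
    (hp.mono fun z ⟨a1, a2, a3, a4, a5, a6, _⟩ => by
      rw [eX]
      exact info_pt' a1 a2 a3 a4 a5 a6)
  rw [integral_add' (((j2.add j3).add j4).add j5).integrableOn j6.integrableOn,
    integral_add' ((j2.add j3).add j4).integrableOn j5.integrableOn,
    integral_add' (j2.add j3).integrableOn j4.integrableOn,
    integral_add' j2.integrableOn j3.integrableOn, integral_const_mul, setIntegral_const,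
    Real.log_mul (by linarith) (by linarith), smul_eq_mul] at key
  have l1 := mul_le_of_le_one_left (add_nonneg (add_nonneg (Real.log_nonneg hK)
    (Real.log_nonneg hQ)) (Real.log_nonneg hΦ1)) (measureReal_le_one (μ := ν) (s := S))
  have k2 : Hc ν (fun z => (U' z, U'' z)) (fun z => ((B z, A z), W z, Φ z)) ≤
      Hc ν U' (fun z => (B z, W z, Φ z)) + Hc ν U'' (fun z => (A z, W z, Φ z)) + _ + _ := key
  exact (s1.trans (add_le_add_left (s2.trans (add_le_add_left (s3.trans (k2.trans (add_le_add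
    (add_le_add (add_le_add s4 s5) (add_le_add_left (add_le_add (add_le_add (add_le_add g2 g3) g4)
      g5) _)) g1))) _)) _)).trans (by linarith)

end Vale.Agent.P109
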