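import Mathlib
import Vale.Agent.P109.Grid
import Vale.Agent.P109.Coc

/-! Shapes of the cells: norms in which the splittings have bounded projections. -/

namespace Vale.Agent.P109

open MeasureTheory Set Metric Module
open scoped ENNReal

variable {d : ℕ}

theorem shape_sq {a b : ℝ} (hb : 0 ≤ b) (h : a ^ 2 ≤ b ^ 2) : a ≤ b :=
  (abs_le_of_sq_le_sq' h hb).2

theorem exists_Lam (M : Eu d →L[ℝ] Eu d) :
    ∃ Λ : Eu d ≃L[ℝ] Eu d, ∀ v, ‖Λ v‖ ^ 2 = ‖v‖ ^ 2 + ‖M v‖ ^ 2 := by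
  let T : Eu d →ₗ[ℝ] WithLp 2 (Eu d × Eu d) :=
    (WithLp.linearEquiv 2 ℝ (Eu d × Eu d)).symm.toLinearMap ∘ₗ
      (LinearMap.id.prod (M : Eu d →ₗ[ℝ] Eu d))
  have hT : Function.Injective T := fun a b h => congrArg WithLp.fst h
  have hr : finrank ℝ (LinearMap.range T) = d := by
    rw [LinearMap.finrank_range_of_inj hT, finrank_euclideanSpace_fin]
  let b := (stdOrthonormalBasis ℝ (LinearMap.range T)).reindex (finCongr hr)
  refine ⟨((LinearEquiv.ofInjective T hT).trans b.repr.toLinearEquiv).toContinuousLinearEquiv,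
    fun v => ?_⟩
  have h1 : ‖b.repr (LinearEquiv.ofInjective T hT v)‖ = ‖T v‖ := b.repr.norm_map _
  exact (congrArg (· ^ 2) h1).trans (WithLp.prod_norm_sq_eq_of_L2 _)

theorem proj_bound {M : Eu d →L[ℝ] Eu d} {Λ : Eu d ≃L[ℝ] Eu d}
    (hΛ : ∀ v, ‖Λ v‖ ^ 2 = ‖v‖ ^ 2 + ‖M v‖ ^ 2) {s u : Eu d} (hs : ‖M s‖ ≤ ‖s‖ / 4)
    (hu : ‖u‖ ≤ ‖M u‖ / 4) : ‖Λ s‖ ≤ 4 * ‖Λ (s + u)‖ := by
  have n0 := norm_nonneg (Λ (s + u))
  have h1 : ‖s + u‖ ≤ ‖Λ (s + u)‖ :=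
    shape_sq n0 (by rw [hΛ]; exact le_add_of_nonneg_right (sq_nonneg _))
  have h2 : ‖M s + M u‖ ≤ ‖Λ (s + u)‖ :=
    shape_sq n0 (by rw [hΛ, map_add]; exact le_add_of_nonneg_left (sq_nonneg _))
  have h3 := norm_sub_le (s + u) u
  have h4 := norm_sub_le (M s + M u) (M s)
  rw [add_sub_cancel_right] at h3
  rw [add_sub_cancel_left] at h4
  refine shape_sq (by positivity) ?_
  rw [hΛ]
  have h5 : ‖s‖ ^ 2 ≤ (2 * ‖Λ (s + u)‖) ^ 2 := pow_le_pow_left₀ (norm_nonneg _) (by linarith) 2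
  have h6 : ‖M s‖ ^ 2 ≤ (2 * ‖Λ (s + u)‖) ^ 2 := pow_le_pow_left₀ (norm_nonneg _) (by linarith) 2
  nlinarith

variable {Ω : Type*} [MeasurableSpace Ω] {ν : Measure Ω} {S : Ω → Ω}

theorem PW.coc_close (P : PW d ν S) (m : ℕ) {R c : ℝ} (hc : c * (2 * P.L) ^ m < R) (hR : R ≤ 1)
    {z z' : Ω} (hz : ∀ t < m, S^[t] z ∈ P.Good R) (hzz : ‖P.Θ z - P.Θ z'‖ ≤ c) (v : Eu d) :
    ‖coc P.A S z m v - coc P.A S z' m v‖ ≤ m * P.L ^ (m + 1) * R * ‖v‖ := by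
  have L1 := P.one_le
  have c0 : 0 ≤ c := (norm_nonneg _).trans hzz
  have R0 : 0 < R := lt_of_le_of_lt (by positivity) hc
  have hb : ∀ t ≤ m, ‖P.Θ (S^[t] z) - P.Θ (S^[t] z')‖ ≤ c * (2 * P.L) ^ t →
      P.Θ (S^[t] z') ∈ ball (P.Θ (S^[t] z)) R := fun t ht h => by
    rw [mem_ball, dist_comm, dist_eq_norm]
    exact lt_of_le_of_lt (h.trans (mul_le_mul_of_nonneg_left
      (pow_le_pow_right₀ (by linarith) ht) c0)) hc
  have key : ∀ t ≤ m, ‖P.Θ (S^[t] z) - P.Θ (S^[t] z')‖ ≤ c * (2 * P.L) ^ t ∧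
      ‖coc P.A S z t v - coc P.A S z' t v‖ ≤ t * P.L ^ t * R * ‖v‖ := by
    intro t
    induction t with
    | zero => exact fun _ => ⟨by simpa using hzz, by simp [coc_zero]⟩
    | succ t ih =>
      intro ht
      obtain ⟨h1, h2⟩ := ih (by omega)
      have h3 := hb t (by omega) h1
      constructor
      · have h4 := P.good_lin R _ (hz t ht) _ (mem_ball_self R0) _ h3
        have h5 := P.A_le (S^[t] z) (P.Θ (S^[t] z) - P.Θ (S^[t] z'))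
        rw [P.semi, P.semi] at h4
        rw [Function.iterate_succ_apply', Function.iterate_succ_apply']
        refine (norm_le_norm_sub_add _ _).trans ((add_le_add h4 h5).trans ?_)
        calc _ ≤ P.L * 1 * (c * (2 * P.L) ^ t) + P.L * (c * (2 * P.L) ^ t) := by gcongr
          _ = _ := by ring
      · have h4 := P.good_A R _ (hz t ht) _ h3 (coc P.A S z' t v)
        have h5 := P.A_le (S^[t] z) (coc P.A S z t v - coc P.A S z' t v)
        have h6 := coc_le (by linarith) P.A_le S z' t v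
        rw [map_sub] at h5
        rw [coc_succ, coc_succ]
        refine (norm_sub_le_norm_sub_add_norm_sub _ _ _).trans ((add_le_add h5 h4).trans ?_)
        calc _ ≤ P.L * (t * P.L ^ t * R * ‖v‖) + P.L * R * (P.L ^ t * ‖v‖) := by gcongr
          _ = _ := by push_cast; ring
  refine (key m le_rfl).2.trans ?_
  gcongr
  omega

theorem PW.shape (P : PW d ν S) (m : ℕ) {ρ R γ Γ : ℝ} (hγ : 0 ≤ γ) (hρ : 0 < ρ)
    (h₁ : d * ρ * (2 * P.L) ^ m < R) (h₂ : R ≤ 1) (h₃ : m * P.L ^ (m + 1) * R ≤ 1 / 8)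
    (h₄ : Γ * Real.exp (-(γ * m / 2)) ≤ 1 / 8) :
    ∃ Λ : (Fin d → ℤ) → ℕ → Eu d ≃L[ℝ] Eu d,
      (∀ τ j v, ‖v‖ ≤ ‖Λ τ j v‖ ∧ ‖Λ τ j v‖ ≤ 2 * P.L ^ m * ‖v‖) ∧
      ∀ (z : Ω) (j : ℕ) (s u : Eu d), (∀ t < m, S^[t] z ∈ P.Good R) →
        ‖coc P.A S z m s‖ ≤ Γ * Real.exp (j * γ * m) * ‖s‖ →
        ‖u‖ ≤ Γ * Real.exp (-((j + 1) * γ * m)) * ‖coc P.A S z m u‖ →
        ‖Λ (box ρ (P.Θ z)) j s‖ ≤ 4 * ‖Λ (box ρ (P.Θ z)) j (s + u)‖ := by
  have L1 := P.one_le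
  have L2 : 1 ≤ P.L ^ m := one_le_pow₀ L1
  have key : ∀ (τ : Fin d → ℤ) (j : ℕ), ∃ Λ : Eu d ≃L[ℝ] Eu d,
      (∀ v, ‖v‖ ≤ ‖Λ v‖ ∧ ‖Λ v‖ ≤ 2 * P.L ^ m * ‖v‖) ∧
      ∀ (z : Ω) (s u : Eu d), box ρ (P.Θ z) = τ → (∀ t < m, S^[t] z ∈ P.Good R) →
        ‖coc P.A S z m s‖ ≤ Γ * Real.exp (j * γ * m) * ‖s‖ →
        ‖u‖ ≤ Γ * Real.exp (-((j + 1) * γ * m)) * ‖coc P.A S z m u‖ →
        ‖Λ s‖ ≤ 4 * ‖Λ (s + u)‖ := by
    intro τ j
    by_cases h : ∃ z0, box ρ (P.Θ z0) = τ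
    swap
    · refine ⟨ContinuousLinearEquiv.refl ℝ _, fun v => ⟨le_rfl, ?_⟩, fun z _ _ hz => absurd ⟨z, hz⟩ h⟩
      exact le_mul_of_one_le_left (norm_nonneg _) (by linarith)
    obtain ⟨z0, h0⟩ := h
    obtain ⟨a, ha⟩ : ∃ a, a = Real.exp (-((j + 1 / 2) * γ * m)) := ⟨_, rfl⟩
    have a0 : 0 < a := ha ▸ Real.exp_pos _
    have a1 : a ≤ 1 := ha ▸ Real.exp_le_one_iff.2 (neg_nonpos.2 (by positivity))
    have a2 : a * Real.exp (j * γ * m) = Real.exp (-(γ * m / 2)) := by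
      rw [ha, ← Real.exp_add]
      congr 1
      ring
    have a3 : Real.exp (-((j + 1) * γ * m)) = Real.exp (-(γ * m / 2)) * a := by
      rw [ha, ← Real.exp_add]
      congr 1
      ring
    obtain ⟨Λ, hΛ⟩ := exists_Lam (a • (coc P.A S z0 m : Eu d →L[ℝ] Eu d))
    have hM : ∀ v, ‖(a • (coc P.A S z0 m : Eu d →L[ℝ] Eu d)) v‖ = a * ‖coc P.A S z0 m v‖ :=
      fun v => (norm_smul a (coc P.A S z0 m v)).trans (by rw [Real.norm_eq_abs, abs_of_pos a0])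
    refine ⟨Λ, fun v => ⟨shape_sq (norm_nonneg _) ?_, shape_sq (by positivity) ?_⟩,
      fun z s u hz hg hs hu => proj_bound hΛ ?_ ?_⟩
    · rw [hΛ]
      exact le_add_of_nonneg_right (sq_nonneg _)
    · have b1 : ‖v‖ ^ 2 ≤ (P.L ^ m * ‖v‖) ^ 2 :=
        pow_le_pow_left₀ (norm_nonneg _) (le_mul_of_one_le_left (norm_nonneg _) L2) 2
      have b2 : (a * ‖coc P.A S z0 m v‖) ^ 2 ≤ (P.L ^ m * ‖v‖) ^ 2 :=
        pow_le_pow_left₀ (by positivity) ((mul_le_of_le_one_left (norm_nonneg _) a1).trans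
          (coc_le (by linarith) P.A_le S z0 m v)) 2
      rw [hΛ, hM]
      nlinarith [sq_nonneg (P.L ^ m * ‖v‖)]
    · have b1 := (P.coc_close m h₁ h₂ hg (norm_sub_of_box_eq hρ (hz.trans h0.symm)) s).trans
        (mul_le_mul_of_nonneg_right h₃ (norm_nonneg _))
      have b2 := norm_le_norm_add_norm_sub' (coc P.A S z0 m s) (coc P.A S z m s)
      rw [norm_sub_rev] at b1
      have b3 : a * (Γ * Real.exp (j * γ * m) * ‖s‖) ≤ 1 / 8 * ‖s‖ := by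
        rw [← mul_assoc, mul_left_comm, a2]
        exact mul_le_mul_of_nonneg_right h₄ (norm_nonneg _)
      have b4 := mul_le_of_le_one_left (show 0 ≤ 1 / 8 * ‖s‖ by positivity) a1
      have b5 := mul_le_mul_of_nonneg_left (b2.trans (add_le_add hs b1)) a0.le
      rw [hM]
      linarith
    · have b1 := (P.coc_close m h₁ h₂ hg (norm_sub_of_box_eq hρ (hz.trans h0.symm)) u).trans
        (mul_le_mul_of_nonneg_right h₃ (norm_nonneg _))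
      have b2 := norm_le_norm_add_norm_sub' (coc P.A S z m u) (coc P.A S z0 m u)
      rw [a3, ← mul_assoc, mul_assoc] at hu
      have b3 := hu.trans (mul_le_mul_of_nonneg_right h₄ (by positivity))
      have b4 := mul_le_of_le_one_left (show 0 ≤ 1 / 8 * ‖u‖ by positivity) a1
      have b5 := mul_le_mul_of_nonneg_left (b2.trans (add_le_add le_rfl b1)) a0.le
      have b6 : 0 ≤ a * ‖coc P.A S z0 m u‖ := by positivity
      rw [hM]
      linarith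
  choose Λ h1 h2 using key
  exact ⟨Λ, h1, fun z j s u => h2 _ j z s u rfl⟩

end Vale.Agent.P109
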