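import Mathlib
import Vale.Agent.P109.Cell
import Vale.Agent.P109.Shape

/-! The pointwise product bound on nice atoms. -/

namespace Vale.Agent.P109

open MeasureTheory Set Metric Module
open scoped ENNReal

variable {d : ℕ} {Ω : Type*} [MeasurableSpace Ω] {ν : Measure Ω} {S : Ω → Ω}

/-- The atom of z contains a good point whose cocycle splits with gap index j. -/
def PW.Nice (P : PW d ν S) (h N : ℕ) (R γ Γ : ℝ) (j : ℕ) (κ : Fin (2 * N) → Fin d → ℤ) : Prop :=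
  ∃ z₀, P.itin h (2 * N) z₀ = κ ∧ (∀ t < 2 * N, S^[t] z₀ ∈ P.Good R) ∧
    Splits (coc P.A S z₀) (2 * N) j γ Γ

/-- All numerical conditions in terms of one master parameter Ξ. -/
structure PW.Par (P : PW d ν S) (N m h : ℕ) (γ Γ Ξ : ℝ) : Prop where
  N_pos : 0 < N
  m_le : m ≤ N
  γ_nonneg : 0 ≤ γ
  one_le : 1 ≤ Γ
  dim : 100 * (d + 1) ≤ Ξ
  N_le : 2 * N ≤ Ξ
  L_le : (2 * P.L) ^ (m + 1) ≤ Ξ
  Γ_le : Γ * Real.exp (d * γ * (2 * N)) ≤ Ξ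
  h_ge : Ξ ^ 12 ≤ 2 ^ h
  gap : Γ * Real.exp (-(γ * m / 2)) ≤ 1 / 8

theorem PW.Par.facts {P : PW d ν S} {N m h : ℕ} {γ Γ Ξ : ℝ} (hp : P.Par N m h γ Γ Ξ) :
    100 ≤ Ξ ∧ P.L ≤ Ξ ∧ (m : ℝ) ≤ Ξ ∧ (2 * P.L) ^ m ≤ Ξ ∧ 2 * P.L ^ m ≤ Ξ ∧ P.L ^ (m + 1) ≤ Ξ ∧
      Γ ≤ Ξ ∧ Ξ ^ 12 * (1 / 2 : ℝ) ^ h ≤ 1 := by
  have hd0 : (0 : ℝ) ≤ d := Nat.cast_nonneg d
  have hL := P.one_le
  have h1 : 100 ≤ Ξ := by linarith [hp.dim]
  have h2 : (1 : ℝ) ≤ (2 * P.L) ^ m := one_le_pow₀ (by linarith)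
  have h3 : (2 * P.L) ^ (m + 1) = (2 * P.L) ^ m * (2 * P.L) := pow_succ _ _
  have h4 := hp.L_le
  have h5 : P.L ^ m ≤ (2 * P.L) ^ m := pow_le_pow_left₀ (by linarith) (by linarith) _
  have h6 : 0 ≤ P.L ^ m := by positivity
  refine ⟨h1, by nlinarith, ?_, by nlinarith, by nlinarith, ?_, ?_, ?_⟩
  · have : (m : ℝ) ≤ N := by exact_mod_cast hp.m_le
    have : (0 : ℝ) ≤ N := Nat.cast_nonneg N
    linarith [hp.N_le]
  · exact (pow_le_pow_left₀ (by linarith) (by linarith) _).trans h4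
  · have : 1 ≤ Real.exp (d * γ * (2 * N)) := Real.one_le_exp (by have := hp.γ_nonneg; positivity)
    have h7 := hp.Γ_le
    have h8 := hp.one_le
    nlinarith
  · have h7 := hp.h_ge
    rw [one_div, inv_pow, ← div_eq_mul_inv, div_le_one (by positivity)]
    exact h7

theorem stepA_pow {Ξ ρ : ℝ} (h1 : 100 ≤ Ξ) (hρ : 0 ≤ ρ) (h : Ξ ^ 12 * ρ ≤ 1) {k : ℕ}
    (hk : k ≤ 11) : Ξ ^ k * ρ ≤ 1 / 100 := by
  have h2 : Ξ ^ k ≤ Ξ ^ 11 := pow_le_pow_right₀ (by linarith) hk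
  have h3 : Ξ ^ 12 = Ξ * Ξ ^ 11 := by ring
  have h4 : 0 ≤ Ξ ^ 11 * ρ := by positivity
  have h5 : Ξ ^ k * ρ ≤ Ξ ^ 11 * ρ := mul_le_mul_of_nonneg_right h2 hρ
  rw [h3, mul_assoc] at h
  nlinarith

/-- With ρ = 2^(-h), R = Ξ^2 ρ, σ = ρ / Ξ^2, r = ρ / Ξ^5. -/
theorem PW.nice_bound (P : PW d ν S) {N m h : ℕ} {γ Γ Ξ : ℝ} (hp : P.Par N m h γ Γ Ξ) :
    ∃ Λ : (Fin d → ℤ) → ℕ → Eu d ≃L[ℝ] Eu d, (∀ τ j v, ‖Λ τ j v‖ ≤ Ξ * ‖v‖) ∧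
      ∀ (j : ℕ) (κ : Fin (2 * N) → Fin d → ℤ) (τ : Fin d → ℤ) (c : Eu d) (Y : Set Ω) (z : Ω),
        j ≤ d → P.Nice h N (Ξ ^ 2 * (1 / 2) ^ h) γ Γ j κ → z ∈ Y →
        (∀ y ∈ Y, P.itin h (2 * N) y = κ) → box ((1 / 2 : ℝ) ^ h) (P.Θ (S^[N] z)) = τ →
        (∀ y ∈ Y, ∀ t < 2 * N, GG ((1 / 2 : ℝ) ^ h) ((1 / 2) ^ h / Ξ ^ 2) (P.Θ (S^[t] y))) →
        (∀ y ∈ Y, ‖Λ τ j (P.Θ (S^[N] y)) - c‖ ≤ 2 * (d + 1) * ((1 / 2) ^ h / Ξ ^ 5)) →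
        ν Y * volume {y : Eu d | ‖Λ τ j y - c‖ ≤ 48 * (d + 1) * ((1 / 2) ^ h / Ξ ^ 5)} ≤
          ENNReal.ofReal (27 * 12 ^ d * P.L ^ 3) *
            ν {w | P.itin h N w = P.itin h N (S^[N] z) ∧
              ‖Λ τ j (P.Θ w) - c‖ ≤ 48 * (d + 1) * ((1 / 2) ^ h / Ξ ^ 5)} *
            ν {w | P.itin h N w = P.itin h N z ∧
              ‖Λ τ j (P.Θ (S^[N] w)) - c‖ ≤ 48 * (d + 1) * ((1 / 2) ^ h / Ξ ^ 5)} := by
  obtain ⟨f1, f2, f3, f4, f5, f6, f7, f8⟩ := hp.facts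
  have hd0 : (0 : ℝ) ≤ d := Nat.cast_nonneg d
  have hL := P.one_le
  have hdim := hp.dim
  obtain ⟨ρ, hρ⟩ : ∃ ρ : ℝ, ρ = (1 / 2 : ℝ) ^ h := ⟨_, rfl⟩
  have hρ0 : 0 < ρ := by rw [hρ]; positivity
  rw [← hρ] at f8
  have hΞ0 : 0 < Ξ := by linarith
  have g := fun k hk => stepA_pow f1 hρ0.le f8 (k := k) hk
  obtain ⟨Λ, hΛ, hΛs⟩ := P.shape m (ρ := ρ) (R := Ξ ^ 2 * ρ) (Γ := Γ) hp.γ_nonneg hρ0
    (by
      have h1 : (d : ℝ) * (2 * P.L) ^ m < Ξ ^ 2 := by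
        have : (0 : ℝ) ≤ (2 * P.L) ^ m := by positivity
        nlinarith
      nlinarith)
    (by linarith [g 2 (by norm_num)])
    (by
      have h1 : (m : ℝ) * P.L ^ (m + 1) ≤ Ξ * Ξ :=
        mul_le_mul f3 f6 (by positivity) hΞ0.le
      have h2 := g 4 (by norm_num)
      have h3 : (m : ℝ) * P.L ^ (m + 1) * (Ξ ^ 2 * ρ) ≤ Ξ * Ξ * (Ξ ^ 2 * ρ) := by gcongr
      nlinarith) hp.gap
  refine ⟨Λ, fun τ j v => ((hΛ τ j v).2).trans (by gcongr), ?_⟩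
  rintro j κ τ c Y z hj ⟨z₀, hκ, hgood, π, hπ, hsp⟩ hz hY₁ hτ hY₂ hY₃
  rw [← hρ] at hgood hτ hY₂ hY₃ ⊢
  have hit : P.itin h (2 * N) z = P.itin h (2 * N) z₀ := (hY₁ z hz).trans hκ.symm
  have hit' := (P.itin_eq_iff h (2 * N) z z₀).1 hit
  have hN := hp.N_pos
  have hτ₀ : box ρ (P.Θ (S^[N] z₀)) = τ := by
    rw [← hτ, hρ]; exact (hit' N (by omega)).symm
  have hA : P.itin h N (S^[N] z) = P.itin h N (S^[N] z₀) := (P.itin_eq_iff h N _ _).2 fun t ht => by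
    rw [← Function.iterate_add_apply, ← Function.iterate_add_apply]
    exact hit' _ (by omega)
  have hB : P.itin h N z = P.itin h N z₀ :=
    (P.itin_eq_iff h N _ _).2 fun t ht => hit' _ (by omega)
  have hγ := hp.γ_nonneg
  have hΓ0 : 0 ≤ Γ := zero_le_one.trans hp.one_le
  have htube := P.tube (z := z₀) (T := 2 * N - 1) (R := Ξ ^ 2 * ρ) (Γ := Ξ) (by positivity)
    (by linarith) (fun t ht => hgood t (by omega)) hπ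
    (fun s t hst ht v => ((hsp s t hst (by omega) v).1).trans (by
      gcongr
      refine le_trans (mul_le_mul_of_nonneg_left (Real.exp_le_exp.2 ?_) hΓ0) hp.Γ_le
      have h1 : (t : ℝ) ≤ 2 * N := by exact_mod_cast (by omega : t ≤ 2 * N)
      have h2 : (0 : ℝ) ≤ s := Nat.cast_nonneg s
      have h3 : (j : ℝ) ≤ d := by exact_mod_cast hj
      have h4 : (s : ℝ) ≤ t := by exact_mod_cast hst
      exact mul_le_mul (mul_le_mul_of_nonneg_right h3 hγ) (by linarith) (by linarith)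
        (by positivity)))
    (fun s t hst ht v => ((hsp s t hst (by omega) v).2).trans (by
      gcongr
      have h4 : (s : ℝ) ≤ t := by exact_mod_cast hst
      have h5 : Real.exp (-((j + 1) * γ * (t - s))) ≤ 1 := by
        rw [Real.exp_le_one_iff, neg_nonpos]
        exact mul_nonneg (by positivity) (by linarith)
      nlinarith))
  rw [hA, hB]
  have hm := hp.m_le
  refine P.cell_ineq hN hgood htube (Λ τ j) (lam := Ξ) (σ := ρ / Ξ ^ 2) (by linarith)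
    (fun v => (hΛ τ j v).1) (fun v => ((hΛ τ j v).2).trans (by gcongr)) ?_ (by positivity)
    ?_ ?_ ?_ ?_ c Y (fun y hy => (hY₁ y hy).trans hκ.symm) (by rw [← hρ]; exact hY₂) hY₃
  · intro v
    have h1 := hΛs (S^[N] z₀) j (coc P.A S z₀ N (π v)) (coc P.A S z₀ N (v - π v))
      (fun t ht => by
        rw [← Function.iterate_add_apply]; exact hgood _ (by omega))
      (by
        have h2 := (hsp N (N + m) (by omega) (by omega) (π v)).1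
        rw [hπ, coc_add_apply] at h2
        push_cast at h2
        rwa [add_sub_cancel_left] at h2)
      (by
        have h2 := (hsp N (N + m) (by omega) (by omega) (v - π v)).2
        rw [map_sub π, hπ, sub_self, sub_zero, coc_add_apply] at h2
        push_cast at h2
        rwa [add_sub_cancel_left] at h2)
    rwa [hτ₀, ← map_add, add_sub_cancel] at h1
  · have h1 := g 8 (by norm_num)
    have h2 := hp.N_le
    have h3 : 20 * ((d : ℝ) + 1) ≤ Ξ := by linarith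
    have h4 : 20 * ((d : ℝ) + 1) * (2 * N) ≤ Ξ * Ξ := mul_le_mul h3 h2 (by positivity) hΞ0.le
    calc 20 * ((d : ℝ) + 1) * (2 * N) * Ξ ^ 2 * Ξ * (P.L * (Ξ ^ 2 * ρ))
        = 20 * ((d : ℝ) + 1) * (2 * N) * (P.L * (Ξ ^ 5 * ρ)) := by ring
      _ ≤ Ξ * Ξ * (Ξ * (Ξ ^ 5 * ρ)) :=
        mul_le_mul h4 (mul_le_mul_of_nonneg_right f2 (by positivity)) (by positivity)
          (by positivity)
      _ = Ξ ^ 8 * ρ := by ring
      _ ≤ 1 := by linarith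
  · have h1 : 80 * ((d : ℝ) + 1) * Ξ ≤ Ξ ^ 3 := by
      have h2 : 80 * ((d : ℝ) + 1) ≤ Ξ ^ 2 := by nlinarith
      calc _ ≤ Ξ ^ 2 * Ξ := mul_le_mul_of_nonneg_right h2 hΞ0.le
        _ = _ := by ring
    calc 80 * ((d : ℝ) + 1) * Ξ * (ρ / Ξ ^ 5) ≤ Ξ ^ 3 * (ρ / Ξ ^ 5) := by gcongr
      _ = ρ / Ξ ^ 2 := by field_simp
  · rw [div_lt_iff₀ (by positivity)]
    have h0 : (2 : ℝ) ≤ Ξ ^ 2 := by nlinarith
    have h1 : (2 : ℝ) < Ξ ^ 2 * Ξ ^ 2 := by nlinarith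
    have h2 : ρ * 2 < ρ * (Ξ ^ 2 * Ξ ^ 2) := mul_lt_mul_of_pos_left h1 hρ0
    linarith
  · rw [← hρ]
    have h1 : (d : ℝ) ≤ Ξ ^ 2 / 2 := by nlinarith
    nlinarith

/-- The bad events are unlikely. -/
theorem PW.bad_prob [IsProbabilityMeasure ν] (P : PW d ν S) (hS : MeasurePreserving S ν ν) :
    ∃ C : ℝ, ∀ {N m h : ℕ} {γ Γ Ξ : ℝ}, P.Par N m h γ Γ Ξ → C ≤ Ξ →
      ν.real {z | ¬ ((∀ t < 2 * N, S^[t] z ∈ P.Good (Ξ ^ 2 * (1 / 2) ^ h)) ∧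
        ∀ t < 2 * N, GG ((1 / 2 : ℝ) ^ h) ((1 / 2) ^ h / Ξ ^ 2) (P.Θ (S^[t] z)))} ≤ 1 / 50 := by
  obtain ⟨C₁, hC₁, hGG⟩ := P.prob_not_GG
  refine ⟨100 * C₁, fun {N m h γ Γ Ξ} hp hC => ?_⟩
  obtain ⟨f1, f2, -, -, -, -, -, f8⟩ := hp.facts
  obtain ⟨ρ, hρ⟩ : ∃ ρ : ℝ, ρ = (1 / 2 : ℝ) ^ h := ⟨_, rfl⟩
  have hρ0 : 0 < ρ := by rw [hρ]; positivity
  have hρ1 : ρ ≤ 1 := by rw [hρ]; exact pow_le_one₀ (by norm_num) (by norm_num)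
  rw [← hρ] at f8 ⊢
  have hΞ0 : 0 < Ξ := by linarith
  have hpre : ∀ (t : ℕ) (s : Set Ω), ν.real (S^[t] ⁻¹' s) ≤ ν.real s := fun t s => by
    refine ENNReal.toReal_mono (measure_ne_top _ _) ?_
    have := Measure.le_map_apply (μ := ν) (hS.iterate t).measurable.aemeasurable s
    rwa [(hS.iterate t).map_eq] at this
  have hsub : {z | ¬ ((∀ t < 2 * N, S^[t] z ∈ P.Good (Ξ ^ 2 * ρ)) ∧
      ∀ t < 2 * N, GG ρ (ρ / Ξ ^ 2) (P.Θ (S^[t] z)))} ⊆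
      ⋃ t ∈ Finset.range (2 * N), S^[t] ⁻¹' ((P.Good (Ξ ^ 2 * ρ))ᶜ ∪
        {z | ¬ GG ρ (ρ / Ξ ^ 2) (P.Θ z)}) := by
    intro z hz
    by_contra hc
    simp only [mem_iUnion, not_exists, Finset.mem_range, mem_preimage, mem_union, mem_compl_iff,
      mem_ofPred_eq, not_or, not_not] at hc
    exact hz ⟨fun t ht => (hc t ht).1, fun t ht => (hc t ht).2⟩
  have h1 : ν.real ((P.Good (Ξ ^ 2 * ρ))ᶜ ∪ {z | ¬ GG ρ (ρ / Ξ ^ 2) (P.Θ z)}) ≤ 1 / 50 / Ξ := by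
    refine (measureReal_union_le _ _).trans ?_
    have h2 := P.good_prob (Ξ ^ 2 * ρ) (by positivity)
    have h3 := hGG ρ (ρ / Ξ ^ 2) hρ0 hρ1 (by positivity)
    have h4 : √(Ξ ^ 2 * ρ) ≤ 1 / Ξ ^ 5 := by
      rw [Real.sqrt_le_iff]
      refine ⟨by positivity, ?_⟩
      rw [div_pow, one_pow, le_div_iff₀ (by positivity)]
      nlinarith
    have h5 : P.L * √(Ξ ^ 2 * ρ) ≤ 1 / 100 / Ξ := by
      calc P.L * √(Ξ ^ 2 * ρ) ≤ Ξ * (1 / Ξ ^ 5) := by gcongr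
        _ = 1 / Ξ ^ 3 / Ξ := by field_simp
        _ ≤ 1 / 100 / Ξ := by
          gcongr
          nlinarith [sq_nonneg Ξ]
    have h6 : C₁ * (ρ / Ξ ^ 2 / ρ) ≤ 1 / 100 / Ξ := by
      calc C₁ * (ρ / Ξ ^ 2 / ρ) = C₁ / Ξ / Ξ := by field_simp
        _ ≤ 1 / 100 / Ξ := by
          refine div_le_div_of_nonneg_right ?_ hΞ0.le
          rw [div_le_iff₀ hΞ0]; linarith
    have h7 : 1 / 50 / Ξ = 1 / 100 / Ξ + 1 / 100 / Ξ := by ring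
    linarith
  calc _ ≤ ν.real (⋃ t ∈ Finset.range (2 * N), S^[t] ⁻¹' ((P.Good (Ξ ^ 2 * ρ))ᶜ ∪
        {z | ¬ GG ρ (ρ / Ξ ^ 2) (P.Θ z)})) := measureReal_mono hsub (measure_ne_top _ _)
    _ ≤ ∑ t ∈ Finset.range (2 * N), ν.real (S^[t] ⁻¹' ((P.Good (Ξ ^ 2 * ρ))ᶜ ∪
        {z | ¬ GG ρ (ρ / Ξ ^ 2) (P.Θ z)})) := measureReal_biUnion_finset_le _ _
    _ ≤ ∑ _t ∈ Finset.range (2 * N), 1 / 50 / Ξ :=
        Finset.sum_le_sum fun t _ => (hpre t _).trans h1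
    _ = (2 * N) / Ξ * (1 / 50) := by
        rw [Finset.sum_const, Finset.card_range, nsmul_eq_mul]; push_cast; ring
    _ ≤ 1 * (1 / 50) := by
        gcongr
        exact (div_le_one hΞ0).2 hp.N_le
    _ = 1 / 50 := one_mul _

end Vale.Agent.P109
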