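import Mathlib
import Vale.Agent.P109.StepA

/-! Numerical lemmas for the final contradiction. -/

namespace Vale.Agent.P109

open MeasureTheory Set Metric Module
open scoped ENNReal

theorem main_sum (E p : ℕ → ℝ) (k err : ℝ) (J : ℕ) (herr : 0 ≤ err)
    (h : ∀ i < J, E (i + 1) ≤ 2 * E i - p i * (k * 2 ^ i) + err) (hJ : 0 ≤ E J) :
    k / 2 * ∑ i ∈ Finset.range J, p i ≤ E 0 + err := by
  have key : ∀ i ≤ J, E i ≤
      2 ^ i * (E 0 - k / 2 * ∑ j ∈ Finset.range i, p j + err) - err := by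
    intro i
    induction i with
    | zero => intro _; simp
    | succ i ih =>
      intro hi
      have h1 := ih (by omega)
      have h2 := h i (by omega)
      rw [Finset.sum_range_succ, pow_succ]
      nlinarith
  have h1 := key J le_rfl
  have h2 : (0 : ℝ) < 2 ^ J := by positivity
  have h3 : 0 ≤ 2 ^ J * (E 0 - k / 2 * ∑ j ∈ Finset.range J, p j + err) := by linarith
  have h4 := nonneg_of_mul_nonneg_right h3 h2 
  linarith

theorem main_le_exp {x y : ℝ} (h : x ≤ y) : x ≤ Real.exp y := by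
  have := Real.add_one_le_exp y
  linarith

theorem main_gamma {d l u : ℕ} {L : ℝ} (hL : 1 ≤ L) (hl : 100 * (d + 1) ≤ l)
    (hu : 8 * l ^ 4 ≤ u) :
    2 * (((2 * l ^ 7 : ℕ) : ℝ) + 1) *
      Real.exp (3 * ((u : ℝ) + 2) + (2 * d + 1) * (1 / (l : ℝ) ^ 3 * u)) * L ^ (3 * u) ≤
      Real.exp ((6 + 3 * Real.log L) * u) := by
  have hl1 : (100 : ℝ) * (d + 1) ≤ l := by exact_mod_cast hl
  have hd : (0 : ℝ) ≤ d := Nat.cast_nonneg d
  have hl2 : (100 : ℝ) ≤ l := by linarith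
  have hu1 : (8 : ℝ) * l ^ 4 ≤ u := by exact_mod_cast hu
  have hl3 : (l : ℝ) ≤ l ^ 3 := le_self_pow₀ (by linarith) (by norm_num)
  have hl4 : (l : ℝ) * 2 ≤ l ^ 4 := by nlinarith
  have h1 : 2 * (((2 * l ^ 7 : ℕ) : ℝ) + 1) ≤ Real.exp u := by
    have h7 : (l : ℝ) ^ 7 ≤ Real.exp (7 * l) := by
      have : (l : ℝ) ^ 7 ≤ Real.exp l ^ 7 := pow_le_pow_left₀ (by linarith) (main_le_exp le_rfl) 7
      rwa [← Real.exp_nat_mul, Nat.cast_ofNat] at this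
    have h8 : (1 : ℝ) ≤ (l : ℝ) ^ 7 := one_le_pow₀ (by linarith)
    have h9 : (6 : ℝ) ≤ Real.exp l := main_le_exp (by linarith)
    have h10 : Real.exp (l + 7 * l) ≤ Real.exp u := Real.exp_le_exp.2 (by linarith)
    rw [Real.exp_add] at h10
    push_cast
    have h11 : (0 : ℝ) < Real.exp (7 * l) := Real.exp_pos _
    nlinarith
  have h2 : 3 * ((u : ℝ) + 2) + (2 * d + 1) * (1 / (l : ℝ) ^ 3 * u) ≤ 5 * u := by
    have h3 : (2 * d + 1) * (1 / (l : ℝ) ^ 3) ≤ 1 := by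
      rw [mul_one_div, div_le_one (by positivity)]
      linarith
    have h4 : (2 * d + 1) * (1 / (l : ℝ) ^ 3 * u) ≤ u := by
      rw [← mul_assoc]
      exact mul_le_of_le_one_left (Nat.cast_nonneg u) h3
    nlinarith
  have h3 : L ^ (3 * u) = Real.exp (3 * Real.log L * u) := by
    rw [show 3 * Real.log L * u = ((3 * u : ℕ) : ℝ) * Real.log L by push_cast; ring,
      Real.exp_nat_mul, Real.exp_log (by linarith)]
  calc _ ≤ Real.exp u * Real.exp (5 * u) * Real.exp (3 * Real.log L * u) := by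
        rw [h3]
        gcongr
    _ = _ := by rw [← Real.exp_add, ← Real.exp_add]; congr 1; ring

theorem main_par {d : ℕ} {Ω : Type*} [MeasurableSpace Ω] {ν : Measure Ω} {S : Ω → Ω}
    (P : PW d ν S) {l u : ℕ} (hl : 100 * (d + 1) ≤ l) (hu : 8 * l ^ 4 ≤ u)
    (hl' : 24 * (6 + 3 * Real.log P.L + 2 * d) ≤ l) :
    P.Par (l ^ 7 * u) (l ^ 4 * u) (l ^ 5 * u) (1 / (l : ℝ) ^ 3)
      (2 * (((2 * l ^ 7 : ℕ) : ℝ) + 1) *
        Real.exp (3 * ((u : ℝ) + 2) + (2 * d + 1) * (1 / (l : ℝ) ^ 3 * u)) * P.L ^ (3 * u))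
      (Real.exp ((6 + 3 * Real.log P.L + 2 * d) * ((l ^ 4 * u : ℕ) : ℝ))) ∧
    (l : ℝ) ≤ Real.exp ((6 + 3 * Real.log P.L + 2 * d) * ((l ^ 4 * u : ℕ) : ℝ)) := by
  have hG := main_gamma P.one_le hl hu
  set Γ := 2 * (((2 * l ^ 7 : ℕ) : ℝ) + 1) *
        Real.exp (3 * ((u : ℝ) + 2) + (2 * d + 1) * (1 / (l : ℝ) ^ 3 * u)) * P.L ^ (3 * u) with hΓ
  have hΛ : 0 ≤ Real.log P.L := Real.log_nonneg P.one_le
  set Λ := Real.log P.L with hΛd
  have hl1 : (100 : ℝ) * (d + 1) ≤ l := by exact_mod_cast hl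
  have hd : (0 : ℝ) ≤ d := Nat.cast_nonneg d
  have hl2 : (100 : ℝ) ≤ l := by linarith
  have hu1 : (8 : ℝ) * l ^ 4 ≤ u := by exact_mod_cast hu
  have hl4 : (l : ℝ) ≤ l ^ 4 := le_self_pow₀ (by linarith) (by norm_num)
  have hl5 : (l : ℝ) ^ 3 ≤ l ^ 4 := pow_le_pow_right₀ (by linarith) (by norm_num)
  have hlpos : 0 < l := by omega
  have hupos : 0 < u := lt_of_lt_of_le (by positivity) hu
  obtain ⟨m, hm⟩ : ∃ m : ℝ, m = ((l ^ 4 * u : ℕ) : ℝ) := ⟨_, rfl⟩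
  have hm' : m = (l : ℝ) ^ 4 * u := by rw [hm]; push_cast; ring
  have hum : (u : ℝ) ≤ m := by rw [hm']; nlinarith
  have hlm : (l : ℝ) ≤ m := by linarith
  have hm1 : 1 ≤ m := by linarith
  rw [← hm]
  have hexp : ∀ x : ℝ, x ≤ 6 + 3 * Λ + 2 * d →
      Real.exp (x * m) ≤ Real.exp ((6 + 3 * Λ + 2 * d) * m) := fun x hx =>
    Real.exp_le_exp.2 (mul_le_mul_of_nonneg_right hx (by linarith))
  have hlΞ : (l : ℝ) ≤ Real.exp ((6 + 3 * Λ + 2 * d) * m) :=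
    (main_le_exp (by linarith)).trans (hexp 1 (by linarith))
  refine ⟨⟨by positivity, ?_, by positivity, ?_, hl1.trans hlΞ, ?_, ?_, ?_, ?_, ?_⟩, hlΞ⟩
  · exact Nat.mul_le_mul_right _ (Nat.pow_le_pow_right hlpos (by norm_num))
  · rw [hΓ]
    have h1 : (1 : ℝ) ≤ 2 * (((2 * l ^ 7 : ℕ) : ℝ) + 1) := by
      have : (0 : ℝ) ≤ ((2 * l ^ 7 : ℕ) : ℝ) := Nat.cast_nonneg _
      linarith
    have h2 : (1 : ℝ) ≤ Real.exp (3 * ((u : ℝ) + 2) + (2 * d + 1) * (1 / (l : ℝ) ^ 3 * u)) :=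
      Real.one_le_exp (by positivity)
    exact one_le_mul_of_one_le_of_one_le (one_le_mul_of_one_le_of_one_le h1 h2)
      (one_le_pow₀ P.one_le)
  · refine le_trans ?_ (hexp 2 (by linarith))
    have h1 : m ≤ Real.exp m := main_le_exp le_rfl
    have h2 : Real.exp (2 * m) = Real.exp m * Real.exp m := by rw [← Real.exp_add]; congr 1; ring
    have h3 : (2 : ℝ) * ((l ^ 7 * u : ℕ) : ℝ) = (2 * l ^ 3) * m := by rw [hm']; push_cast; ring
    rw [h2, h3]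
    exact mul_le_mul (by linarith) h1 (by linarith) (by positivity)
  · refine le_trans ?_ (hexp (2 * (1 + Λ)) (by linarith))
    have h1 : 2 * P.L ≤ Real.exp (1 + Λ) := by
      rw [Real.exp_add, hΛd, Real.exp_log (by linarith [P.one_le])]
      have := Real.add_one_le_exp 1
      exact mul_le_mul_of_nonneg_right (by linarith) (by linarith [P.one_le])
    calc (2 * P.L) ^ (l ^ 4 * u + 1) ≤ Real.exp (1 + Λ) ^ (l ^ 4 * u + 1) :=
          pow_le_pow_left₀ (by linarith [P.one_le]) h1 _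
      _ = Real.exp ((m + 1) * (1 + Λ)) := by
          rw [← Real.exp_nat_mul, hm]; congr 2; push_cast; ring
      _ ≤ _ := Real.exp_le_exp.2 (by nlinarith)
  · have h3 : (d : ℝ) * (1 / (l : ℝ) ^ 3) * (2 * ((l ^ 7 * u : ℕ) : ℝ)) = 2 * d * m := by
      rw [hm']; push_cast; field_simp
    rw [h3]
    calc Γ * Real.exp (2 * d * m) ≤ Real.exp ((6 + 3 * Λ) * m) * Real.exp (2 * d * m) := by
          gcongr
          exact hG.trans (Real.exp_le_exp.2 (mul_le_mul_of_nonneg_left hum (by linarith)))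
      _ = _ := by rw [← Real.exp_add]; congr 1; ring
  · have h1 : (2 : ℝ) ^ (l ^ 5 * u) = Real.exp (l * m * Real.log 2) := by
      rw [show (l : ℝ) * m * Real.log 2 = ((l ^ 5 * u : ℕ) : ℝ) * Real.log 2 by
        rw [hm']; push_cast; ring, Real.exp_nat_mul, Real.exp_log (by norm_num)]
    rw [h1, ← Real.exp_nat_mul]
    refine Real.exp_le_exp.2 ?_
    have h2 := Real.log_two_gt_d9
    have h3 : 12 * (6 + 3 * Λ + 2 * d) ≤ l * Real.log 2 := by nlinarith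
    push_cast
    nlinarith
  · have h3 : 1 / (l : ℝ) ^ 3 * m / 2 = l * u / 2 := by
      rw [hm']; field_simp
    rw [← hm, h3]
    have h4 : Real.exp (-3) ≤ 1 / 8 := by
      rw [Real.exp_neg, one_div]
      refine inv_anti₀ (by norm_num) ?_
      have h5 : (2 : ℝ) ≤ Real.exp 1 := by linarith [Real.add_one_le_exp 1]
      calc (8 : ℝ) = 2 ^ 3 := by norm_num
        _ ≤ Real.exp 1 ^ 3 := pow_le_pow_left₀ (by norm_num) h5 3
        _ = Real.exp 3 := by rw [← Real.exp_nat_mul]; norm_num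
    calc Γ * Real.exp (-(l * u / 2)) ≤ Real.exp ((6 + 3 * Λ) * u) * Real.exp (-(l * u / 2)) := by
          gcongr
      _ = Real.exp ((6 + 3 * Λ) * u - l * u / 2) := by rw [← Real.exp_add]; congr 1
      _ ≤ Real.exp (-3) := Real.exp_le_exp.2 (by nlinarith)
      _ ≤ _ := h4

theorem main_small {d e i : ℕ} (hl : 100 * (d + 1) ≤ 2 ^ e) {w f : ℝ} (hf0 : 0 ≤ f)
    (hw : w ≤ (2 : ℝ) ^ e * (4 ^ ((2 ^ e) ^ 5 * (8 * (2 ^ e) ^ 4 * 2 ^ i))) ^ d)
    (hf : f ≤ ((2 * (2 ^ e * nlev ((2 ^ e) ^ 9) (2 ^ e) ((2 ^ e) ^ 9)) : ℕ) : ℝ)) :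
    (1 / √(2 ^ (2 ^ e * 2 ^ i * (2 ^ e) ^ 9))) / (1 / 2 ^ (2 ^ e * 2 ^ i)) * (w * f) ≤ 1 := by
  obtain ⟨l, hle⟩ : ∃ l : ℕ, l = 2 ^ e := ⟨_, rfl⟩
  obtain ⟨v, hv⟩ : ∃ v : ℕ, v = 2 ^ i := ⟨_, rfl⟩
  have hel : e ≤ l := hle ▸ (Nat.lt_two_pow_self).le
  have hv1 : 1 ≤ v := hv ▸ Nat.one_le_two_pow
  have hf' : f ≤ 2 ^ (4 + 11 * e + l ^ 9) := by
    refine hf.trans (le_of_eq ?_)
    rw [hle, nlev]
    push_cast
    rw [pow_add, pow_add, mul_comm 11 e, pow_mul]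
    ring
  have hw' : w ≤ 2 ^ (e + 2 * (l ^ 5 * (8 * l ^ 4 * v)) * d) := by
    refine hw.trans (le_of_eq ?_)
    rw [← hle, ← hv, pow_add, pow_mul (2 : ℝ) _ d, pow_mul (2 : ℝ) 2]
    norm_num
  rw [← hle, ← hv] 
  rw [← hle] at hl
  set X := l * v + (e + 2 * (l ^ 5 * (8 * l ^ 4 * v)) * d) + (4 + 11 * e + l ^ 9) with hX
  have hX2 : X * 2 ≤ l * v * l ^ 9 := by
    have h1 : 16 * l ≤ l ^ 9 := by
      calc 16 * l ≤ l * l := Nat.mul_le_mul_right _ (by omega)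
        _ = l ^ 2 := by ring
        _ ≤ l ^ 9 := Nat.pow_le_pow_right (by omega) (by norm_num)
    have h2 : l * v ≤ l ^ 9 * v := Nat.mul_le_mul_right _ (by omega)
    have h3 : l ^ 9 ≤ l ^ 9 * v := Nat.le_mul_of_pos_right _ hv1
    have h4 : X ≤ (16 * d + 3) * (l ^ 9 * v) := by
      have : 2 * (l ^ 5 * (8 * l ^ 4 * v)) * d = 16 * d * (l ^ 9 * v) := by ring
      rw [hX, this, add_mul]
      omega
    calc X * 2 ≤ (16 * d + 3) * (l ^ 9 * v) * 2 := Nat.mul_le_mul_right _ h4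
      _ = (32 * d + 6) * (l ^ 9 * v) := by ring
      _ ≤ l * (l ^ 9 * v) := Nat.mul_le_mul_right _ (by omega)
      _ = _ := by ring
  have hs : (2 : ℝ) ^ X ≤ √(2 ^ (l * v * l ^ 9)) := by
    refine Real.le_sqrt_of_sq_le ?_
    rw [← pow_mul]
    exact pow_le_pow_right₀ (by norm_num) hX2
  have hpos : (0 : ℝ) < 2 ^ X := by positivity
  have hs0 : (0 : ℝ) < √(2 ^ (l * v * l ^ 9)) := hpos.trans_le hs
  rw [div_div_eq_mul_div, div_one, div_mul_eq_mul_div, div_mul_eq_mul_div, div_le_one hs0]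
  refine le_trans ?_ hs
  rw [hX, pow_add, pow_add, one_mul, mul_assoc]
  gcongr

end Vale.Agent.P109
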