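import Mathlib
import Vale.Agent.P109.StepA

/-! Approximate conditional independence of past and future itineraries. -/

namespace Vale.Agent.P109

open MeasureTheory Set Metric Module
open scoped ENNReal

theorem step_sum_le {Ω ι : Type*} [MeasurableSpace Ω] (ν : Measure Ω) [IsProbabilityMeasure ν]
    (s : Finset ι) (E : ι → Set Ω) (hE : ∀ p, MeasurableSet (E p)) {M : ℝ}
    (h : ∀ x (t : Finset ι), (∀ p ∈ t, x ∈ E p) → (t.card : ℝ) ≤ M) :
    ∑ p ∈ s, ν.real (E p) ≤ M := by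
  classical
  have hi : ∀ p ∈ s, Integrable ((E p).indicator fun _ => (1 : ℝ)) ν := fun p _ =>
    (integrable_const 1).indicator (hE p)
  calc ∑ p ∈ s, ν.real (E p) = ∑ p ∈ s, ∫ x, (E p).indicator (fun _ => (1 : ℝ)) x ∂ν := by
        refine Finset.sum_congr rfl fun p _ => ?_
        rw [integral_indicator_const _ (hE p)]; simp
    _ = ∫ x, ∑ p ∈ s, (E p).indicator (fun _ => (1 : ℝ)) x ∂ν := (integral_finsetSum s hi).symm
    _ ≤ ∫ _x, M ∂ν := by
        refine integral_mono (integrable_finsetSum s hi) (integrable_const M) fun x => ?_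
        have := h x (s.filter fun p => x ∈ E p) fun p hp => (Finset.mem_filter.1 hp).2
        simpa [indicator_apply, Finset.sum_boole] using this
    _ = M := by simp

theorem step_ncard_le {Ω α β : Type*} {X : Ω → α} {Y : Ω → β} (hX : (range X).Finite)
    (h : Refines X Y) : (range Y).ncard ≤ (range X).ncard := by
  classical
  rcases isEmpty_or_nonempty Ω with hΩ | hΩ
  · simp [range_eq_empty]
  have : range Y ⊆ (fun a => Y (Function.invFun X a)) '' range X := by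
    rintro _ ⟨z, rfl⟩
    exact ⟨X z, mem_range_self z, h _ _ (Function.invFun_eq ⟨z, rfl⟩)⟩
  exact (ncard_le_ncard this (hX.image _)).trans (ncard_image_le hX)

theorem step_card {d : ℕ} {κ : Type*} {r : ℝ} (hr : 0 < r) (a : κ) (τ : Fin d → ℤ)
    (y : ℕ → Eu d) (t : Finset (κ × ℕ × (Fin d → ℤ) × (Fin d → ℤ)))
    (ht : ∀ p ∈ t, p.2.1 ≤ d + 1 ∧ a = p.1 ∧ τ = p.2.2.1 ∧
      ‖y p.2.1 - ctr r p.2.2.2‖ ≤ 48 * (d + 1) * r) :
    t.card ≤ (d + 2) * (2 * (48 * (d + 1)) + 1) ^ d := by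
  classical
  rw [Finset.card_eq_sum_card_fiberwise (f := fun p => p.2.1) (t := Finset.range (d + 2))
    (fun p hp => by
      have := (ht p hp).1
      simp only [Finset.coe_range, mem_Iio]
      omega)]
  refine (Finset.sum_le_card_nsmul _ _ ((2 * (48 * (d + 1)) + 1) ^ d) fun g _ => ?_).trans
    (by simp)
  rw [← Finset.card_image_of_injOn (f := fun p => p.2.2.2)]
  · refine overlap hr _ (y g) _ fun b hb => ?_
    obtain ⟨p, hp, rfl⟩ := Finset.mem_image.1 hb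
    obtain ⟨hp1, hp2⟩ := Finset.mem_filter.1 hp
    have := (ht p hp1).2.2.2
    rw [hp2] at this
    exact_mod_cast this
  · rintro ⟨p1, p2, p3, p4⟩ hp ⟨q1, q2, q3, q4⟩ hq h
    obtain ⟨hp1, hp2⟩ := Finset.mem_filter.1 (Finset.mem_coe.1 hp)
    obtain ⟨hq1, hq2⟩ := Finset.mem_filter.1 (Finset.mem_coe.1 hq)
    obtain ⟨-, h1, h2, -⟩ := ht _ hp1
    obtain ⟨-, h3, h4, -⟩ := ht _ hq1
    simp only at h hp2 hq2 h1 h2 h3 h4
    rw [← h1, ← h2, ← h3, ← h4, h, hp2, hq2]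

open Classical in
/-- Type of an atom: zero if bad, one plus the gap index otherwise. -/
noncomputable def stepG (d : ℕ) (b : Prop) (N : ℕ → Prop) : ℕ :=
  if h : b ∧ ∃ j, j ≤ d ∧ N j then Nat.find h.2 + 1 else 0

theorem stepG_le (d : ℕ) (b : Prop) (N : ℕ → Prop) : stepG d b N ≤ d + 1 := by
  classical
  unfold stepG
  split_ifs with h
  · exact Nat.succ_le_succ (Nat.find_spec h.2).1
  · omega

theorem stepG_spec {d : ℕ} {b : Prop} {N : ℕ → Prop} (h : stepG d b N ≠ 0) :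
    b ∧ stepG d b N - 1 ≤ d ∧ N (stepG d b N - 1) := by
  classical
  unfold stepG at h ⊢
  split_ifs at h ⊢ with h'
  · exact ⟨h'.1, Nat.find_spec h'.2⟩
  · exact absurd rfl h

theorem stepG_ne {d : ℕ} {b : Prop} {N : ℕ → Prop} (hb : b) (h : ∃ j, j ≤ d ∧ N j) :
    stepG d b N ≠ 0 := by
  unfold stepG
  rw [dif_pos ⟨hb, h⟩]
  omega

theorem PW.smooth_step {d : ℕ} {Ω : Type*} [MeasurableSpace Ω] {ν : Measure Ω}
    [IsProbabilityMeasure ν] {S : Ω → Ω} (P : PW d ν S) (hS : MeasurePreserving S ν ν) :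
    ∃ K Qt C : ℝ, 1 ≤ K ∧ 1 ≤ Qt ∧ 1 ≤ C ∧ ∀ {N m h : ℕ} {γ Γ Ξ : ℝ}, P.Par N m h γ Γ Ξ → C ≤ Ξ →
      ∃ (G : Ω → ℕ) (W : Ω → ℕ × (Fin d → ℤ) × (Fin d → ℤ)) (S₀ : Set Ω),
        Indep ν (P.itin h N) (fun z => P.itin h N (S^[N] z)) (P.itin (2 * h) (2 * N)) G W S₀ K Qt ∧
        ((range G).ncard : ℝ) ≤ C ∧ ((range W).ncard : ℝ) ≤ C * (4 ^ h) ^ d ∧
        ∀ F : Set Ω, (∀ z ∈ F, ∃ j ≤ d, Splits (coc P.A S z) (2 * N) j γ Γ) →
          ν.real F ≤ ν.real S₀ + 1 / 50 := by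
  obtain ⟨C₁, hbad⟩ := P.bad_prob hS
  have hL := P.one_le
  have hd0 : (0 : ℝ) ≤ d := Nat.cast_nonneg d
  have hpw : (1 : ℝ) ≤ (2 * P.L + 3) ^ d := one_le_pow₀ (by linarith)
  have hC2 : (d : ℝ) + 2 ≤ (d + 2) * (2 * P.L + 3) ^ d := le_mul_of_one_le_right (by linarith) hpw
  refine ⟨27 * 12 ^ d * P.L ^ 3 * P.L, (((d + 2) * (2 * (48 * (d + 1)) + 1) ^ d : ℕ) : ℝ),
    max C₁ ((d + 2) * (2 * P.L + 3) ^ d), ?_, ?_, le_max_of_le_right (by linarith), ?_⟩
  · have h1 : (1 : ℝ) ≤ 12 ^ d := one_le_pow₀ (by norm_num)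
    have h2 : (1 : ℝ) ≤ P.L ^ 3 := one_le_pow₀ hL
    exact one_le_mul_of_one_le_of_one_le (one_le_mul_of_one_le_of_one_le (by linarith) h2) hL
  · exact_mod_cast Nat.one_le_iff_ne_zero.2 (by positivity)
  intro N m h γ Γ Ξ hp hC
  obtain ⟨Λ, hΛ, hnice⟩ := P.nice_bound hp
  have hbad' := hbad hp ((le_max_left _ _).trans hC)
  obtain ⟨f1, -, -, -, -, -, -, f8⟩ := hp.facts
  have hN := hp.N_pos
  have hΞ0 : 0 < Ξ := by linarith
  have hρ0 : 0 < (1 / 2 : ℝ) ^ h := by positivity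
  have hρ2 : (1 / 2 : ℝ) ^ (2 * h) = (1 / 2) ^ h * (1 / 2) ^ h := by rw [two_mul, pow_add]
  set r : ℝ := (1 / 2) ^ h / Ξ ^ 5 with hr
  have hr0 : 0 < r := by positivity
  have hSm := hS.measurable
  set GA : Set Ω := {z | ∀ t < 2 * N,
    GG ((1 / 2 : ℝ) ^ h) ((1 / 2) ^ h / Ξ ^ 2) (P.Θ (S^[t] z))} with hGA
  have hGAm : MeasurableSet GA := by
    have : GA = ⋂ t, ⋂ (_ : t < 2 * N), (fun z => P.Θ (S^[t] z)) ⁻¹'
        {y | GG ((1 / 2 : ℝ) ^ h) ((1 / 2) ^ h / Ξ ^ 2) y} := by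
      ext z; simp [hGA]
    rw [this]
    exact MeasurableSet.iInter fun t => MeasurableSet.iInter fun _ =>
      (P.emb.measurable.comp (hSm.iterate t)) (measurableSet_GG _ _)
  set G : Ω → ℕ := fun z => stepG d (z ∈ GA)
    (fun j => P.Nice h N (Ξ ^ 2 * (1 / 2) ^ h) γ Γ j (P.itin h (2 * N) z)) with hG
  have hGf : FinRV G := ((FinRV.of_set hGAm).prod (P.finRV_itin hSm h (2 * N))).comp
    fun p => stepG d p.1 (fun j => P.Nice h N (Ξ ^ 2 * (1 / 2) ^ h) γ Γ j p.2)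
  set τ : Ω → Fin d → ℤ := fun z => box ((1 / 2 : ℝ) ^ h) (P.Θ (S^[N] z)) with hτ
  set ζ : Ω → Fin d → ℤ := fun z => box ((1 / 2 : ℝ) ^ (2 * h)) (P.Θ (S^[N] z)) with hζ
  have hζf : FinRV ζ := (P.finRV_box (by positivity)).precomp (hSm.iterate N)
  set W : Ω → ℕ × (Fin d → ℤ) × (Fin d → ℤ) := fun z =>
    (G z, τ z, box r (Λ (τ z) (G z - 1) (ctr ((1 / 2 : ℝ) ^ (2 * h)) (ζ z)))) with hW
  have hrefW : Refines (fun z => (G z, ζ z)) W := by
    intro z z' hz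
    obtain ⟨h1, h2⟩ := Prod.mk.inj hz
    have h3 : τ z = τ z' := box_refines (by omega) h2
    simp only [hW]
    rw [h1, h2, h3]
  have hDp : ∀ z z', P.itin (2 * h) (2 * N) z = P.itin (2 * h) (2 * N) z' → ∀ t < 2 * N,
      box ((1 / 2 : ℝ) ^ h) (P.Θ (S^[t] z)) = box ((1 / 2 : ℝ) ^ h) (P.Θ (S^[t] z')) :=
    fun z z' hz t ht => box_refines (by omega) ((P.itin_eq_iff _ _ _ _).1 hz t ht)
  set Cs : ℕ × (Fin d → ℤ) × (Fin d → ℤ) → Set (Eu d) := fun w =>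
    {y | ‖Λ w.2.1 (w.1 - 1) y - ctr r w.2.2‖ ≤ 48 * (d + 1) * r} with hCs
  have hCm : ∀ w, MeasurableSet (Cs w) := fun w =>
    (isClosed_le (by fun_prop) continuous_const).measurableSet
  have hCv : ∀ w, 0 < volume (Cs w) ∧ volume (Cs w) < ⊤ := fun w =>
    vol_ellipsoid_pos _ _ (by positivity)
  have hCr : ∀ w, 0 < volume.real (Cs w) := fun w =>
    ENNReal.toReal_pos (hCv w).1.ne' (hCv w).2.ne
  have hrG : range G ⊆ ↑(Finset.range (d + 2)) := by
    rintro _ ⟨z, rfl⟩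
    simp only [Finset.coe_range, mem_Iio]
    exact Nat.lt_succ_of_le (stepG_le _ _ _)
  have hcG : ((range G).ncard : ℝ) ≤ d + 2 := by
    have := ncard_le_ncard hrG (Finset.finite_toSet _)
    rw [ncard_coe_finset, Finset.card_range] at this
    exact_mod_cast this
  refine ⟨G, W, {z | G z ≠ 0}, ⟨hGf, (hGf.prod hζf).of_refines hrefW, ?_, ?_, ?_, ?_, ?_, ?_⟩,
    hcG.trans (hC2.trans (le_max_right _ _)), ?_, ?_⟩
  · exact fun z z' hz => (P.itin_eq_iff _ _ _ _).2 fun t ht => hDp z z' hz t (by omega)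
  · refine fun z z' hz => (P.itin_eq_iff _ _ _ _).2 fun t ht => ?_
    rw [← Function.iterate_add_apply, ← Function.iterate_add_apply]
    exact hDp z z' hz _ (by omega)
  · intro z z' hz
    obtain ⟨h1, h2⟩ := Prod.mk.inj hz
    exact hrefW z z' (Prod.ext h2 ((P.itin_eq_iff _ _ _ _).1 h1 N (by omega)))
  · exact fun z z' hz => (Prod.mk.inj hz).1
  · intro z z' hz h1
    simp only [mem_ofPred_eq] at h1 ⊢
    rwa [← hz]
  · refine ⟨fun a w => ν.real {x | w.1 ≤ d + 1 ∧ P.itin h N x = a ∧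
        box ((1 / 2 : ℝ) ^ h) (P.Θ x) = w.2.1 ∧ P.Θ x ∈ Cs w},
      fun b w => ν.real ((fun x => P.Θ (S^[N] x)) ⁻¹' Cs w ∩ P.itin h N ⁻¹' {b}) /
        (P.L * volume.real (Cs w)), fun _ _ => measureReal_nonneg,
      fun _ w => div_nonneg measureReal_nonneg (mul_nonneg (by linarith) (hCr w).le), ?_, ?_, ?_⟩
    · intro s
      refine step_sum_le ν s (fun p => {x | p.2.1 ≤ d + 1 ∧ P.itin h N x = p.1 ∧
        box ((1 / 2 : ℝ) ^ h) (P.Θ x) = p.2.2.1 ∧ P.Θ x ∈ Cs p.2}) (fun p => ?_) fun x t ht => ?_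
      · exact (MeasurableSet.const _).inter (((P.finRV_itin hSm h N).2 p.1).inter
          (((P.finRV_box hρ0).2 p.2.2.1).inter (P.emb.measurable (hCm p.2))))
      · refine Nat.cast_le.2 (step_card hr0 (P.itin h N x) (box ((1 / 2 : ℝ) ^ h) (P.Θ x))
          (fun g => Λ (box ((1 / 2 : ℝ) ^ h) (P.Θ x)) (g - 1) (P.Θ x)) t fun p hp' => ?_)
        obtain ⟨h1, h2, h3, h4⟩ := ht p hp'
        exact ⟨h1, h2, h3, by rw [h3]; exact h4⟩
    · intro w s
      rw [← Finset.sum_div, div_le_one (mul_pos (by linarith) (hCr w))]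
      refine ((P.finRV_itin hSm h N).sum_measure_le _ s).trans ?_
      have h1 : ν ((fun x => P.Θ (S^[N] x)) ⁻¹' Cs w) = ν (P.Θ ⁻¹' Cs w) :=
        (hS.iterate N).measure_preimage (P.emb.measurable (hCm w)).nullMeasurableSet
      have h2 := ENNReal.toReal_mono (ENNReal.mul_ne_top ENNReal.ofReal_ne_top (hCv w).2.ne)
        (P.le_vol (Cs w))
      rw [ENNReal.toReal_mul, ENNReal.toReal_ofReal (by linarith)] at h2
      rw [measureReal_def, h1]
      exact h2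
    · intro z hz
      obtain ⟨-, hj, hn⟩ := stepG_spec hz
      have key := hnice (G z - 1) (P.itin h (2 * N) z) (τ z) (ctr r (W z).2.2)
        {y | P.itin h N y = P.itin h N z ∧ P.itin h N (S^[N] y) = P.itin h N (S^[N] z) ∧
          W y = W z} z hj hn ⟨rfl, rfl, rfl⟩ ?_ rfl ?_ ?_
      · have e1 : {w | P.itin h N w = P.itin h N (S^[N] z) ∧
            ‖Λ (τ z) (G z - 1) (P.Θ w) - ctr r (W z).2.2‖ ≤ 48 * (d + 1) * r} ⊆
            {x | (W z).1 ≤ d + 1 ∧ P.itin h N x = P.itin h N (S^[N] z) ∧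
              box ((1 / 2 : ℝ) ^ h) (P.Θ x) = (W z).2.1 ∧ P.Θ x ∈ Cs (W z)} := by
          rintro x ⟨h1, h2⟩
          exact ⟨stepG_le _ _ _, h1, (P.itin_eq_iff _ _ _ _).1 h1 0 hN, h2⟩
        have e2 : {w | P.itin h N w = P.itin h N z ∧
            ‖Λ (τ z) (G z - 1) (P.Θ (S^[N] w)) - ctr r (W z).2.2‖ ≤ 48 * (d + 1) * r} ⊆
            (fun x => P.Θ (S^[N] x)) ⁻¹' Cs (W z) ∩ P.itin h N ⁻¹' {P.itin h N z} := by
          rintro x ⟨h1, h2⟩
          exact ⟨h2, h1⟩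
        have k2 := key.trans (mul_le_mul' (mul_le_mul' le_rfl (measure_mono e1)) (measure_mono e2))
        have k3 := ENNReal.toReal_mono (ENNReal.mul_ne_top (ENNReal.mul_ne_top
          ENNReal.ofReal_ne_top (measure_ne_top _ _)) (measure_ne_top _ _)) k2
        rw [ENNReal.toReal_mul, ENNReal.toReal_mul, ENNReal.toReal_mul,
          ENNReal.toReal_ofReal (by positivity)] at k3
        have hv := hCr (W z)
        rw [← mul_div_assoc, le_div_iff₀ (mul_pos (by linarith) hv)]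
        have k4 := mul_le_mul_of_nonneg_left k3 (show 0 ≤ P.L by linarith)
        simp only [measureReal_def] at hv ⊢
        calc _ = P.L * (_ * (volume (Cs (W z))).toReal) := by ring
          _ ≤ _ := k4
          _ = _ := by ring
      · rintro y ⟨h1, h2, -⟩
        refine (P.itin_eq_iff _ _ _ _).2 fun t ht => ?_
        by_cases htN : t < N
        · exact (P.itin_eq_iff _ _ _ _).1 h1 t htN
        · have := (P.itin_eq_iff _ _ _ _).1 h2 (t - N) (by omega)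
          rwa [← Function.iterate_add_apply, ← Function.iterate_add_apply,
            Nat.sub_add_cancel (by omega)] at this
      · rintro y ⟨-, -, h3⟩
        have h4 : G y = G z := (Prod.mk.inj h3).1
        have h5 : G y ≠ 0 := by rw [h4]; exact hz
        exact (stepG_spec h5).1
      · rintro y ⟨-, -, h3⟩
        have h4 : G y = G z := (Prod.mk.inj h3).1
        have h5 : τ y = τ z := (Prod.mk.inj (Prod.mk.inj h3).2).1
        rw [← h3, ← h4, ← h5]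
        have h6 := norm_sub_ctr_box hr0 (Λ (τ y) (G y - 1) (ctr ((1 / 2 : ℝ) ^ (2 * h)) (ζ y)))
        have h7 := norm_sub_ctr_box (r := (1 / 2 : ℝ) ^ (2 * h)) (by positivity)
          (P.Θ (S^[N] y))
        have h8 := hΛ (τ y) (G y - 1) (P.Θ (S^[N] y) - ctr ((1 / 2 : ℝ) ^ (2 * h)) (ζ y))
        rw [map_sub] at h8
        have h9 := norm_sub_le_norm_sub_add_norm_sub (Λ (τ y) (G y - 1) (P.Θ (S^[N] y)))
          (Λ (τ y) (G y - 1) (ctr ((1 / 2 : ℝ) ^ (2 * h)) (ζ y))) (ctr r (W y).2.2)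
        have h10 : Ξ * (1 / 2 : ℝ) ^ (2 * h) ≤ r := by
          rw [hr, le_div_iff₀ (by positivity), hρ2]
          have := stepA_pow f1 hρ0.le f8 (k := 6) (by norm_num)
          nlinarith
        have h11 : Ξ * ‖P.Θ (S^[N] y) - ctr ((1 / 2 : ℝ) ^ (2 * h)) (ζ y)‖ ≤ d * r :=
          calc _ ≤ Ξ * (d * (1 / 2 : ℝ) ^ (2 * h)) := mul_le_mul_of_nonneg_left h7 hΞ0.le
            _ = d * (Ξ * (1 / 2 : ℝ) ^ (2 * h)) := by ring
            _ ≤ d * r := mul_le_mul_of_nonneg_left h10 hd0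
        have h12 : ‖Λ (τ y) (G y - 1) (ctr ((1 / 2 : ℝ) ^ (2 * h)) (ζ y)) - ctr r (W y).2.2‖ ≤
          d * r := h6
        nlinarith
  · have h1 := step_ncard_le (hGf.prod hζf).1 hrefW
    have h2 : range (fun z => (G z, ζ z)) ⊆
        range G ×ˢ range (fun z => box ((1 / 2 : ℝ) ^ (2 * h)) (P.Θ z)) := by
      rintro _ ⟨z, rfl⟩
      exact ⟨mem_range_self z, ⟨S^[N] z, rfl⟩⟩
    have h3 := ncard_le_ncard h2 (hGf.1.prod (P.finRV_box (by positivity)).1)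
    rw [ncard_prod] at h3
    have h4 := P.ncard_box (r := (1 / 2 : ℝ) ^ (2 * h)) (by positivity)
    have h5 : 2 * P.L / (1 / 2 : ℝ) ^ (2 * h) + 3 ≤ (2 * P.L + 3) * 4 ^ h := by
      have h6 : (1 : ℝ) ≤ 4 ^ h := one_le_pow₀ (by norm_num)
      have h7 : 2 * P.L / (1 / 2 : ℝ) ^ (2 * h) = 2 * P.L * 4 ^ h := by
        rw [pow_mul, one_div, inv_pow, inv_pow, div_inv_eq_mul]; norm_num
      rw [h7]; linarith
    calc ((range W).ncard : ℝ) ≤ ((range G).ncard : ℝ) *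
          (range (fun z => box ((1 / 2 : ℝ) ^ (2 * h)) (P.Θ z))).ncard := by
          exact_mod_cast h1.trans h3
      _ ≤ (d + 2) * ((2 * P.L + 3) * 4 ^ h) ^ d :=
          mul_le_mul hcG (h4.trans (pow_le_pow_left₀ (by positivity) h5 d)) (Nat.cast_nonneg _)
            (by linarith)
      _ = (d + 2) * (2 * P.L + 3) ^ d * (4 ^ h) ^ d := by rw [mul_pow]; ring
      _ ≤ _ := mul_le_mul_of_nonneg_right (le_max_right _ _) (by positivity)
  · intro F hF
    refine le_trans (measureReal_mono ?_ (measure_ne_top _ _))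
      ((measureReal_union_le _ _).trans (add_le_add le_rfl hbad'))
    intro z hz
    by_cases hb : (∀ t < 2 * N, S^[t] z ∈ P.Good (Ξ ^ 2 * (1 / 2) ^ h)) ∧
        ∀ t < 2 * N, GG ((1 / 2 : ℝ) ^ h) ((1 / 2) ^ h / Ξ ^ 2) (P.Θ (S^[t] z))
    · obtain ⟨j, hj, hsp⟩ := hF z hz
      exact Or.inl (stepG_ne hb.2 ⟨j, hj, z, rfl, hb.1, hsp⟩)
    · exact Or.inr hb

end Vale.Agent.P109
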