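import Mathlib
import Vale.Agent.P109.FinRV
import Vale.Agent.P109.Code

/-! From towers carrying the code words to ties. -/

namespace Vale.Agent.P109

open MeasureTheory Set Metric Module
open scoped ENNReal

theorem ties_abs {α A P : Type} [Fintype α] [Fintype A] [Fintype P] [DecidableEq A] [DecidableEq P]
    {Ext : (A → ZMod 2) → (A → ZMod 2) → (P → ZMod 2)} (hExt : ExtProp Ext)
    (V R : α → A → ZMod 2) (Pp : α → P → ZMod 2) (m' m'' : α → ℝ) (h' : ∀ u, 0 ≤ m' u)
    (h'' : ∀ u, 0 ≤ m'' u) {c M : ℝ} (hc : 0 ≤ c)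
    (h1 : ∀ v, ∑ u ∈ Finset.univ.filter (V · = v), m' u ≤ c)
    (h2 : ∀ r, ∑ u ∈ Finset.univ.filter (R · = r), m'' u ≤ c)
    (hM' : ∑ u, m' u ≤ M) (hM'' : ∑ u, m'' u ≤ M) (s : Finset (α × α))
    (hs : ∀ p ∈ s, Pp p.2 = Ext (V p.1) (R p.2)) :
    ∑ p ∈ s, m' p.1 * m'' p.2 ≤ M ^ 2 / 2 ^ Fintype.card P + √(2 ^ Fintype.card A) * c * M := by
  classical
  let x : (A → ZMod 2) → ℝ := fun v => ∑ u, if V u = v then m' u else 0
  let y : (A → ZMod 2) → (P → ZMod 2) → ℝ := fun r p =>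
    ∑ u, if R u = r then (if Pp u = p then m'' u else 0) else 0
  have hy : ∀ r, ∑ p, y r p = ∑ u, if R u = r then m'' u else 0 := fun r => by
    simp only [y]
    rw [Finset.sum_comm]
    refine Finset.sum_congr rfl fun u _ => ?_
    split_ifs <;> simp
  have hX : ∑ v, x v = ∑ u, m' u := by
    simp only [x]
    rw [Finset.sum_comm]
    simp
  have hY : ∑ r, ∑ p, y r p = ∑ u, m'' u := by
    simp only [hy]
    rw [Finset.sum_comm]
    simp
  have key := hExt x y c
    (fun v => Finset.sum_nonneg fun u _ => by split_ifs <;> simp [h'])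
    (fun r p => Finset.sum_nonneg fun u _ => by split_ifs <;> simp [h''])
    (fun v => by simpa only [Finset.sum_filter] using h1 v)
    (fun r => by simpa only [Finset.sum_filter, hy] using h2 r)
  rw [hX, hY] at key
  have e : ∑ v, ∑ r, x v * y r (Ext v r) =
      ∑ p : α × α, if Pp p.2 = Ext (V p.1) (R p.2) then m' p.1 * m'' p.2 else 0 := by
    have e1 : ∀ v, ∑ r, y r (Ext v r) = ∑ u, if Pp u = Ext v (R u) then m'' u else 0 := by
      intro v
      simp only [y]
      rw [Finset.sum_comm]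
      simp
    simp only [← Finset.mul_sum, e1]
    simp only [x, Finset.sum_mul, ite_mul, zero_mul]
    rw [Finset.sum_comm, Fintype.sum_prod_type]
    simp [Finset.mul_sum]
  have h3 : ∑ p ∈ s, m' p.1 * m'' p.2 ≤ ∑ v, ∑ r, x v * y r (Ext v r) := by
    rw [e, ← Finset.sum_filter]
    exact Finset.sum_le_sum_of_subset_of_nonneg
      (fun p hp => Finset.mem_filter.2 ⟨Finset.mem_univ _, hs p hp⟩)
      fun p _ _ => mul_nonneg (h' _) (h'' _)
  have p1 : 0 ≤ ∑ u, m' u := Finset.sum_nonneg fun u _ => h' u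
  have p2 : 0 ≤ ∑ u, m'' u := Finset.sum_nonneg fun u _ => h'' u
  have h4 : (∑ u, m' u) * ∑ u, m'' u ≤ M ^ 2 := by
    rw [pow_two]
    exact mul_le_mul hM' hM'' p2 (p1.trans hM')
  have h5 : √((∑ u, m' u) * ∑ u, m'' u) ≤ M := Real.sqrt_le_iff.2 ⟨p1.trans hM', h4⟩
  refine h3.trans (key.trans (add_le_add (div_le_div_of_nonneg_right h4 (by positivity))
    (mul_le_mul_of_nonneg_left h5 (by positivity))))

theorem ties_sum_filter {Ω α : Type*} [MeasurableSpace Ω] {ν : Measure Ω} [IsFiniteMeasure ν]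
    [Fintype α] {U : Ω → α} (hU : FinRV U) (w : Set Ω) (Q : α → Prop) [DecidablePred Q] :
    ∑ u ∈ Finset.univ.filter Q, ν.real (w ∩ U ⁻¹' {u}) ≤ ν.real (w ∩ {z | Q (U z)}) := by
  refine le_trans (Finset.sum_le_sum fun u hu => ?_) (hU.sum_measure_le _ (Finset.univ.filter Q))
  refine measureReal_mono ?_ (measure_ne_top _ _)
  rintro z ⟨h1, h2⟩
  have h3 : U z = u := h2
  exact ⟨⟨h1, by rw [mem_ofPred_eq, h3]; exact (Finset.mem_filter.1 hu).2⟩, h2⟩

theorem ties_mass {Ω : Type*} [MeasurableSpace Ω] {ν : Measure Ω} [IsFiniteMeasure ν]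
    {pos : Ω → ℕ} {col : Ω → ZMod 2} {N l : ℕ} (hN : 0 < N) (hl : 0 < l)
    (hlt : ∀ z, pos z < l * (N * 2 ^ N))
    (hcell : ∀ p < l * (N * 2 ^ N), ∀ s, ν.real {z | pos z = p ∧ col z = s} =
      1 / (2 * (l * (N * 2 ^ N) : ℕ)))
    {dat : ℕ → Fin N → ZMod 2} (hdat : InjOn dat (Iio (2 ^ N))) {A : Type} [Fintype A]
    [DecidableEq A] {ι : A → Fin N} (hι : Function.Injective ι) (v : A → ZMod 2) {ρ : ℕ}
    (hρ : ρ < l * N) (s : ZMod 2) :
    ν.real {z | pos z % (l * N) = ρ ∧ col z = s ∧ dat (pos z / (l * N)) ∘ ι = v} ≤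
      1 / 2 ^ Fintype.card A := by
  classical
  let F := (Finset.range (2 ^ N)).filter fun D => dat D ∘ ι = v
  have hsub : {z | pos z % (l * N) = ρ ∧ col z = s ∧ dat (pos z / (l * N)) ∘ ι = v} ⊆
      ⋃ D ∈ F, {z | pos z = D * (l * N) + ρ ∧ col z = s} := by
    rintro z ⟨h1, h2, h3⟩
    refine mem_biUnion (x := pos z / (l * N)) (Finset.mem_filter.2 ⟨Finset.mem_range.2 ?_, h3⟩)
      ⟨by rw [← h1, Nat.div_add_mod'], h2⟩
    exact Nat.div_lt_of_lt_mul (by rw [mul_assoc]; exact hlt z)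
  have hF : F.card * 2 ^ Fintype.card A ≤ 2 ^ N := by
    have h1 := card_restrict hι v
    rw [Fintype.card_fin] at h1
    rw [← h1]
    refine Nat.mul_le_mul_right _ (Finset.card_le_card_of_injOn dat (fun D hD => ?_) ?_)
    · simpa using (Finset.mem_filter.1 hD).2
    · exact hdat.mono fun D hD => Finset.mem_range.1 (Finset.mem_filter.1 hD).1
  refine (measureReal_mono hsub (measure_ne_top _ _)).trans
    ((measureReal_biUnion_finset_le _ _).trans ?_)
  rw [Finset.sum_congr rfl fun D hD => hcell _ (by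
    have := code_lt (Finset.mem_range.1 (Finset.mem_filter.1 hD).1) hρ
    rwa [mul_comm (2 ^ N), mul_assoc] at this) s, Finset.sum_const, nsmul_eq_mul, mul_one_div,
    div_le_div_iff₀ (by positivity) (by positivity), one_mul]
  have h2 : 2 ^ N ≤ 2 * (l * (N * 2 ^ N)) :=
    Nat.le_mul_of_pos_left _ hN |>.trans (Nat.le_mul_of_pos_left _ hl) |>.trans
      (Nat.le_mul_of_pos_left _ two_pos)
  exact_mod_cast hF.trans h2

theorem ties_read {Ω : Type*} {S : Ω → Ω} {sym : Ω → ZMod 2} {N l : ℕ} (hl : 0 < l)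
    {β₀ wd : ℕ → ZMod 2} {code : (Fin N → ZMod 2) → ℕ → ZMod 2} {dat : ℕ → Fin N → ZMod 2}
    (hwd : ∀ x, wd x = code (dat (x / N)) (x % N)) {z : Ω} {p : ℕ} {c : ZMod 2}
    (hp : p < l * (N * 2 ^ N))
    (hz : ∀ t, p + t < l * (N * 2 ^ N) →
      sym (S^[t] z) = c + (β₀ ((p + t) % l) + wd ((p + t) / l)))
    {j : ℕ} (hj : p % (l * N) / l + j < N) :
    sym (S^[l * j] z) = c + β₀ (p % (l * N) % l) +
      code (dat (p / (l * N))) (p % (l * N) / l + j) := by
  rw [Nat.mod_mul_right_div_self] at hj ⊢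
  have e1 : p / l + j = p / l / N * N + (p / l % N + j) := by
    rw [← add_assoc, Nat.div_add_mod']
  have e2 : (p + l * j) / l = p / l + j := Nat.add_mul_div_left _ _ hl
  have h1 : p / l / N < 2 ^ N :=
    Nat.div_lt_of_lt_mul (Nat.div_lt_of_lt_mul hp)
  have h2 : p + l * j < l * (N * 2 ^ N) := by
    rw [mul_comm l (N * _), ← Nat.div_lt_iff_lt_mul hl, e2, e1, mul_comm N]
    exact code_lt h1 hj
  rw [hz _ h2, Nat.add_mul_mod_self_left, e2, hwd, e1, code_div hj, code_mod hj,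
    Nat.mod_mul_right_mod, Nat.div_div_eq_div_mul, add_assoc]

theorem ties_block {J k i a : ℕ} (hi : i < J) (h : 2 * a < nlev J k J) :
    (a / nlev J k i + 1 + 1) * nlev J k i ≤ nlev J k J := by
  obtain ⟨j, rfl⟩ := Nat.exists_eq_add_of_lt hi
  have h2 : nlev (i + j + 1) k (i + j + 1) = 2 * (nlev (i + j + 1) k i * 2 ^ j) := by
    unfold nlev
    ring
  rw [h2] at h ⊢
  have h3 : a / nlev (i + j + 1) k i < 2 ^ j := Nat.div_lt_of_lt_mul (by omega)
  have h4 : 0 < 2 ^ j := by positivity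
  have h5 : a / nlev (i + j + 1) k i + 1 + 1 ≤ 2 * 2 ^ j := by omega
  exact (Nat.mul_le_mul_right _ h5).trans (le_of_eq (by ring))

theorem ties {Ω : Type*} [MeasurableSpace Ω] {ν : Measure Ω} [IsProbabilityMeasure ν]
    {S : Ω → Ω} (hS : Measurable S) {sym : Ω → ZMod 2} (hsym : Measurable sym) {J k l i : ℕ}
    (hk : 0 < k) (hl : 0 < l) (hi : i < J) {β₀ wd : ℕ → ZMod 2} (hw : IsWord J k wd)
    (ht : HasTower ν S sym (l * (nlev J k J * 2 ^ nlev J k J))
      (fun p => β₀ (p % l) + wd (p / l))) :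
    ∃ (Φ : Ω → ℕ × ZMod 2) (𝒯 : Set (ℕ × ZMod 2)),
      Tie ν (name S sym l (nlev J k i))
        (fun z => name S sym l (nlev J k i) (S^[l * nlev J k i] z)) Φ 𝒯
        (1 / 2 ^ (k * 2 ^ i)) (1 / √(2 ^ (k * 2 ^ i * J))) ∧
      (range Φ).ncard ≤ 2 * (l * nlev J k J) ∧ 1 / 4 ≤ ν.real (Φ ⁻¹' 𝒯) := by
  classical
  obtain ⟨code, dat, hcode, hdat, hwd⟩ := hw
  obtain ⟨pos, col, mpos, mcol, hlt, hcell, hae⟩ := ht
  obtain ⟨Ext, hExt, hι⟩ := hcode i hi
  have hcard := card_tie_positions J k i hi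
  have hblock := fun a => ties_block (J := J) (k := k) (a := a) hi
  have hN : 0 < nlev J k J := by
    have : 0 < J := by omega
    unfold nlev
    positivity
  clear hcode
  generalize nlev J k i = n at hι hcard hblock ⊢
  generalize nlev J k J = N at code dat hdat hwd hlt hcell hae hι hcard hblock hN ⊢
  have fX : FinRV fun z => (pos z, col z) :=
    (FinRV.of_measurable mpos ((finite_Iio _).subset (by rintro _ ⟨z, rfl⟩; exact hlt z))).prod
      (FinRV.of_measurable mcol (toFinite _))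
  have fs : FinRV sym := FinRV.of_measurable hsym (toFinite _)
  have fU' := fs.name hS l n
  have fU'' := fU'.precomp (hS.iterate (l * n))
  let cond : ℕ → Prop := fun a => 2 * a < N ∧ n ≤ 4 * (a % n) ∧ 4 * (a % n) < 3 * n
  let ℰD : ℕ × ZMod 2 → (Fin N → ZMod 2) → Set ((Fin n → ZMod 2) × (Fin n → ZMod 2)) :=
    fun φ D => {p | ∀ j : Fin n,
      (φ.1 / l + j < N → p.1 j = φ.2 + β₀ (φ.1 % l) + code D (φ.1 / l + j)) ∧
      (φ.1 / l + (n + j) < N → p.2 j = φ.2 + β₀ (φ.1 % l) + code D (φ.1 / l + (n + j)))}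
  have hgood : ∀ᵐ z ∂ν, (name S sym l n z, name S sym l n (S^[l * n] z)) ∈
      ℰD (pos z % (l * N), col z) (dat (pos z / (l * N))) := by
    filter_upwards [hae] with z hz j
    refine ⟨fun hj => ties_read hl hwd (hlt z) hz hj, fun hj => ?_⟩
    refine Eq.trans ?_ (ties_read hl hwd (hlt z) hz hj)
    rw [mul_add, add_comm, Function.iterate_add_apply]
    rfl
  refine ⟨fun z => (pos z % (l * N), col z), {φ | φ.1 < l * N ∧ cond (φ.1 / l)},
    ⟨fX.comp fun p => (p.1 % (l * N), p.2), fun φ => {p | ∃ D, p ∈ ℰD φ D},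
      hgood.mono fun z hz _ => ⟨_, hz⟩, ?_⟩, ?_, ?_⟩
  · rintro ⟨ρ, c⟩ ⟨hρ, h1, h2, h3⟩ w _ hw s hs
    dsimp only at hρ h1 h2 h3
    have hB := hblock _ h1
    obtain ⟨ι', ι'', ιp, i1, i2, b1, b2, b3, hD⟩ := hι _ hB
    have ea : ρ / l = ρ / l / n * n + ρ / l % n := (Nat.div_add_mod' _ _).symm
    simp only [add_mul, mul_assoc, one_mul, mul_add, mul_one] at b1 b2 b3 hB
    generalize ρ / l / n * n = u at ea b1 b2 b3 hB
    have c1 : ∀ a, (ι' a : ℕ) - ρ / l < n := fun a => by have := b1 a; omega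
    have c2 : ∀ a, (ι'' a : ℕ) - ρ / l - n < n := fun a => by have := b2 a; omega
    have c3 : ∀ p, ιp p - ρ / l - n < n := fun a => by have := b3 a; omega
    let V : (Fin n → ZMod 2) → Fin (k * 2 ^ i) × Fin J → ZMod 2 := fun v a =>
      v ⟨_, c1 a⟩ - (c + β₀ (ρ % l))
    let R : (Fin n → ZMod 2) → Fin (k * 2 ^ i) × Fin J → ZMod 2 := fun v a =>
      v ⟨_, c2 a⟩ - (c + β₀ (ρ % l))
    let Pp : (Fin n → ZMod 2) → Fin (k * 2 ^ i) → ZMod 2 := fun v a =>
      v ⟨_, c3 a⟩ - (c + β₀ (ρ % l))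
    have hdec : ∀ D, ∀ p ∈ ℰD (ρ, c) D, V p.1 = D ∘ ι' ∧ R p.2 = D ∘ ι'' ∧
        Pp p.2 = Ext (D ∘ ι') (D ∘ ι'') := by
      intro D p hp
      refine ⟨funext fun a => ?_, funext fun a => ?_, funext fun a => ?_⟩
      · have e : ρ / l + (ι' a - ρ / l) = ι' a := by have := b1 a; omega
        have := (hp ⟨_, c1 a⟩).1 (by dsimp only; rw [e]; exact (ι' a).2)
        dsimp only at this
        rw [e, (hD D).1] at this
        exact sub_eq_of_eq_add' this
      · have e : ρ / l + (n + (ι'' a - ρ / l - n)) = ι'' a := by have := b2 a; omega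
        have := (hp ⟨_, c2 a⟩).2 (by dsimp only; rw [e]; exact (ι'' a).2)
        dsimp only at this
        rw [e, (hD D).2.1] at this
        exact sub_eq_of_eq_add' this
      · have e : ρ / l + (n + (ιp a - ρ / l - n)) = ιp a := by have := b3 a; omega
        have := (hp ⟨_, c3 a⟩).2 (by dsimp only; rw [e]; have := b3 a; omega)
        dsimp only at this
        rw [e, (hD D).2.2] at this
        exact sub_eq_of_eq_add' this
    have hmass : ∀ (ι : Fin (k * 2 ^ i) × Fin J → Fin N), Function.Injective ι → ∀ v (E : Set Ω),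
        (∀ z ∈ E, (name S sym l n z, name S sym l n (S^[l * n] z)) ∈
          ℰD (ρ, c) (dat (pos z / (l * N))) → dat (pos z / (l * N)) ∘ ι = v) →
        ν.real (w ∩ E) ≤ 1 / 2 ^ Fintype.card (Fin (k * 2 ^ i) × Fin J) := by
      intro ι hι v E hE
      refine le_trans ?_ (ties_mass hN hl hlt hcell hdat.injOn hι v hρ c)
      refine ENNReal.toReal_mono (measure_ne_top _ _) (measure_mono_ae ?_)
      filter_upwards [hgood] with z hz hzw
      have e : (pos z % (l * N), col z) = (ρ, c) := hw hzw.1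
      rw [e] at hz
      exact ⟨congrArg Prod.fst e, congrArg Prod.snd e, hE z hzw.2 hz⟩
    have key := ties_abs hExt V R Pp (fun u => ν.real (w ∩ name S sym l n ⁻¹' {u}))
      (fun u => ν.real (w ∩ (fun z => name S sym l n (S^[l * n] z)) ⁻¹' {u}))
      (fun _ => measureReal_nonneg) (fun _ => measureReal_nonneg)
      (c := 1 / 2 ^ Fintype.card (Fin (k * 2 ^ i) × Fin J)) (M := ν.real w) (by positivity)
      (fun v => (ties_sum_filter fU' w _).trans
        (hmass ι' i1 v _ fun z hz h => (hdec _ _ h).1.symm.trans hz))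
      (fun v => (ties_sum_filter fU'' w _).trans
        (hmass ι'' i2 v _ fun z hz h => (hdec _ _ h).2.1.symm.trans hz))
      (fU'.sum_measure_le w _) (fU''.sum_measure_le w _) s (fun p hp => by
        obtain ⟨D, hD⟩ := hs hp
        obtain ⟨e1, e2, e3⟩ := hdec D p hD
        rw [e1, e2, e3])
    refine key.trans (le_of_eq ?_)
    simp only [Fintype.card_prod, Fintype.card_fin]
    rw [mul_one_div, Real.sqrt_div_self']
    ring
  · have hsub : (range fun z => (pos z % (l * N), col z)) ⊆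
        ↑(Finset.range (l * N) ×ˢ (Finset.univ : Finset (ZMod 2))) := by
      rintro _ ⟨x, rfl⟩
      simpa using Nat.mod_lt _ (Nat.mul_pos hl hN)
    refine (ncard_le_ncard hsub (Finset.finite_toSet _)).trans (le_of_eq ?_)
    rw [ncard_coe_finset]
    simp [mul_comm]
  · let Cs := (Finset.range (l * (N * 2 ^ N))).filter fun p => cond (p % (l * N) / l)
    have h1 := fX.sum_measure_le (ν := ν)
      ((fun z => (pos z % (l * N), col z)) ⁻¹' {φ | φ.1 < l * N ∧ cond (φ.1 / l)})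
      (Cs ×ˢ Finset.univ)
    refine le_trans ?_ h1
    have h2 : ∀ p ∈ Cs ×ˢ (Finset.univ : Finset (ZMod 2)), ν.real
        ((fun z => (pos z % (l * N), col z)) ⁻¹' {φ | φ.1 < l * N ∧ cond (φ.1 / l)} ∩
          (fun z => (pos z, col z)) ⁻¹' {p}) = 1 / (2 * (l * (N * 2 ^ N) : ℕ)) := by
      intro p hp
      obtain ⟨hp1, hp2⟩ := Finset.mem_filter.1 (Finset.mem_product.1 hp).1
      rw [← hcell p.1 (Finset.mem_range.1 hp1) p.2]
      congr 1
      ext z
      simp only [mem_inter_iff, mem_preimage, mem_ofPred_eq, mem_singleton_iff, Prod.ext_iff,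
        and_iff_right_iff_imp]
      rintro ⟨h, -⟩
      rw [h]
      exact ⟨Nat.mod_lt _ (Nat.mul_pos hl hN), hp2⟩
    have h3 : 2 ^ N * ((Finset.range N).filter cond).card * l ≤ Cs.card := by
      rw [← Finset.card_range (2 ^ N), ← Finset.card_product, ← Finset.card_range l,
        ← Finset.card_product]
      refine Finset.card_le_card_of_injOn (fun q => (q.1.1 * N + q.1.2) * l + q.2) ?_ ?_
      · rintro ⟨⟨D, a⟩, o⟩ hq
        simp only [Finset.coe_product, mem_prod, Finset.mem_coe, Finset.mem_range,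
          Finset.mem_filter] at hq
        refine Finset.mem_filter.2 ⟨Finset.mem_range.2 ?_, ?_⟩
        · have := code_lt (code_lt hq.1.1 hq.1.2.1) hq.2
          rwa [mul_comm (2 ^ N * N) l, mul_comm (2 ^ N) N] at this
        · dsimp only
          rw [Nat.mod_mul_right_div_self, code_div hq.2, code_mod hq.1.2.1]
          exact hq.1.2.2
      · rintro ⟨⟨D, a⟩, o⟩ hq ⟨⟨D', a'⟩, o'⟩ hq' h
        simp only [Finset.coe_product, mem_prod, Finset.mem_coe, Finset.mem_range,
          Finset.mem_filter] at hq hq'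
        have e1 := congrArg (· / l) h
        have e2 := congrArg (· % l) h
        simp only [code_div hq.2, code_div hq'.2, code_mod hq.2, code_mod hq'.2] at e1 e2
        have e3 := congrArg (· / N) e1
        have e4 := congrArg (· % N) e1
        simp only [code_div hq.1.2.1, code_div hq'.1.2.1, code_mod hq.1.2.1,
          code_mod hq'.1.2.1] at e3 e4
        rw [e2, e3, e4]
    rw [Finset.sum_congr rfl h2, Finset.sum_const, Finset.card_product, Finset.card_univ,
      ZMod.card, nsmul_eq_mul, mul_one_div, div_le_div_iff₀ (by norm_num) (by positivity)]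
    have h4 : 4 * ((Finset.range N).filter cond).card = N := hcard
    have h5 : 1 * (2 * (l * (N * 2 ^ N))) ≤ Cs.card * 2 * 4 := by
      have := congrArg (· * (l * 2 ^ N)) h4
      nlinarith
    exact_mod_cast h5

end Vale.Agent.P109
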