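import Mathlib
import Vale.Agent.P109.Info
import Vale.Agent.P109.Fano
import Vale.Agent.P109.Ties
import Vale.Agent.P109.Flat
import Vale.Agent.P109.Step
import Vale.Agent.P109.MainA

/-! No piecewise smooth system carries all the towers. -/

namespace Vale.Agent.P109

open MeasureTheory Set Metric Module
open scoped ENNReal

theorem main_name_split {Ω α : Type*} (S : Ω → Ω) (sym : Ω → α) (l n : ℕ) (z z' : Ω) :
    name S sym l (n * 2) z = name S sym l (n * 2) z' ↔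
      (name S sym l n z, name S sym l n (S^[l * n] z)) =
        (name S sym l n z', name S sym l n (S^[l * n] z')) := by
  rw [Prod.mk.injEq, name_eq_iff, name_eq_iff, name_eq_iff]
  constructor
  · intro h
    refine ⟨fun j hj => h j (by omega), fun j hj => ?_⟩
    rw [← Function.iterate_add_apply, ← Function.iterate_add_apply, ← mul_add]
    exact h _ (by omega)
  · rintro ⟨h1, h2⟩ j hj
    by_cases hjn : j < n
    · exact h1 j hjn
    · have := h2 (j - n) (by omega)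
      rwa [← Function.iterate_add_apply, ← Function.iterate_add_apply, ← mul_add,
        Nat.sub_add_cancel (by omega)] at this

theorem main_log_card {x : ℕ} {y : ℝ} (hy : 0 ≤ y) (h : (x : ℝ) ≤ y) : Real.log x ≤ y :=
  (Real.log_le_self (Nat.cast_nonneg x)).trans h

theorem main_log_phi {e x : ℕ} (he : 100 ≤ 2 ^ e)
    (h : x ≤ 2 * (2 ^ e * nlev ((2 ^ e) ^ 9) (2 ^ e) ((2 ^ e) ^ 9))) :
    Real.log x ≤ 15 * ((2 ^ e : ℕ) : ℝ) + ((2 ^ e : ℕ) : ℝ) ^ 9 := by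
  have h1 : (x : ℝ) ≤ 2 ^ (4 + 11 * e + (2 ^ e) ^ 9) := by
    have : 2 * (2 ^ e * nlev ((2 ^ e) ^ 9) (2 ^ e) ((2 ^ e) ^ 9)) =
        2 ^ (4 + 11 * e + (2 ^ e) ^ 9) := by
      rw [nlev, pow_add, pow_add, mul_comm 11 e, pow_mul]
      ring
    rw [this] at h
    exact_mod_cast h
  have h2 : e ≤ 2 ^ e := (Nat.lt_two_pow_self).le
  have h3 : ((4 + 11 * e + (2 ^ e) ^ 9 : ℕ) : ℝ) ≤ 15 * ((2 ^ e : ℕ) : ℝ) + ((2 ^ e : ℕ) : ℝ) ^ 9 := by
    have : 4 + 11 * e + (2 ^ e) ^ 9 ≤ 15 * 2 ^ e + (2 ^ e) ^ 9 := by omega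
    exact_mod_cast this
  rcases Nat.eq_zero_or_pos x with rfl | hx
  · simp only [Nat.cast_zero, Real.log_zero]
    positivity
  refine (Real.log_le_log (by exact_mod_cast hx) h1).trans ?_
  rw [Real.log_pow]
  refine le_trans ?_ h3
  have h4 := Real.log_two_lt_d9
  exact mul_le_of_le_one_right (Nat.cast_nonneg _) (by linarith)

theorem PW.not_rich {d : ℕ} {Ω : Type*} [MeasurableSpace Ω] {ν : Measure Ω}
    [IsProbabilityMeasure ν] {S : Ω → Ω} (P : PW d ν S) (hS : MeasurePreserving S ν ν)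
    {sym : Ω → ZMod 2} (hsym : Measurable sym) : ¬ Rich ν S sym := by
  intro hR
  obtain ⟨K, Qt, C, hK, hQ, hC, hstep⟩ := P.smooth_step hS
  obtain ⟨h₀, hinit⟩ := P.init hS hsym (η := 1 / 1000) (by norm_num)
  have hΛ : 0 ≤ Real.log P.L := Real.log_nonneg P.one_le
  have hd : (0 : ℝ) ≤ d := Nat.cast_nonneg d
  obtain ⟨e₀, he₀⟩ := exists_nat_ge (100 * ((d : ℝ) + 1) + K + Qt + C + h₀ +
    24 * (6 + 3 * Real.log P.L + 2 * d) + 1600 * ((d + 2) * (d * Real.log P.L)))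
  obtain ⟨e, hee, β₀, wd, hw, ht⟩ := hR e₀
  have hel : e ≤ 2 ^ e := (Nat.lt_two_pow_self).le
  have hbig : 100 * ((d : ℝ) + 1) + K + Qt + C + h₀ +
      24 * (6 + 3 * Real.log P.L + 2 * d) + 1600 * ((d + 2) * (d * Real.log P.L)) ≤
      ((2 ^ e : ℕ) : ℝ) := he₀.trans (by exact_mod_cast hee.trans hel)
  have hsm := fun i (w f : ℝ) h1 => main_small (d := d) (e := e) (i := i) h1 (w := w) (f := f)
  have hlp := fun x h1 => main_log_phi (e := e) (x := x) h1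
  have hr : 2 ^ (7 * e + 1) = 2 * (2 ^ e) ^ 7 := by rw [pow_succ, mul_comm 7 e, pow_mul]; ring
  have hr' : 7 * e + 1 ≤ 8 * 2 ^ e := by have : 1 ≤ 2 ^ e := Nat.one_le_two_pow; omega
  have hcast : (2 : ℝ) ^ e = ((2 ^ e : ℕ) : ℝ) := by push_cast; rfl
  rw [hcast] at hsm
  generalize 2 ^ e = l at *
  have hh0 : (0 : ℝ) ≤ h₀ := Nat.cast_nonneg _
  have hp1 : 0 ≤ (d + 2) * (d * Real.log P.L) := by positivity
  have hl1 : 100 * (d + 1) ≤ l := by
    have : (100 : ℝ) * (d + 1) ≤ l := by linarith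
    exact_mod_cast this
  have hl100 : (100 : ℝ) ≤ l := by linarith
  have hlpos : 0 < l := by omega
  have hfs : FinRV sym := FinRV.of_measurable hsym (Set.toFinite _)
  set E : ℕ → ℝ := fun i => Hc ν (name S sym l (nlev (l ^ 9) l i))
    (P.itin (l ^ 5 * (8 * l ^ 4 * 2 ^ i)) (l * nlev (l ^ 9) l i)) with hE
  set x : ℕ → ℝ := fun i => ν.real {z | ((8 * l ^ 4 * 2 ^ i : ℕ) : ℝ) <
    dfc P.A S (1 / (l : ℝ) ^ 3) (8 * l ^ 4 * 2 ^ i) (2 ^ (7 * e + 1)) z} with hx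
  have hlog2 := Real.log_two_gt_d9
  have hrec : ∀ i < l ^ 9, E (i + 1) ≤ 2 * E i - (23 / 100 - x i) * (l * Real.log 2 * 2 ^ i) +
      3 * (l : ℝ) ^ 9 := by
    intro i hi
    obtain ⟨Φ, 𝒯, hT, hΦ, h𝒯⟩ := ties hS.measurable hsym hlpos hlpos hi hw ht
    have hu : 8 * l ^ 4 ≤ 8 * l ^ 4 * 2 ^ i := Nat.le_mul_of_pos_right _ (by positivity)
    obtain ⟨hpar, hΞ⟩ := main_par P hl1 hu (by linarith)
    have hN : l ^ 7 * (8 * l ^ 4 * 2 ^ i) = l * nlev (l ^ 9) l i := by rw [nlev]; ring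
    rw [hN] at hpar
    obtain ⟨G, W, S₀, hI, hG, hW, hF⟩ := hstep hpar (le_trans (by linarith) hΞ)
    have hU' : FinRV (name S sym l (nlev (l ^ 9) l i)) := hfs.name hS.measurable _ _
    have hU'' := hU'.precomp (hS.measurable.iterate (l * nlev (l ^ 9) l i))
    have hinfo := info_step hU' hU'' (P.finRV_itin hS.measurable _ _) hI hT hK hQ
      (by positivity) (by positivity)
    have hE1 : E (i + 1) = Hc ν (fun z => (name S sym l (nlev (l ^ 9) l i) z,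
        name S sym l (nlev (l ^ 9) l i) (S^[l * nlev (l ^ 9) l i] z)))
        (P.itin (2 * (l ^ 5 * (8 * l ^ 4 * 2 ^ i))) (2 * (l * nlev (l ^ 9) l i))) := by
      have e1 : nlev (l ^ 9) l (i + 1) = nlev (l ^ 9) l i * 2 := by rw [nlev, nlev]; ring
      have e2 : l ^ 5 * (8 * l ^ 4 * 2 ^ (i + 1)) = 2 * (l ^ 5 * (8 * l ^ 4 * 2 ^ i)) := by ring
      have e3 : l * (nlev (l ^ 9) l i * 2) = 2 * (l * nlev (l ^ 9) l i) := by ring
      simp only [hE]
      rw [e1, e2, e3]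
      exact Hc_congr _ (fun z z' h => (main_name_split S sym l _ z z').1 h)
        (fun z z' h => (main_name_split S sym l _ z z').2 h)
    have hE2 : Hc ν (fun z => name S sym l (nlev (l ^ 9) l i) (S^[l * nlev (l ^ 9) l i] z))
        (fun z => P.itin (l ^ 5 * (8 * l ^ 4 * 2 ^ i)) (l * nlev (l ^ 9) l i)
          (S^[l * nlev (l ^ 9) l i] z)) = E i :=
      Hc_comp (hS.iterate _) hU' (P.finRV_itin hS.measurable _ _)
    have hS₀ : MeasurableSet S₀ := hI.finG.measurableSet_of_det hI.detS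
    have hp : 23 / 100 - x i ≤ ν.real (S₀ ∩ Φ ⁻¹' 𝒯) := by
      have h1 := hF {z | ((8 * l ^ 4 * 2 ^ i : ℕ) : ℝ) <
          dfc P.A S (1 / (l : ℝ) ^ 3) (8 * l ^ 4 * 2 ^ i) (2 ^ (7 * e + 1)) z}ᶜ (by
        intro z hz
        have h2 := splits_of_dfc P.one_le P.A_le P.A_ge S (γ := 1 / (l : ℝ) ^ 3) (by positivity)
          (8 * l ^ 4 * 2 ^ i) (2 ^ (7 * e + 1)) (by positivity) z (not_lt.1 hz)
        rw [hr, show 2 * l ^ 7 * (8 * l ^ 4 * 2 ^ i) = 2 * (l * nlev (l ^ 9) l i) by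
          rw [← hN]; ring] at h2
        exact h2)
      have h2 := measureReal_union_le (μ := ν) {z | ((8 * l ^ 4 * 2 ^ i : ℕ) : ℝ) <
          dfc P.A S (1 / (l : ℝ) ^ 3) (8 * l ^ 4 * 2 ^ i) (2 ^ (7 * e + 1)) z}
          {z | ((8 * l ^ 4 * 2 ^ i : ℕ) : ℝ) <
          dfc P.A S (1 / (l : ℝ) ^ 3) (8 * l ^ 4 * 2 ^ i) (2 ^ (7 * e + 1)) z}ᶜ
      rw [union_compl_self, probReal_univ] at h2
      have h3 : ν.real (Φ ⁻¹' 𝒯) ≤ ν.real (S₀ ∩ Φ ⁻¹' 𝒯) + ν.real S₀ᶜ := by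
        refine le_trans (measureReal_mono ?_) (measureReal_union_le _ _)
        intro z hz
        by_cases h : z ∈ S₀
        · exact Or.inl ⟨h, hz⟩
        · exact Or.inr h
      rw [probReal_compl_eq_one_sub hS₀] at h3
      simp only [hx]
      linarith
    have hlog : Real.log (1 / 2 ^ (l * 2 ^ i)) = -(l * Real.log 2 * 2 ^ i) := by
      rw [one_div, Real.log_inv, Real.log_pow]; push_cast; ring
    have hs1 := hsm i (range W).ncard (range Φ).ncard hl1 (Nat.cast_nonneg _)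
      (hW.trans (by gcongr; linarith)) (by exact_mod_cast hΦ)
    have hs2 := hlp _ (by omega) hΦ
    have hs3 : Real.log (range G).ncard ≤ l := main_log_card (by linarith) (by linarith)
    have hs4 : Real.log K ≤ l := (Real.log_le_self (by linarith)).trans (by linarith)
    have hs5 : Real.log Qt ≤ l := (Real.log_le_self (by linarith)).trans (by linarith)
    have hs6 : 35 * (l : ℝ) ≤ l ^ 9 := by
      calc 35 * (l : ℝ) ≤ l ^ 2 := by nlinarith
        _ ≤ l ^ 9 := pow_le_pow_right₀ (by linarith) (by norm_num)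
    have hs7 : (23 / 100 - x i) * (l * Real.log 2 * 2 ^ i) ≤
        ν.real (S₀ ∩ Φ ⁻¹' 𝒯) * (l * Real.log 2 * 2 ^ i) :=
      mul_le_mul_of_nonneg_right hp (by positivity)
    rw [hE1]
    rw [hE2, hlog] at hinfo
    have hE0 : Hc ν (name S sym l (nlev (l ^ 9) l i))
      (P.itin (l ^ 5 * (8 * l ^ 4 * 2 ^ i)) (l * nlev (l ^ 9) l i)) = E i := rfl
    rw [hE0] at hinfo
    linarith
  have hsum := main_sum E (fun i => 23 / 100 - x i) (l * Real.log 2) (3 * (l : ℝ) ^ 9) (l ^ 9)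
    (by positivity) hrec
    (Hc_nonneg (hfs.name hS.measurable _ _) (P.finRV_itin hS.measurable _ _))
  have hflat := flat_prob hS P.A_meas P.one_le P.A_le (γ := 1 / (l : ℝ) ^ 3) (by positivity)
    (8 * l ^ 4) (7 * e + 1) (l ^ 9) (by positivity)
  have hflat' : ∑ i ∈ Finset.range (l ^ 9), x i ≤ (l : ℝ) ^ 9 / 100 := by
    refine hflat.trans ?_
    have h1 : (2 : ℝ) ^ (7 * e + 1) = 2 * (l : ℝ) ^ 7 := by exact_mod_cast hr
    have h2 : ((7 * e + 1 : ℕ) : ℝ) ≤ 8 * l := by exact_mod_cast hr'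
    rw [h1]
    calc (d + 2) * (2 * (l : ℝ) ^ 7) * ((7 * e + 1 : ℕ) : ℝ) * (d * Real.log P.L)
        ≤ (d + 2) * (2 * (l : ℝ) ^ 7) * (8 * l) * (d * Real.log P.L) := by gcongr
      _ = (l : ℝ) ^ 8 * (1600 * ((d + 2) * (d * Real.log P.L))) / 100 := by ring
      _ ≤ (l : ℝ) ^ 8 * l / 100 := by gcongr; linarith
      _ = _ := by ring
  have hE0 : E 0 ≤ (nlev (l ^ 9) l 0 : ℝ) * (1 / 1000) := by
    refine hinit _ ?_ l _ hlpos
    have h1 : h₀ ≤ l := by
      have : (h₀ : ℝ) ≤ l := by linarith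
      exact_mod_cast this
    calc h₀ ≤ l := h1
      _ ≤ l ^ 5 := Nat.le_self_pow (by norm_num) l
      _ ≤ _ := Nat.le_mul_of_pos_right _ (by positivity)
  rw [nlev] at hE0
  rw [Finset.sum_sub_distrib, Finset.sum_const, Finset.card_range, nsmul_eq_mul] at hsum
  push_cast at hE0 hsum
  have h9 : (0 : ℝ) < (l : ℝ) ^ 9 := by positivity
  have h10 : l * Real.log 2 / 2 * ((l : ℝ) ^ 9 * (22 / 100)) ≤
      l * Real.log 2 / 2 * ((l : ℝ) ^ 9 * (23 / 100) - ∑ i ∈ Finset.range (l ^ 9), x i) :=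
    mul_le_mul_of_nonneg_left (by linarith) (by positivity)
  have h11 : (l : ℝ) ^ 9 * (l * (Real.log 2 * (11 / 100) - 8 / 1000) - 3) ≤ 0 := by nlinarith
  have h12 : 0 < l * (Real.log 2 * (11 / 100) - 8 / 1000) - 3 := by nlinarith
  nlinarith

end Vale.Agent.P109
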