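import Mathlib
import Vale.Agent.P109.Fano

/-! Construction of generalized Morse systems over the 2-adic odometer. -/

namespace Vale.Agent.P109

open MeasureTheory Set Metric Module
open scoped ENNReal

/-- The residue of a 2-adic integer modulo 2 ^ n. -/
noncomputable def morsePos (n : ℕ) (x : ℤ_[2]) : ℕ := (PadicInt.toZModPow n x).val

theorem morse_pos_lt (n : ℕ) (x : ℤ_[2]) : morsePos n x < 2 ^ n := ZMod.val_lt _

theorem morse_pos_compat {m n : ℕ} (h : m ≤ n) (x : ℤ_[2]) :
    morsePos m x = morsePos n x % 2 ^ m := by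
  unfold morsePos
  rw [← PadicInt.cast_toZModPow m n h x, ZMod.cast_eq_val, ZMod.val_natCast]

theorem morse_pos_add_one (n : ℕ) (x : ℤ_[2]) :
    morsePos n (x + 1) = (morsePos n x + 1) % 2 ^ n := by
  unfold morsePos
  have e : PadicInt.toZModPow n (x + 1) =
      (((PadicInt.toZModPow n x).val + 1 : ℕ) : ZMod (2 ^ n)) := by
    rw [map_add, map_one, Nat.cast_add, ZMod.natCast_zmod_val, Nat.cast_one]
  rw [e, ZMod.val_natCast]

theorem morse_eq_iff (n : ℕ) (x y : ℤ_[2]) :
    PadicInt.toZModPow n x = PadicInt.toZModPow n y ↔ dist x y ≤ (2 : ℝ) ^ (-n : ℤ) := by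
  have h := PadicInt.norm_le_pow_iff_mem_span_pow (x - y) n
  rw [← PadicInt.ker_toZModPow, RingHom.mem_ker, map_sub, sub_eq_zero] at h
  rw [← h, dist_eq_norm]
  norm_num

theorem morse_pos_eq_iff (n : ℕ) (x y : ℤ_[2]) :
    morsePos n x = morsePos n y ↔ dist x y ≤ (2 : ℝ) ^ (-n : ℤ) := by
  rw [← morse_eq_iff]
  exact (ZMod.val_injective _).eq_iff

theorem morse_fibre (n : ℕ) (a : ZMod (2 ^ n)) :
    {x : ℤ_[2] | PadicInt.toZModPow n x = a} = closedBall ((a.val : ℕ) : ℤ_[2]) ((2 : ℝ) ^ (-n : ℤ)) := by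
  ext x
  rw [mem_closedBall, ← morse_eq_iff, map_natCast, ZMod.natCast_zmod_val]
  rfl

section
variable [MeasurableSpace ℤ_[2]] [BorelSpace ℤ_[2]]

theorem morse_meas_zmod (n : ℕ) :
    Measurable (fun x : ℤ_[2] => PadicInt.toZModPow n x) := by
  refine measurable_to_countable' fun a => ?_
  have := morse_fibre n a
  change MeasurableSet {x : ℤ_[2] | PadicInt.toZModPow n x = a}
  rw [this]
  exact isClosed_closedBall.measurableSet

theorem morse_pos_meas (n : ℕ) : Measurable (morsePos n) :=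
  (measurable_from_top (f := fun a : ZMod (2 ^ n) => a.val)).comp (morse_meas_zmod n)

theorem morse_law_zmod (μ : Measure ℤ_[2]) [IsProbabilityMeasure μ] [μ.IsAddLeftInvariant]
    (n : ℕ) (a : ZMod (2 ^ n)) :
    μ.real {x : ℤ_[2] | PadicInt.toZModPow n x = a} = 1 / 2 ^ n := by
  have h1 : ∀ a : ZMod (2 ^ n), μ.real {x : ℤ_[2] | PadicInt.toZModPow n x = a} =
      μ.real {x : ℤ_[2] | PadicInt.toZModPow n x = 0} := by
    intro a
    have e : {x : ℤ_[2] | PadicInt.toZModPow n x = 0} =
        (fun x => ((a.val : ℕ) : ℤ_[2]) + x) ⁻¹' {x : ℤ_[2] | PadicInt.toZModPow n x = a} := by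
      ext x
      simp only [mem_ofPred_eq, mem_preimage, map_add, map_natCast, ZMod.natCast_zmod_val]
      exact (add_eq_left).symm
    rw [e, measureReal_def, measureReal_def, measure_preimage_add]
  have h2 : ∑ a : ZMod (2 ^ n), μ.real ((fun x : ℤ_[2] => PadicInt.toZModPow n x) ⁻¹' {a}) = 1 := by
    rw [sum_measureReal_preimage_singleton _
      (fun a _ => morse_meas_zmod n (measurableSet_singleton a))]
    simp
  have h3 : ∑ a : ZMod (2 ^ n), μ.real ((fun x : ℤ_[2] => PadicInt.toZModPow n x) ⁻¹' {a}) =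
      2 ^ n * μ.real {x : ℤ_[2] | PadicInt.toZModPow n x = 0} := by
    refine (Finset.sum_congr rfl (fun a _ => h1 a)).trans ?_
    rw [Finset.sum_const, Finset.card_univ, ZMod.card, nsmul_eq_mul]
    push_cast
    rfl
  rw [h1, eq_div_iff (by positivity), mul_comm, ← h3, h2]

theorem morse_law (μ : Measure ℤ_[2]) [IsProbabilityMeasure μ] [μ.IsAddLeftInvariant]
    (n p : ℕ) (hp : p < 2 ^ n) : μ.real {x : ℤ_[2] | morsePos n x = p} = 1 / 2 ^ n := by
  rw [← morse_law_zmod μ n (p : ZMod (2 ^ n))]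
  have e : {x : ℤ_[2] | morsePos n x = p} =
      {x : ℤ_[2] | PadicInt.toZModPow n x = (p : ZMod (2 ^ n))} := by
    ext x
    simp only [mem_ofPred_eq, morsePos]
    constructor
    · intro h
      rw [← h, ZMod.natCast_zmod_val]
    · intro h
      rw [h, ZMod.val_natCast, Nat.mod_eq_of_lt hp]
  rw [e]

end

/-- The jump of the word of level K at the position of x. -/
noncomputable def morseJump (D : MorseData) (K : ℕ) (x : ℤ_[2]) : ZMod 2 :=
  D.β K (morsePos (D.e K) x + 1) + D.β K (morsePos (D.e K) x)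

theorem morse_jump_succ (D : MorseData) (K : ℕ) (x : ℤ_[2])
    (h : morsePos (D.e K) x + 1 < 2 ^ D.e K) :
    morsePos (D.e (K + 1)) x + 1 < 2 ^ D.e (K + 1) ∧
      morseJump D (K + 1) x = morseJump D K x := by
  have hle : D.e K ≤ D.e (K + 1) := D.mono.monotone (Nat.le_succ K)
  have hc := morse_pos_compat hle x
  have hlt := morse_pos_lt (D.e (K + 1)) x
  unfold morseJump
  set p := morsePos (D.e (K + 1)) x with hp
  set m := 2 ^ D.e K with hm
  have hm0 : 0 < m := by positivity
  rw [hc] at h ⊢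
  have hmod : (p + 1) % m = p % m + 1 := by
    rw [← Nat.mod_add_mod, Nat.mod_eq_of_lt h]
  have hdiv : (p + 1) / m = p / m := by
    have e1 := Nat.div_add_mod (p + 1) m
    have e2 := Nat.div_add_mod p m
    rw [hmod] at e1
    have : m * ((p + 1) / m) = m * (p / m) := by omega
    exact Nat.eq_of_mul_eq_mul_left hm0 this
  refine ⟨?_, ?_⟩
  · by_contra hne
    have e : p + 1 = 2 ^ D.e (K + 1) := by omega
    have hd : m ∣ p + 1 := by
      rw [e]
      exact pow_dvd_pow 2 hle
    rw [Nat.mod_eq_zero_of_dvd hd] at hmod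
    omega
  · rw [D.compat, D.compat, hmod, hdiv]
    have h2 : ∀ a b c : ZMod 2, a + c + (b + c) = a + b := by decide
    exact h2 _ _ _

theorem morse_jump_le (D : MorseData) {K K' : ℕ} (hK : K ≤ K') (x : ℤ_[2])
    (h : morsePos (D.e K) x + 1 < 2 ^ D.e K) :
    morsePos (D.e K') x + 1 < 2 ^ D.e K' ∧ morseJump D K' x = morseJump D K x := by
  induction K', hK using Nat.le_induction with
  | base => exact ⟨h, rfl⟩
  | succ n _ ih =>
    have := morse_jump_succ D n x ih.1
    exact ⟨this.1, this.2.trans ih.2⟩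

open Classical in
/-- The cocycle of the Morse system. -/
noncomputable def morseCoc (D : MorseData) (x : ℤ_[2]) : ZMod 2 :=
  if ∃ K, morsePos (D.e K) x + 1 < 2 ^ D.e K ∧ morseJump D K x = 1 then 1 else 0

theorem morse_coc_eq (D : MorseData) (K : ℕ) (x : ℤ_[2])
    (h : morsePos (D.e K) x + 1 < 2 ^ D.e K) : morseCoc D x = morseJump D K x := by
  unfold morseCoc
  split_ifs with h1
  · obtain ⟨K', h2, h3⟩ := h1
    have a := (morse_jump_le D (le_max_left K K') x h).2
    have b := (morse_jump_le D (le_max_right K K') x h2).2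
    rw [← a, b, h3]
  · have h2 : ∀ a : ZMod 2, a ≠ 1 → 0 = a := by decide
    exact h2 _ fun h3 => h1 ⟨K, h, h3⟩

theorem morse_coc_meas [MeasurableSpace ℤ_[2]] [BorelSpace ℤ_[2]] (D : MorseData) :
    Measurable (morseCoc D) := by
  unfold morseCoc
  refine Measurable.ite ?_ measurable_const measurable_const
  rw [ofPred_exists]
  refine MeasurableSet.iUnion fun K => ?_
  exact morse_pos_meas (D.e K) (MeasurableSet.of_discrete
    (s := {p : ℕ | p + 1 < 2 ^ D.e K ∧ D.β K (p + 1) + D.β K p = 1}))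

theorem morse_meas_bin {Y : Type*} [MeasurableSpace Y] (g : ZMod 2 → ZMod 2 → ZMod 2)
    {u v : Y → ZMod 2} (hu : Measurable u) (hv : Measurable v) :
    Measurable fun y => g (u y) (v y) :=
  (Measurable.of_discrete (f := fun p : ZMod 2 × ZMod 2 => g p.1 p.2)).comp (hu.prodMk hv)

/-- The Morse transformation. -/
noncomputable def morseT [MeasurableSpace ℤ_[2]] [BorelSpace ℤ_[2]] (D : MorseData) :
    (ℤ_[2] × ZMod 2) ≃ᵐ (ℤ_[2] × ZMod 2) where
  toFun z := (z.1 + 1, z.2 + morseCoc D z.1)
  invFun z := (z.1 - 1, z.2 - morseCoc D (z.1 - 1))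
  left_inv z := by simp
  right_inv z := by simp
  measurable_toFun := by
    refine (measurable_fst.add_const 1).prodMk ?_
    exact morse_meas_bin (· + ·) measurable_snd ((morse_coc_meas D).comp measurable_fst)
  measurable_invFun := by
    refine (measurable_fst.sub_const 1).prodMk ?_
    exact morse_meas_bin (· - ·) measurable_snd
      ((morse_coc_meas D).comp (measurable_fst.sub_const 1))

theorem morse_uniform : ∃ ρ : Measure (ZMod 2), IsProbabilityMeasure ρ ∧ ρ.IsAddRightInvariant ∧
    ∀ s, ρ.real {s} = 1 / 2 := by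
  refine ⟨(2 : ℝ≥0∞)⁻¹ • Measure.count, ⟨?_⟩, inferInstance, fun s => ?_⟩
  · rw [Measure.smul_apply, Measure.count_univ]
    simp only [ENat.card_eq_coe_fintype_card, ZMod.card, Nat.cast_ofNat, smul_eq_mul]
    exact ENNReal.inv_mul_cancel (by norm_num) (by norm_num)
  · rw [measureReal_def, Measure.smul_apply, Measure.count_singleton]
    simp

theorem morse_emb [MeasurableSpace ℤ_[2]] :
    MeasurableEmbedding (fun z : ℤ_[2] × ZMod 2 => (z.1, (z.2.val : ℝ))) := by
  have h : MeasurableEmbedding (fun s : ZMod 2 => (s.val : ℝ)) :=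
    ⟨fun a b hab => ZMod.val_injective 2 (Nat.cast_injective hab), measurable_from_top,
      fun s _ => (toFinite _).measurableSet⟩
  exact MeasurableEmbedding.id.prodMap h

theorem morse_exists (D : MorseData) : ∃ (X : Type) (_ : MeasurableSpace X)
    (_ : StandardBorelSpace X) (μ : Measure X) (_ : IsProbabilityMeasure μ) (T : X ≃ᵐ X),
    Nonempty (MorseSys D μ T) := by
  let _ : MeasurableSpace ℤ_[2] := borel _
  have : BorelSpace ℤ_[2] := ⟨rfl⟩
  obtain ⟨ρ, hρ, hρi, hρs⟩ := morse_uniform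
  set η : Measure ℤ_[2] := Measure.addHaarMeasure ⊤ with hη
  have hηp : IsProbabilityMeasure η := ⟨by
    rw [hη, ← TopologicalSpace.PositiveCompacts.coe_top, Measure.addHaarMeasure_self]⟩
  have hηi : η.IsAddLeftInvariant := by rw [hη]; infer_instance
  refine ⟨ℤ_[2] × ZMod 2, inferInstance, inferInstance, η.prod ρ, inferInstance, morseT D, ⟨?_⟩⟩
  refine
    { pos := fun K z => morsePos (D.e K) z.1
      sym := fun z => z.2
      mp := ?_
      meas_pos := fun K => (morse_pos_meas _).comp measurable_fst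
      meas_sym := measurable_snd
      pos_lt := fun K z => morse_pos_lt _ _
      pos_compat := fun K z => morse_pos_compat (D.mono.monotone (Nat.le_succ K)) _
      pos_T := fun K z => morse_pos_add_one _ _
      sym_T := ?_
      law := ?_
      approx := ?_ }
  · have h1 : MeasurePreserving (fun x : ℤ_[2] => x + 1) η η := measurePreserving_add_right η 1
    exact h1.skew_product (g := fun x s => s + morseCoc D x)
      (morse_meas_bin (· + ·) measurable_snd ((morse_coc_meas D).comp measurable_fst))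
      (ae_of_all _ fun x => map_add_right_eq_self ρ _)
  · intro K z h
    change z.2 + morseCoc D z.1 + _ = _
    rw [morse_coc_eq D K z.1 h, morseJump]
    have h2 : ∀ a b c : ZMod 2, a + (b + c) + b = a + c := by decide
    exact h2 _ _ _
  · intro K p s hp
    have e : {z : ℤ_[2] × ZMod 2 | morsePos (D.e K) z.1 = p ∧ z.2 = s} =
        {x : ℤ_[2] | morsePos (D.e K) x = p} ×ˢ {s} := by
      ext z
      simp
    rw [e, measureReal_prod_prod, morse_law η _ _ hp, hρs]
    field_simp
  · intro α P hP ε hε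
    obtain ⟨δ, hδ, bad, hb, hbε, h⟩ := approx_cells (η.prod ρ) morse_emb hP hε
    obtain ⟨K₀, hK₀⟩ := exists_pow_lt_of_lt_one hδ (by norm_num : (1 / 2 : ℝ) < 1)
    refine ⟨K₀, fun K hK => ⟨bad, hb, hbε, fun x hx y hy h1 h2 => h x hx y hy ?_⟩⟩
    have h3 := (morse_pos_eq_iff _ _ _).1 h1
    have h4 : x.2 = y.2 := h2
    rw [Prod.dist_eq, h4, dist_self, max_eq_left dist_nonneg]
    refine h3.trans_lt (lt_of_le_of_lt ?_ hK₀)
    rw [zpow_neg, zpow_natCast, ← inv_pow, ← one_div]
    exact pow_le_pow_of_le_one (by norm_num) (by norm_num) (hK.trans (D.mono.id_le K))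

end Vale.Agent.P109
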