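import Mathlib
import Vale.Agent.P109.FinRV

/-! Ergodicity and towers of generalized Morse systems. -/

namespace Vale.Agent.P109

open MeasureTheory Set Metric Module
open scoped ENNReal

variable {D : MorseData} {X : Type} [MeasurableSpace X] {μ : Measure X} [IsProbabilityMeasure μ]
  {T : X → X}

omit [IsProbabilityMeasure μ] in
/-- The column of the tower of level K containing the point x. -/
def MorseSys.ergCol (M : MorseSys D μ T) (K : ℕ) (x : X) : ZMod 2 := M.sym x + D.β K (M.pos K x)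

omit [IsProbabilityMeasure μ] in
/-- The levels of the tower of level K. -/
def MorseSys.ergCell (M : MorseSys D μ T) (K p : ℕ) (s : ZMod 2) : Set X :=
  {x | M.pos K x = p ∧ M.ergCol K x = s}

omit [IsProbabilityMeasure μ] in
theorem morseErg_col_meas (M : MorseSys D μ T) (K : ℕ) : Measurable (M.ergCol K) :=
  (Measurable.of_discrete (f := fun q : ZMod 2 × ℕ => q.1 + D.β K q.2)).comp
    (M.meas_sym.prodMk (M.meas_pos K))

omit [IsProbabilityMeasure μ] in
theorem morseErg_cell_meas (M : MorseSys D μ T) (K p : ℕ) (s : ZMod 2) :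
    MeasurableSet (M.ergCell K p s) :=
  (M.meas_pos K (measurableSet_singleton p)).inter
    (morseErg_col_meas M K (measurableSet_singleton s))

omit [IsProbabilityMeasure μ] in
theorem morseErg_cell_eq (M : MorseSys D μ T) (K p : ℕ) (s : ZMod 2) :
    M.ergCell K p s = {x | M.pos K x = p ∧ M.sym x = s - D.β K p} := by
  ext x
  simp only [MorseSys.ergCell, MorseSys.ergCol, mem_ofPred_eq]
  constructor
  · rintro ⟨h1, h2⟩
    exact ⟨h1, by rw [← h2, h1, add_sub_cancel_right]⟩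
  · rintro ⟨h1, h2⟩
    exact ⟨h1, by rw [h2, h1, sub_add_cancel]⟩

omit [IsProbabilityMeasure μ] in
theorem morseErg_cell_law (M : MorseSys D μ T) (K p : ℕ) (s : ZMod 2) (hp : p < 2 ^ D.e K) :
    μ.real (M.ergCell K p s) = 1 / (2 * 2 ^ D.e K) := by
  rw [morseErg_cell_eq]
  exact M.law K p _ hp

omit [IsProbabilityMeasure μ] in
theorem morseErg_step (M : MorseSys D μ T) (K : ℕ) (x : X) (h : M.pos K x + 1 < 2 ^ D.e K) :
    M.pos K (T x) = M.pos K x + 1 ∧ M.ergCol K (T x) = M.ergCol K x := by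
  have h1 : M.pos K (T x) = M.pos K x + 1 := by rw [M.pos_T, Nat.mod_eq_of_lt h]
  refine ⟨h1, ?_⟩
  unfold MorseSys.ergCol
  rw [h1]
  exact M.sym_T K x h

omit [IsProbabilityMeasure μ] in
theorem morseErg_cell_pre (M : MorseSys D μ T) (K p : ℕ) (s : ZMod 2) (hp : p + 1 < 2 ^ D.e K) :
    T ⁻¹' M.ergCell K (p + 1) s = M.ergCell K p s := by
  ext x
  simp only [MorseSys.ergCell, mem_preimage, mem_ofPred_eq]
  constructor
  · rintro ⟨h1, h2⟩
    have h3 : M.pos K x + 1 < 2 ^ D.e K := by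
      by_contra h4
      have h5 := M.pos_lt K x
      have h6 : M.pos K x + 1 = 2 ^ D.e K := by omega
      rw [M.pos_T, h6, Nat.mod_self] at h1
      omega
    obtain ⟨h7, h8⟩ := morseErg_step M K x h3
    exact ⟨by omega, h8 ▸ h2⟩
  · rintro ⟨h1, h2⟩
    obtain ⟨h7, h8⟩ := morseErg_step M K x (by omega)
    exact ⟨by omega, h8.trans h2⟩

omit [IsProbabilityMeasure μ] in
theorem morseErg_cell_sub (M : MorseSys D μ T) (K p : ℕ) (s : ZMod 2) :
    M.ergCell (K + 1) p s ⊆ M.ergCell K (p % 2 ^ D.e K) (s - D.b K (p / 2 ^ D.e K)) := by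
  rintro x ⟨h1, h2⟩
  have h3 : M.pos K x = p % 2 ^ D.e K := by rw [M.pos_compat, h1]
  refine ⟨h3, ?_⟩
  unfold MorseSys.ergCol at h2 ⊢
  rw [h1, D.compat] at h2
  rw [h3, ← h2]
  ring

omit [IsProbabilityMeasure μ] in
theorem morseErg_shift (M : MorseSys D μ T) {A : Set X} (hA : MeasurableSet A)
    (hT : T ⁻¹' A = A) (K p : ℕ) (s : ZMod 2) (hp : p + 1 < 2 ^ D.e K) :
    μ.real (A ∩ M.ergCell K (p + 1) s) = μ.real (A ∩ M.ergCell K p s) := by
  rw [← M.mp.measureReal_preimage (hA.inter (morseErg_cell_meas M K _ s)).nullMeasurableSet,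
    preimage_inter, hT, morseErg_cell_pre M K p s hp]

omit [IsProbabilityMeasure μ] in
theorem morseErg_indep (M : MorseSys D μ T) {A : Set X} (hA : MeasurableSet A)
    (hT : T ⁻¹' A = A) (K : ℕ) (s : ZMod 2) (p : ℕ) (hp : p < 2 ^ D.e K) :
    μ.real (A ∩ M.ergCell K p s) = μ.real (A ∩ M.ergCell K 0 s) := by
  induction p with
  | zero => rfl
  | succ p ih => rw [morseErg_shift M hA hT K p s hp, ih (by omega)]

theorem morseErg_union (M : MorseSys D μ T) {A : Set X} (hA : MeasurableSet A)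
    (hT : T ⁻¹' A = A) (K : ℕ) :
    μ.real A ≤ 2 ^ D.e K * (μ.real (A ∩ M.ergCell K 0 0) + μ.real (A ∩ M.ergCell K 0 1)) := by
  have h1 : A ⊆ ⋃ p ∈ Finset.range (2 ^ D.e K),
      (A ∩ M.ergCell K p 0 ∪ A ∩ M.ergCell K p 1) := by
    intro x hx
    simp only [mem_iUnion, Finset.mem_range]
    refine ⟨M.pos K x, M.pos_lt K x, ?_⟩
    have h2 : ∀ a : ZMod 2, a = 0 ∨ a = 1 := by decide
    rcases h2 (M.ergCol K x) with h | h
    · exact Or.inl ⟨hx, rfl, h⟩
    · exact Or.inr ⟨hx, rfl, h⟩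
  refine (measureReal_mono h1 (measure_ne_top _ _)).trans
    ((measureReal_biUnion_finset_le _ _).trans ?_)
  have h3 : ∀ p ∈ Finset.range (2 ^ D.e K),
      μ.real (A ∩ M.ergCell K p 0 ∪ A ∩ M.ergCell K p 1) ≤
        μ.real (A ∩ M.ergCell K 0 0) + μ.real (A ∩ M.ergCell K 0 1) := by
    intro p hp
    rw [← morseErg_indep M hA hT K 0 p (Finset.mem_range.1 hp),
      ← morseErg_indep M hA hT K 1 p (Finset.mem_range.1 hp)]
    exact measureReal_union_le _ _
  refine (Finset.sum_le_sum h3).trans (le_of_eq ?_)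
  rw [Finset.sum_const, Finset.card_range, nsmul_eq_mul]
  push_cast
  rfl

theorem morseErg_mixed (M : MorseSys D μ T) {A : Set X} (hA : MeasurableSet A)
    (hT : T ⁻¹' A = A) {K : ℕ} (he : D.e (K + 1) = D.e K + 1) (hb : D.b K 0 ≠ D.b K 1)
    {s s' : ZMod 2} (hs : s ≠ s') :
    1 / 4 ≤ 2 ^ D.e K * μ.real (A ∩ M.ergCell K 0 s) +
      2 ^ D.e K * μ.real (Aᶜ ∩ M.ergCell K 0 s') := by
  obtain ⟨q, hq⟩ : ∃ q, 2 ^ D.e K = q + 1 :=
    Nat.exists_eq_succ_of_ne_zero (by positivity)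
  have hq2 : q + 1 < 2 ^ D.e (K + 1) := by rw [he, pow_succ]; omega
  have hTc : T ⁻¹' Aᶜ = Aᶜ := by rw [preimage_compl, hT]
  set Z := M.ergCell (K + 1) q (s' + D.b K 0) with hZ
  have h1 : μ.real Z = 1 / (2 * 2 ^ D.e (K + 1)) := morseErg_cell_law M _ _ _ (by omega)
  have h2 : Z ⊆ M.ergCell K q s' := by
    have := morseErg_cell_sub M K q (s' + D.b K 0)
    rwa [Nat.mod_eq_of_lt (by omega), Nat.div_eq_of_lt (by omega), add_sub_cancel_right] at this
  have h3 : M.ergCell (K + 1) (q + 1) (s' + D.b K 0) ⊆ M.ergCell K 0 s := by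
    have := morseErg_cell_sub M K (q + 1) (s' + D.b K 0)
    have h4 : ∀ a a' c c' : ZMod 2, a ≠ a' → c ≠ c' → a' + c - c' = a := by decide
    rwa [← hq, Nat.mod_self, Nat.div_self (by positivity), h4 s s' _ _ hs hb, hq] at this
  have h5 : μ.real (A ∩ Z) ≤ μ.real (A ∩ M.ergCell K 0 s) := by
    rw [hZ, ← morseErg_shift M hA hT (K + 1) q _ hq2]
    exact measureReal_mono (inter_subset_inter_right _ h3)
  have h6 : μ.real (Aᶜ ∩ Z) ≤ μ.real (Aᶜ ∩ M.ergCell K 0 s') := by
    rw [← morseErg_indep M hA.compl hTc K s' q (by omega)]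
    exact measureReal_mono (inter_subset_inter_right _ h2)
  have h7 : μ.real Z ≤ μ.real (A ∩ Z) + μ.real (Aᶜ ∩ Z) := by
    refine le_trans (le_of_eq ?_) (measureReal_union_le _ _)
    rw [← union_inter_distrib_right, union_compl_self, univ_inter]
  have h8 : (1 / 4 : ℝ) = 2 ^ D.e K * μ.real Z := by
    rw [h1, he, pow_succ]
    field_simp
    norm_num
  rw [h8, ← mul_add]
  exact mul_le_mul_of_nonneg_left (by linarith) (by positivity)

theorem morseErg_dich (M : MorseSys D μ T) {A : Set X} (hA : MeasurableSet A)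
    (hT : T ⁻¹' A = A) {K : ℕ} {bad : Set X}
    (h : ∀ x ∉ bad, ∀ y ∉ bad, M.pos K x = M.pos K y → M.sym x = M.sym y → (x ∈ A) = (y ∈ A))
    (s : ZMod 2) : 2 ^ D.e K * μ.real (A ∩ M.ergCell K 0 s) ≤ μ.real bad ∨
      2 ^ D.e K * μ.real (Aᶜ ∩ M.ergCell K 0 s) ≤ μ.real bad := by
  have hTc : T ⁻¹' Aᶜ = Aᶜ := by rw [preimage_compl, hT]
  have hfin : FinRV (M.pos K) := FinRV.of_measurable (M.meas_pos K)
    ((finite_lt_nat (2 ^ D.e K)).subset (by rintro _ ⟨x, rfl⟩; exact M.pos_lt K x))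
  have h1 : ∀ p ∈ Finset.range (2 ^ D.e K),
      min (μ.real (A ∩ M.ergCell K 0 s)) (μ.real (Aᶜ ∩ M.ergCell K 0 s)) ≤
        μ.real (bad ∩ M.pos K ⁻¹' {p}) := by
    intro p hp
    rw [← morseErg_indep M hA hT K s p (Finset.mem_range.1 hp),
      ← morseErg_indep M hA.compl hTc K s p (Finset.mem_range.1 hp)]
    by_cases hc : A ∩ M.ergCell K p s ⊆ bad
    · exact (min_le_left _ _).trans (measureReal_mono fun x hx => ⟨hc hx, hx.2.1⟩)
    · obtain ⟨x, hx, hxb⟩ := not_subset.1 hc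
      refine (min_le_right _ _).trans (measureReal_mono fun y hy => ⟨?_, hy.2.1⟩)
      by_contra hyb
      rw [morseErg_cell_eq] at hx hy
      have := h x hxb y hyb (hx.2.1.trans hy.2.1.symm) (hx.2.2.trans hy.2.2.symm)
      exact hy.1 (this ▸ hx.1)
  have h2 := (Finset.sum_le_sum h1).trans (hfin.sum_measure_le (ν := μ) bad _)
  rw [Finset.sum_const, Finset.card_range, nsmul_eq_mul] at h2
  push_cast at h2
  rcases min_choice (μ.real (A ∩ M.ergCell K 0 s)) (μ.real (Aᶜ ∩ M.ergCell K 0 s)) with e | e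
  · left; rwa [e] at h2
  · right; rwa [e] at h2

theorem morseErg_small (M : MorseSys D μ T) {A : Set X} (hA : MeasurableSet A)
    (hT : T ⁻¹' A = A) {ε : ℝ} (hε : 0 < ε) (hε' : ε ≤ 1 / 8) :
    μ.real A < 2 * ε ∨ μ.real Aᶜ < 2 * ε := by
  have hTc : T ⁻¹' Aᶜ = Aᶜ := by rw [preimage_compl, hT]
  obtain ⟨K₀, hK₀⟩ := M.approx Prop (fun x => x ∈ A) (FinRV.of_set hA) ε hε
  obtain ⟨K, hK, he, hb⟩ := D.flip K₀
  obtain ⟨bad, -, hbad, h⟩ := hK₀ K hK
  have u1 := morseErg_union M hA hT K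
  have u2 := morseErg_union M hA.compl hTc K
  have m1 := morseErg_mixed M hA hT he hb (s := 0) (s' := 1) (by decide)
  have m2 := morseErg_mixed M hA hT he hb (s := 1) (s' := 0) (by decide)
  rw [mul_add] at u1 u2
  rcases morseErg_dich M hA hT h 0 with d0 | d0 <;>
    rcases morseErg_dich M hA hT h 1 with d1 | d1
  · left; linarith
  · exfalso; linarith
  · exfalso; linarith
  · right; linarith

theorem MorseSys.noAtoms (M : MorseSys D μ T) : NullSingletonClass μ := by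
  refine ⟨fun x => ?_⟩
  rw [← measureReal_eq_zero_iff]
  refine le_antisymm (le_of_forall_pos_le_add fun ε hε => ?_) measureReal_nonneg
  obtain ⟨K, hK⟩ := exists_pow_lt_of_lt_one hε (by norm_num : (1 / 2 : ℝ) < 1)
  have h1 : μ.real {x} ≤ μ.real {y | M.pos K y = M.pos K x ∧ M.sym y = M.sym x} :=
    measureReal_mono (singleton_subset_iff.2 ⟨rfl, rfl⟩)
  rw [M.law K _ _ (M.pos_lt K x)] at h1
  have h2 : (2 : ℝ) ^ K ≤ 2 ^ D.e K := pow_le_pow_right₀ (by norm_num) (D.mono.id_le K)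
  have h3 : (1 : ℝ) / (2 * 2 ^ D.e K) ≤ (1 / 2) ^ K := by
    rw [div_pow, one_pow]
    refine one_div_le_one_div_of_le (by positivity) ?_
    have : (0 : ℝ) < 2 ^ D.e K := by positivity
    linarith
  linarith

theorem MorseSys.ergodic (M : MorseSys D μ T) : Ergodic T μ := by
  refine ⟨M.mp, ⟨fun A hA hT => ?_⟩⟩
  rw [Filter.eventuallyConst_set', ae_eq_empty, ae_eq_univ, ← measureReal_eq_zero_iff,
    ← measureReal_eq_zero_iff]
  by_contra hne
  rw [not_or] at hne
  have h1 : 0 < μ.real A := lt_of_le_of_ne measureReal_nonneg (Ne.symm hne.1)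
  have h2 : 0 < μ.real Aᶜ := lt_of_le_of_ne measureReal_nonneg (Ne.symm hne.2)
  have h3 := min_le_left (1 / 8 : ℝ) (min (μ.real A / 2) (μ.real Aᶜ / 2))
  have h4 := (min_le_right (1 / 8 : ℝ) (min (μ.real A / 2) (μ.real Aᶜ / 2))).trans
    (min_le_left _ _)
  have h5 := (min_le_right (1 / 8 : ℝ) (min (μ.real A / 2) (μ.real Aᶜ / 2))).trans
    (min_le_right _ _)
  rcases morseErg_small M hA hT (by positivity) h3 with h | h <;> linarith

theorem MorseSys.tower (M : MorseSys D μ T) (K : ℕ) :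
    HasTower μ T M.sym (2 ^ D.e K) (D.β K) := by
  refine ⟨M.pos K, M.ergCol K, M.meas_pos K, morseErg_col_meas M K, M.pos_lt K, ?_,
    ae_of_all _ fun z t ht => ?_⟩
  · intro p hp s
    have := morseErg_cell_law M K p s hp
    push_cast
    exact this
  · have h : ∀ t, M.pos K z + t < 2 ^ D.e K →
        M.pos K (T^[t] z) = M.pos K z + t ∧ M.ergCol K (T^[t] z) = M.ergCol K z := by
      intro t
      induction t with
      | zero => exact fun _ => ⟨rfl, rfl⟩
      | succ t ih =>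
        intro ht
        obtain ⟨h1, h2⟩ := ih (by omega)
        obtain ⟨h3, h4⟩ := morseErg_step M K (T^[t] z) (by omega)
        rw [Function.iterate_succ_apply']
        exact ⟨by omega, h4.trans h2⟩
    obtain ⟨h1, h2⟩ := h t ht
    rw [← h2, ← h1]
    unfold MorseSys.ergCol
    have h3 : ∀ a c : ZMod 2, a = a + c + c := by decide
    exact h3 _ _

end Vale.Agent.P109
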