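import Mathlib
import Vale.Agent.P109.Fano
import Vale.Agent.P109.Code
import Vale.Agent.P109.MorseErg

/-! Finite entropy, the rich Morse data, transfer along factor maps. -/

namespace Vale.Agent.P109

open MeasureTheory Set Metric Module
open scoped ENNReal

theorem morseEnt_block {D : MorseData} {X : Type} [MeasurableSpace X] {μ : Measure X}
    [IsProbabilityMeasure μ] {T : X → X} (M : MorseSys D μ T) {N : ℕ} {P : X → Fin N}
    (hP : Measurable P) : ∃ C : ℕ, ∀ n : ℕ, blockEntropy μ T P n ≤ 2 * n + C := by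
  obtain ⟨x₀⟩ := nonempty_of_isProbabilityMeasure μ
  have : Nonempty (Fin N) := ⟨P x₀⟩
  have hT := M.mp.measurable
  have fP : FinRV P := FinRV.of_measurable hP (toFinite _)
  have fs : FinRV M.sym := FinRV.of_measurable M.meas_sym (toFinite _)
  obtain ⟨ε, hε, hf⟩ := fano.{0, 0, 0} (Fin N) one_pos
  obtain ⟨K, hK⟩ := M.approx (Fin N) P fP ε hε
  obtain ⟨bad, hb, hb', h⟩ := hK K le_rfl
  obtain ⟨g, hg⟩ := exists_guess P (fun x => (M.pos K x, M.sym x)) bad fun x hx y hy e =>
    h x hx y hy (congrArg Prod.fst e) (congrArg Prod.snd e)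
  have fp : FinRV (M.pos K) := FinRV.of_measurable (M.meas_pos K)
    ((finite_Iio (2 ^ D.e K)).subset (by rintro _ ⟨x, rfl⟩; exact M.pos_lt K x))
  have hpos : ∀ t x y, M.pos K x = M.pos K y → M.pos K (T^[t] x) = M.pos K (T^[t] y) := by
    intro t x y e
    induction t with
    | zero => exact e
    | succ t ih => rw [Function.iterate_succ_apply', Function.iterate_succ_apply', M.pos_T,
        M.pos_T, ih]
  refine ⟨D.e K, fun n => ?_⟩
  have fD := fp.prod (fs.name hT 1 n)
  have fU := fP.name hT 1 n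
  have h1 := hf μ n (fun j z => P (T^[1 * j] z))
    (fun j z => g (M.pos K (T^[1 * j] z), M.sym (T^[1 * j] z)))
    (fun z => (M.pos K z, name T M.sym 1 n z)) (fun j => fP.precomp (hT.iterate _)) fD
    (fun j x y e => by
      have e1 := hpos (1 * j) x y (congrArg Prod.fst e)
      have e2 : M.sym (T^[1 * j] x) = M.sym (T^[1 * j] y) := congrFun (congrArg Prod.snd e) j
      dsimp only
      rw [e1, e2])
    (fun j => by
      rw [← (M.mp.iterate (1 * j)).measureReal_preimage hb.nullMeasurableSet] at hb'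
      refine le_trans (measureReal_mono ?_ (measure_ne_top _ _)) hb'.le
      intro z hz
      by_contra hn
      exact hz (hg _ hn))
  have h2 := Hc_le_add_log_card (ν := μ) fU (FinRV.const ()) fD
  have h3 := Hc_mono (ν := μ) fU ((FinRV.const ()).prod fD)
    (D := fun z => (M.pos K z, name T M.sym 1 n z)) fun x y e => congrArg Prod.snd e
  have h4 : (range fun z => (M.pos K z, name T M.sym 1 n z)).ncard ≤ 2 ^ (D.e K + n) := by
    have hsub : (range fun z => (M.pos K z, name T M.sym 1 n z)) ⊆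
        ↑(Finset.range (2 ^ D.e K) ×ˢ (Finset.univ : Finset (Fin n → ZMod 2))) := by
      rintro _ ⟨x, rfl⟩
      simpa using M.pos_lt K x
    refine (ncard_le_ncard hsub (Finset.finite_toSet _)).trans (le_of_eq ?_)
    rw [ncard_coe_finset]
    simp [pow_add]
  have h5 : Real.log (range fun z => (M.pos K z, name T M.sym 1 n z)).ncard ≤ D.e K + n := by
    have hp : 0 < (range fun z => (M.pos K z, name T M.sym 1 n z)).ncard :=
      (ncard_pos fD.1).2 ⟨_, x₀, rfl⟩
    refine (Real.log_le_log (by exact_mod_cast hp) (show _ ≤ (2 : ℝ) ^ (D.e K + n) by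
      exact_mod_cast h4)).trans ?_
    rw [Real.log_pow]
    push_cast
    exact mul_le_of_le_one_right (by positivity) (by linarith [Real.log_two_lt_d9])
  rw [blockEntropy_eq μ hT hP]
  have h6 : Hc μ (name T P 1 n) (fun z => (M.pos K z, name T M.sym 1 n z)) ≤ n * 1 := h1
  linarith

theorem MorseSys.entropy_lt_top {D : MorseData} {X : Type} [MeasurableSpace X] {μ : Measure X}
    [IsProbabilityMeasure μ] {T : X → X} (M : MorseSys D μ T) : ksEntropy μ T < ⊤ := by
  refine lt_of_le_of_lt (b := ENNReal.ofReal 3) ?_ ENNReal.ofReal_lt_top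
  refine iSup_le fun N => iSup_le fun P => iSup_le fun hP => ?_
  obtain ⟨C, hC⟩ := morseEnt_block M hP
  refine Filter.limsup_le_of_le (by isBoundedDefault) ?_
  filter_upwards [Filter.eventually_ge_atTop C] with n hn
  refine ENNReal.ofReal_le_ofReal (div_le_of_le_mul₀ (Nat.cast_nonneg _) (by norm_num) ?_)
  have : (C : ℝ) ≤ n := by exact_mod_cast hn
  linarith [hC n]

/-- The exponents of the rich data. -/
def morseEnt_e : ℕ → ℕ
  | 0 => 0
  | K + 1 => if Even K then morseEnt_e K + 1 else morseEnt_e K +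
      (3 + 10 * morseEnt_e K + (2 ^ morseEnt_e K) ^ 9 +
        nlev ((2 ^ morseEnt_e K) ^ 9) (2 ^ morseEnt_e K) ((2 ^ morseEnt_e K) ^ 9))

/-- The words of the rich data. -/
def morseEnt_β (b : ℕ → ℕ → ZMod 2) : ℕ → ℕ → ZMod 2
  | 0 => 0
  | K + 1 => fun p => morseEnt_β b K (p % 2 ^ morseEnt_e K) + b K (p / 2 ^ morseEnt_e K)

theorem exists_rich_data : ∃ D : MorseData, ∀ {X : Type} [MeasurableSpace X] (μ : Measure X)
    [IsProbabilityMeasure μ] (T : X → X) (M : MorseSys D μ T), Rich μ T M.sym := by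
  choose wd hwd using fun e : ℕ => word_exists ((2 ^ e) ^ 9) (2 ^ e) (by positivity) (by positivity)
  let b : ℕ → ℕ → ZMod 2 := fun K => if Even K then fun j => (j : ZMod 2) else wd (morseEnt_e K)
  have hm : StrictMono morseEnt_e := strictMono_nat_of_lt_succ fun K => by
    rw [morseEnt_e]
    split_ifs <;> omega
  refine ⟨⟨morseEnt_e, morseEnt_β b, b, hm, fun _ _ => rfl, fun K => ⟨2 * K, by omega, ?_, ?_⟩⟩,
    fun μ _ T M e₀ => ?_⟩
  · rw [morseEnt_e, if_pos (even_two_mul K)]
  · simp [b]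
  · have ho : ¬ Even (2 * e₀ + 1) := by simp
    refine ⟨morseEnt_e (2 * e₀ + 1), le_trans (by omega) hm.le_apply, morseEnt_β b (2 * e₀ + 1),
      wd _, hwd _, ?_⟩
    have h := M.tower (2 * e₀ + 1 + 1)
    dsimp only at h
    rw [morseEnt_e, morseEnt_β, if_neg ho] at h
    simp only [b, if_neg ho] at h
    generalize morseEnt_e (2 * e₀ + 1) = e at h ⊢
    have e1 : 2 ^ (3 + 10 * e + (2 ^ e) ^ 9) = nlev ((2 ^ e) ^ 9) (2 ^ e) ((2 ^ e) ^ 9) := by
      unfold nlev
      rw [pow_add, pow_add, mul_comm 10 e, pow_mul]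
      ring
    rwa [pow_add, pow_add 2 _ (nlev _ _ _), e1] at h

theorem HasTower.factor {Ω X : Type*} [MeasurableSpace Ω] [MeasurableSpace X] {ν : Measure Ω}
    {μ : Measure X} {S : Ω → Ω} {T : X → X} (hS : MeasurePreserving S ν ν) {G : Ω → X}
    (hG : MeasurePreserving G ν μ) (hc : ∀ᵐ z ∂ν, G (S z) = T (G z)) {sym : X → ZMod 2}
    {B : ℕ} {β : ℕ → ZMod 2} (h : HasTower μ T sym B β) :
    HasTower ν S (fun z => sym (G z)) B β := by
  obtain ⟨pos, col, h1, h2, h3, h4, h5⟩ := h
  have hit : ∀ᵐ z ∂ν, ∀ t, G (S^[t] z) = T^[t] (G z) := by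
    refine ae_all_iff.2 fun t => ?_
    induction t with
    | zero => exact Filter.Eventually.of_forall fun _ => rfl
    | succ t ih =>
      filter_upwards [ih, (hS.iterate t).quasiMeasurePreserving.ae hc] with z e1 e2
      rw [Function.iterate_succ_apply', Function.iterate_succ_apply', e2, e1]
  refine ⟨fun z => pos (G z), fun z => col (G z), h1.comp hG.measurable, h2.comp hG.measurable,
    fun z => h3 _, fun p hp s => ?_, ?_⟩
  · rw [← h4 p hp s]
    exact hG.measureReal_preimage (s := {z | pos z = p ∧ col z = s})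
      ((h1 (measurableSet_singleton p)).inter (h2 (measurableSet_singleton s))).nullMeasurableSet
  · filter_upwards [hit, hG.quasiMeasurePreserving.ae h5] with z e1 e2 t ht
    rw [e1, e2 t ht]

theorem Rich.factor {Ω X : Type*} [MeasurableSpace Ω] [MeasurableSpace X] {ν : Measure Ω}
    {μ : Measure X} {S : Ω → Ω} {T : X → X} (hS : MeasurePreserving S ν ν) {G : Ω → X}
    (hG : MeasurePreserving G ν μ) (hc : ∀ᵐ z ∂ν, G (S z) = T (G z)) {sym : X → ZMod 2}
    (h : Rich μ T sym) : Rich ν S (fun z => sym (G z)) := by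
  intro e₀
  obtain ⟨e, he, β₀, wd, h1, h2⟩ := h e₀
  exact ⟨e, he, β₀, wd, h1, h2.factor hS hG hc⟩

end Vale.Agent.P109
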