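import Mathlib
import Vale.Agent.P109.Defs

/-! The global chart: embedding and comparison of measures. -/

namespace Vale.Agent.P109

open MeasureTheory Set Metric Module
open scoped ENNReal

namespace Atlas
variable {d : ℕ} {M : Type*} [MeasurableSpace M] {ν : Measure M} {S : M → M} (𝒜 : Atlas d ν S)
  {lev : Fin 𝒜.n → ℝ}

theorem measurableSet_piece (i : Fin 𝒜.n) : MeasurableSet (𝒜.piece lev i) := by
  simp only [piece, ofPred_and, ofPred_forall]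
  exact (measurableSet_lt measurable_const (𝒜.meas_ψ i)).inter (MeasurableSet.iInter fun k =>
    MeasurableSet.iInter fun _ => measurableSet_le (𝒜.meas_ψ k) measurable_const)

theorem exists_piece (hlev : ∀ i, 0 < lev i ∧ lev i < 1) (z : M) : ∃ i, z ∈ 𝒜.piece lev i := by
  obtain ⟨i, hi, h⟩ := wellFounded_lt.has_min {i | lev i < 𝒜.ψ i z}
    ((𝒜.cover z).imp fun i hi => (hlev i).2.trans_le hi)
  exact ⟨i, hi, fun k hk => not_lt.1 fun l => h k l hk⟩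

theorem piece_unique {i j : Fin 𝒜.n} {z : M} (hi : z ∈ 𝒜.piece lev i) (hj : z ∈ 𝒜.piece lev j) :
    i = j := by
  rcases lt_trichotomy i j with h | h | h
  · exact absurd hi.1 (hj.2 i h).not_gt
  · exact h
  · exact absurd hj.1 (hi.2 j h).not_gt

theorem Θ_eq {i : Fin 𝒜.n} {z : M} (hi : z ∈ 𝒜.piece lev i) : 𝒜.Θ lev z = 𝒜.φ i z := by
  rw [Θ, Finset.sum_eq_single i (fun j _ h => if_neg fun hj => h (𝒜.piece_unique hj hi))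
    (by simp), if_pos hi]

theorem piece_inv (hlev : ∀ i, 0 < lev i ∧ lev i < 1) {i : Fin 𝒜.n} {z : M}
    (hi : z ∈ 𝒜.piece lev i) : 𝒜.φ i z ∈ 𝒜.K i ∧ 𝒜.φi i (𝒜.φ i z) = z := by
  obtain ⟨y, hy, rfl⟩ := 𝒜.supp i z ((hlev i).1.trans hi.1)
  rw [𝒜.right_inv i y hy]
  exact ⟨hy, rfl⟩

theorem pwa_meas : Measurable (𝒜.Θ lev) :=
  Finset.measurable_sum _ fun i _ =>
    Measurable.ite (𝒜.measurableSet_piece i) (𝒜.meas_φ i) measurable_const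

theorem pwa_image (hlev : ∀ i, 0 < lev i ∧ lev i < 1) (s : Set M) :
    𝒜.Θ lev '' s = ⋃ i, 𝒜.K i ∩ 𝒜.φi i ⁻¹' (s ∩ 𝒜.piece lev i) := by
  ext y
  simp only [mem_iUnion]
  constructor
  · rintro ⟨z, hz, rfl⟩
    obtain ⟨i, hi⟩ := 𝒜.exists_piece hlev z
    obtain ⟨h1, h2⟩ := 𝒜.piece_inv hlev hi
    exact ⟨i, by rw [𝒜.Θ_eq hi]; exact ⟨h1, by rw [mem_preimage, h2]; exact ⟨hz, hi⟩⟩⟩
  · rintro ⟨i, h1, h2, h3⟩
    exact ⟨_, h2, (𝒜.Θ_eq h3).trans (𝒜.right_inv i y h1)⟩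

theorem emb (hlev : ∀ i, 0 < lev i ∧ lev i < 1)
    (hd : Pairwise fun i j => Disjoint (𝒜.K i) (𝒜.K j)) : MeasurableEmbedding (𝒜.Θ lev) := by
  refine ⟨fun z z' h => ?_, 𝒜.pwa_meas, fun s hs => ?_⟩
  · obtain ⟨i, hi⟩ := 𝒜.exists_piece hlev z
    obtain ⟨j, hj⟩ := 𝒜.exists_piece hlev z'
    rw [𝒜.Θ_eq hi, 𝒜.Θ_eq hj] at h
    obtain ⟨h1, h2⟩ := 𝒜.piece_inv hlev hi
    obtain ⟨h3, h4⟩ := 𝒜.piece_inv hlev hj
    obtain rfl : i = j := by_contra fun k => disjoint_left.1 (hd k) h1 (h ▸ h3)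
    rw [← h2, h, h4]
  · rw [𝒜.pwa_image hlev]
    exact MeasurableSet.iUnion fun i => (𝒜.K_cpt i).measurableSet.inter
      (𝒜.meas_φi i (hs.inter (𝒜.measurableSet_piece i)))

theorem semi (hlev : ∀ i, 0 < lev i ∧ lev i < 1)
    (hd : Pairwise fun i j => Disjoint (𝒜.K i) (𝒜.K j)) (z : M) :
    𝒜.f lev (𝒜.Θ lev z) = 𝒜.Θ lev (S z) := (𝒜.emb hlev hd).injective.extend_apply _ _ z

theorem bdd (hlev : ∀ i, 0 < lev i ∧ lev i < 1) : ∃ L : ℝ, ∀ z, ‖𝒜.Θ lev z‖ ≤ L := by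
  obtain ⟨L, hL⟩ := (isCompact_iUnion 𝒜.K_cpt).isBounded.exists_norm_le
  refine ⟨L, fun z => hL _ ?_⟩
  obtain ⟨i, hi⟩ := 𝒜.exists_piece hlev z
  exact mem_iUnion.2 ⟨i, 𝒜.Θ_eq hi ▸ (𝒜.piece_inv hlev hi).1⟩

theorem pwa_sum (a : ℝ≥0∞) :
    ∑ _i : Fin 𝒜.n, ENNReal.ofReal 𝒜.C * a = ENNReal.ofReal (𝒜.n * 𝒜.C) * a := by
  simp [ENNReal.ofReal_mul, mul_assoc]

theorem le_vol' (hlev : ∀ i, 0 < lev i ∧ lev i < 1) (t : Set (Eu d)) :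
    ν (𝒜.Θ lev ⁻¹' t) ≤ ENNReal.ofReal (𝒜.n * 𝒜.C) * volume t := by
  rw [← measure_toMeasurable t, ← 𝒜.pwa_sum]
  refine (measure_mono fun z hz => ?_).trans ((measure_iUnion_fintype_le ν fun i =>
    𝒜.φi i '' (toMeasurable volume t ∩ 𝒜.K i)).trans (Finset.sum_le_sum fun i _ =>
      (𝒜.le_vol i _ ((measurableSet_toMeasurable _ _).inter (𝒜.K_cpt i).measurableSet)
        inter_subset_right).trans (mul_le_mul_right (measure_mono inter_subset_left) _)))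
  obtain ⟨i, hi⟩ := 𝒜.exists_piece hlev z
  obtain ⟨h1, h2⟩ := 𝒜.piece_inv hlev hi
  exact mem_iUnion.2 ⟨i, _, ⟨subset_toMeasurable _ _ (𝒜.Θ_eq hi ▸ hz), h1⟩, h2⟩

theorem vol_le' (hlev : ∀ i, 0 < lev i ∧ lev i < 1)
    (hd : Pairwise fun i j => Disjoint (𝒜.K i) (𝒜.K j)) (t : Set (Eu d))
    (ht : t ⊆ range (𝒜.Θ lev)) :
    volume t ≤ ENNReal.ofReal (𝒜.n * 𝒜.C) * ν (𝒜.Θ lev ⁻¹' t) := by
  have _ := hd
  rw [← measure_toMeasurable (𝒜.Θ lev ⁻¹' t), ← 𝒜.pwa_sum]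
  refine (measure_mono ?_).trans ((measure_iUnion_fintype_le volume fun i =>
    𝒜.K i ∩ 𝒜.φi i ⁻¹' (toMeasurable ν (𝒜.Θ lev ⁻¹' t) ∩ 𝒜.piece lev i)).trans
      (Finset.sum_le_sum fun i _ => (𝒜.vol_le i _ ((𝒜.K_cpt i).measurableSet.inter (𝒜.meas_φi i
        ((measurableSet_toMeasurable _ _).inter (𝒜.measurableSet_piece i))))
          inter_subset_left).trans (mul_le_mul_right (measure_mono
            (image_subset_iff.2 fun _ h => h.2.1)) _)))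
  rw [← 𝒜.pwa_image hlev]
  exact (image_preimage_eq_of_subset ht).symm.subset.trans (image_mono (subset_toMeasurable _ _))

theorem good_sub {σ : ℝ} {z : M} (hz : z ∈ 𝒜.Good lev σ) :
    ball (𝒜.Θ lev z) σ ⊆ range (𝒜.Θ lev) := by
  obtain ⟨i, j, hi, h⟩ := hz
  rw [𝒜.Θ_eq hi]
  intro y hy
  obtain ⟨z', hz', rfl⟩ := h hy
  exact ⟨z', 𝒜.Θ_eq hz'.1⟩

/-- On a good ball the global map is a local representative. -/
theorem good_eq (hlev : ∀ i, 0 < lev i ∧ lev i < 1)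
    (hd : Pairwise fun i j => Disjoint (𝒜.K i) (𝒜.K j)) {σ : ℝ} {z : M}
    (hz : z ∈ 𝒜.Good lev σ) : ∃ i j, ball (𝒜.Θ lev z) σ ⊆ 𝒜.K i ∧
      (∀ y ∈ ball (𝒜.Θ lev z) σ, S (𝒜.φi i y) ∈ 𝒜.φi j '' 𝒜.K j) ∧
      ∀ y ∈ ball (𝒜.Θ lev z) σ, 𝒜.f lev y = (𝒜.φ j ∘ S ∘ 𝒜.φi i) y := by
  obtain ⟨i, j, hi, h⟩ := hz
  rw [𝒜.Θ_eq hi]
  refine ⟨i, j, fun y hy => ?_, fun y hy => ?_, fun y hy => ?_⟩ <;> obtain ⟨z', hz', rfl⟩ := h hy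
  · exact (𝒜.piece_inv hlev hz'.1).1
  · rw [(𝒜.piece_inv hlev hz'.1).2]
    exact ⟨_, 𝒜.piece_inv hlev hz'.2⟩
  · rw [Function.comp_apply, Function.comp_apply, (𝒜.piece_inv hlev hz'.1).2, ← 𝒜.Θ_eq hz'.1,
      𝒜.semi hlev hd, 𝒜.Θ_eq hz'.2]

end Atlas

end Vale.Agent.P109
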