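import Mathlib
import Vale.Agent.P109.PWa
import Vale.Agent.P109.Vol

/-! The good sets have large measure. -/

namespace Vale.Agent.P109

open MeasureTheory Set Metric Module
open scoped ENNReal

theorem Atlas.good_prob {d : ℕ} {M : Type*} [MeasurableSpace M] {ν : Measure M}
    [IsProbabilityMeasure ν] {S : M → M} (𝒜 : Atlas d ν S) (hS : MeasurePreserving S ν ν)
    {lev : Fin 𝒜.n → ℝ} (hlev : ∀ i, 0 < lev i ∧ lev i < 1) {C₁ : ℝ} (hC₁ : 0 ≤ C₁)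
    (hl : ∀ i s, 0 < s → ν.real {z | |𝒜.ψ i z - lev i| ≤ s} ≤ C₁ * √s) :
    ∃ L : ℝ, ∀ σ, 0 < σ → ν.real (𝒜.Good lev σ)ᶜ ≤ L * √σ := by
  choose c c0 hc using fun i => convex_layer (𝒜.K_cpt i) (𝒜.K_cvx i) (𝒜.K_int i)
  have C0 : 0 < 𝒜.C := one_pos.trans_le 𝒜.one_le
  have key : ∀ {i z z' r}, z ∈ 𝒜.piece lev i → (∀ k, |𝒜.ψ k z' - 𝒜.ψ k z| ≤ r) →
      (∀ k, r < |𝒜.ψ k z - lev k|) → z' ∈ 𝒜.piece lev i := fun {i z z' r} hz h1 h2 => by
    refine ⟨?_, fun k hk => ?_⟩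
    · have := h2 i
      rw [abs_of_pos (sub_pos.2 hz.1)] at this
      linarith [(abs_le.1 (h1 i)).1]
    · have := h2 k
      rw [abs_of_nonpos (sub_nonpos.2 (hz.2 k hk))] at this
      linarith [(abs_le.1 (h1 k)).2]
  have L0 : 0 ≤ ∑ i, (𝒜.C * c i + 2 * (C₁ * √𝒜.C)) :=
    Finset.sum_nonneg fun i _ => by have := c0 i; positivity
  refine ⟨1 + ∑ i, (𝒜.C * c i + 2 * (C₁ * √𝒜.C)), fun σ hσ => ?_⟩
  have s0 := Real.sqrt_nonneg σ
  rcases le_total 1 σ with k | k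
  · have := Real.one_le_sqrt.2 k
    exact measureReal_le_one.trans (by nlinarith)
  let B := fun i => {z | |𝒜.ψ i z - lev i| ≤ 𝒜.C * σ}
  have sub : (𝒜.Good lev σ)ᶜ ⊆ ⋃ i, (𝒜.φi i '' {y ∈ 𝒜.K i | ¬ ball y σ ⊆ 𝒜.K i} ∪
      (B i ∪ S ⁻¹' B i)) := fun z hz => by
    by_contra h
    simp only [mem_iUnion, mem_union, not_exists, not_or] at h
    obtain ⟨i, hi⟩ := 𝒜.exists_piece hlev z
    obtain ⟨j, hj⟩ := 𝒜.exists_piece hlev (S z)
    obtain ⟨h1, h2⟩ := 𝒜.piece_inv hlev hi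
    have h3 : ball (𝒜.φ i z) σ ⊆ 𝒜.K i := by_contra fun l => (h i).1 ⟨_, ⟨h1, l⟩, h2⟩
    refine hz ⟨i, j, hi, fun y hy => ⟨𝒜.φi i y, ?_, 𝒜.right_inv i y (h3 hy)⟩⟩
    have h4 := fun k => 𝒜.lip i k y (h3 hy) _ h1
    have h5 := mul_le_mul_of_nonneg_left (mem_ball_iff_norm.1 hy).le C0.le
    rw [h2] at h4
    exact ⟨key hi (fun k => (h4 k).1.trans h5) fun k => not_le.1 (h k).2.1,
      key hj (fun k => (h4 k).2.trans h5) fun k => not_le.1 (h k).2.2⟩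
  refine (measureReal_mono sub).trans ((measureReal_iUnion_fintype_le _).trans ?_)
  rw [add_mul, Finset.sum_mul]
  refine le_add_of_nonneg_of_le (by positivity) (Finset.sum_le_sum fun i _ => ?_)
  have h1 : ν.real (B i) ≤ C₁ * √𝒜.C * √σ := by
    rw [mul_assoc, ← Real.sqrt_mul C0.le]
    exact hl i _ (by positivity)
  have h2 : ν.real (S ⁻¹' B i) = ν.real (B i) := hS.measureReal_preimage (measurableSet_le
    ((𝒜.meas_ψ i).sub_const _).abs measurable_const).nullMeasurableSet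
  have h3 : ν.real (𝒜.φi i '' {y ∈ 𝒜.K i | ¬ ball y σ ⊆ 𝒜.K i}) ≤ 𝒜.C * (c i * σ) := by
    refine ENNReal.toReal_le_of_le_ofReal (by have := c0 i; positivity) ?_
    rw [ENNReal.ofReal_mul C0.le]
    refine (measure_mono (image_mono fun y hy => ?_)).trans ((𝒜.le_vol i _
      ((measurableSet_toMeasurable volume {y ∈ 𝒜.K i | ¬ ball y σ ⊆ 𝒜.K i}).inter
        (𝒜.K_cpt i).measurableSet) inter_subset_right).trans (mul_le_mul_right
          ((measure_mono inter_subset_left).trans ((measure_toMeasurable _).trans_le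
            (hc i σ hσ))) _))
    exact ⟨subset_toMeasurable _ _ hy, hy.1⟩
  have h4 : σ ≤ √σ := Real.le_sqrt_of_sq_le (by nlinarith)
  have h5 := mul_le_mul_of_nonneg_left h4 (mul_nonneg C0.le (c0 i))
  have h6 := measureReal_union_le (μ := ν) (B i) (S ⁻¹' B i)
  refine (measureReal_union_le _ _).trans ?_
  nlinarith

end Vale.Agent.P109
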