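import Mathlib
import Vale.Agent.P109.PWb
import Vale.Agent.P109.AtlasEx

/-! The piecewise smooth model attached to an atlas. -/

namespace Vale.Agent.P109

open MeasureTheory Set Metric Module
open scoped ENNReal

variable {d : ℕ}

/-- A measurable, bounded, invertible version of the derivative. -/
theorem exists_deriv (f : Eu d → Eu d) {C : ℝ} (hC : 1 ≤ C) :
    ∃ A : Eu d → Eu d ≃L[ℝ] Eu d, (Measurable fun y => (A y : Eu d →L[ℝ] Eu d)) ∧
      (∀ y v, ‖A y v‖ ≤ C * ‖v‖ ∧ ‖v‖ ≤ C * ‖A y v‖) ∧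
      ∀ y, (∀ v, ‖fderiv ℝ f y v‖ ≤ C * ‖v‖ ∧ ‖v‖ ≤ C * ‖fderiv ℝ f y v‖) →
        (A y : Eu d →L[ℝ] Eu d) = fderiv ℝ f y := by
  classical
  let P : Set (Eu d →L[ℝ] Eu d) := {B | ∀ v, ‖B v‖ ≤ C * ‖v‖ ∧ ‖v‖ ≤ C * ‖B v‖}
  have hP : IsClosed P := by
    simp only [P, ofPred_forall, ofPred_and]
    exact isClosed_iInter fun v => (isClosed_le (by fun_prop) (by fun_prop)).inter
      (isClosed_le (by fun_prop) (by fun_prop))
  let B : Eu d → Eu d →L[ℝ] Eu d := (fderiv ℝ f ⁻¹' P).piecewise (fderiv ℝ f) fun _ => 1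
  have hB : ∀ y, B y ∈ P := fun y => by
    by_cases h : y ∈ fderiv ℝ f ⁻¹' P
    · rwa [show B y = _ from piecewise_eq_of_mem _ _ _ h]
    · rw [show B y = _ from piecewise_eq_of_notMem _ _ _ h]
      exact fun v => ⟨le_mul_of_one_le_left (norm_nonneg _) hC,
        le_mul_of_one_le_left (norm_nonneg _) hC⟩
  have hi : ∀ y, Function.Injective (B y).toLinearMap := fun y =>
    (injective_iff_map_eq_zero _).2 fun v hv => norm_le_zero_iff.1 (by
      simpa [show B y v = 0 from hv] using (hB y v).2)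
  have e : ∀ y, ((LinearEquiv.ofInjectiveEndo _ (hi y)).toContinuousLinearEquiv :
    Eu d →L[ℝ] Eu d) = B y := fun y => ContinuousLinearMap.ext fun _ => rfl
  refine ⟨fun y => (LinearEquiv.ofInjectiveEndo _ (hi y)).toContinuousLinearEquiv, ?_,
    fun y v => hB y v, fun y hy => (e y).trans (piecewise_eq_of_mem _ _ _ hy)⟩
  simp only [e]
  exact (measurable_fderiv ℝ f).piecewise (measurable_fderiv ℝ f hP.measurableSet)
    measurable_const

theorem Atlas.pw {M : Type*} [MeasurableSpace M] {ν : Measure M} [IsProbabilityMeasure ν]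
    {S : M → M} (𝒜 : Atlas d ν S) (hS : MeasurePreserving S ν ν) (hd : d ≠ 0) :
    Nonempty (PW d ν S) := by
  obtain ⟨𝒜, hK⟩ := 𝒜.sep hd
  choose lev l0 l1 c c0 hc using fun i => exists_level ν (𝒜.meas_ψ i)
  have hlev := fun i => And.intro (l0 i) (l1 i)
  obtain ⟨L1, h1⟩ := 𝒜.good_prob hS hlev (Finset.sum_nonneg fun i _ => c0 i) fun i s hs =>
    (hc i s hs).trans (mul_le_mul_of_nonneg_right
      (Finset.single_le_sum (fun i _ => c0 i) (Finset.mem_univ i)) (Real.sqrt_nonneg s))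
  obtain ⟨L2, h2⟩ := 𝒜.bdd hlev
  obtain ⟨A, hA, hA1, hA2⟩ := exists_deriv (𝒜.f lev) 𝒜.one_le
  have C0 : 0 ≤ 𝒜.C := zero_le_one.trans 𝒜.one_le
  have key : ∀ σ, ∀ z ∈ 𝒜.Good lev σ, ∀ y ∈ ball (𝒜.Θ lev z) σ,
      HasFDerivAt (𝒜.f lev) (A y : Eu d →L[ℝ] Eu d) y ∧ ∀ y' ∈ ball (𝒜.Θ lev z) σ,
        ‖(A y : Eu d →L[ℝ] Eu d) - A y'‖ ≤ 𝒜.C * ‖y - y'‖ := fun σ z hz => by
    obtain ⟨i, j, k1, k2, k3⟩ := 𝒜.good_eq hlev hK hz
    have ev : ∀ y ∈ ball (𝒜.Θ lev z) σ, 𝒜.f lev =ᶠ[nhds y] 𝒜.φ j ∘ S ∘ 𝒜.φi i := fun y hy =>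
      Filter.mem_of_superset (isOpen_ball.mem_nhds hy) k3
    have k4 := 𝒜.loc i j _ σ k1 k2
    have k5 : ∀ y ∈ ball (𝒜.Θ lev z) σ, (A y : Eu d →L[ℝ] Eu d) =
        fderiv ℝ (𝒜.φ j ∘ S ∘ 𝒜.φi i) y := fun y hy =>
      (hA2 y (by rw [(ev y hy).fderiv_eq]; exact (k4 y hy).2.1)).trans (ev y hy).fderiv_eq
    intro y hy
    rw [k5 y hy]
    exact ⟨(k4 y hy).1.hasFDerivAt.congr_of_eventuallyEq (ev y hy),
      fun y' hy' => by rw [k5 y' hy']; exact (k4 y hy).2.2 y' hy'⟩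
  obtain ⟨L, hL, hL0, hL1, hL2⟩ : ∃ L, 𝒜.C ≤ L ∧ 𝒜.n * 𝒜.C ≤ L ∧ L1 ≤ L ∧ L2 ≤ L :=
    ⟨max (max 𝒜.C (𝒜.n * 𝒜.C)) (max L1 L2), by simp⟩
  have key' : ∀ σ, ∀ z ∈ 𝒜.Good lev σ, ∀ y ∈ ball (𝒜.Θ lev z) σ,
      ‖(A y : Eu d →L[ℝ] Eu d) - A (𝒜.Θ lev z)‖ ≤ L * σ := fun σ z hz y hy =>
    ((key σ z hz y hy).2 _ (mem_ball_self (pos_of_mem_ball hy))).trans
      (mul_le_mul hL (mem_ball_iff_norm.1 hy).le (norm_nonneg _) (C0.trans hL))
  have m := fun (a : ℝ) (ha : 0 ≤ a) => mul_le_mul_of_nonneg_right hL ha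
  exact ⟨{  Θ := 𝒜.Θ lev
            f := 𝒜.f lev
            A := fun z => A (𝒜.Θ lev z)
            L := L
            Good := 𝒜.Good lev
            one_le := 𝒜.one_le.trans hL
            emb := 𝒜.emb hlev hK
            semi := 𝒜.semi hlev hK
            bdd := fun z => (h2 z).trans hL2
            le_vol := fun t => (𝒜.le_vol' hlev t).trans
              (mul_le_mul_left (ENNReal.ofReal_le_ofReal hL0) _)
            vol_le := fun t ht => (𝒜.vol_le' hlev hK t ht).trans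
              (mul_le_mul_left (ENNReal.ofReal_le_ofReal hL0) _)
            A_meas := hA.comp (𝒜.emb hlev hK).measurable
            A_le := fun z v => (hA1 _ v).1.trans (m _ (norm_nonneg _))
            A_ge := fun z v => (hA1 _ v).2.trans (m _ (norm_nonneg _))
            good_prob := fun σ hσ => (h1 σ hσ).trans
              (mul_le_mul_of_nonneg_right hL1 (Real.sqrt_nonneg _))
            good_sub := fun σ z hz => 𝒜.good_sub hz
            good_lin := fun σ z hz y hy y' hy' =>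
              (convex_ball _ σ).norm_image_sub_le_of_norm_hasFDerivWithin_le'
                (f' := fun w => (A w : Eu d →L[ℝ] Eu d)) (φ := (A (𝒜.Θ lev z) : Eu d →L[ℝ] Eu d))
                (fun w hw => (key σ z hz w hw).1.hasFDerivWithinAt) (key' σ z hz) hy' hy
            good_A := fun σ z hz z' hz' v => by
              rw [norm_sub_rev]
              exact ContinuousLinearMap.le_of_opNorm_le _ (key' σ z hz _ hz') v }⟩

end Vale.Agent.P109
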