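import Mathlib
import Vale.Agent.P109.Main
import Vale.Agent.P109.Morse
import Vale.Agent.P109.MorseEnt
import Vale.Agent.P109.IsoUnit
import Vale.Agent.P109.PWc

/-! The counterexample. -/

namespace Vale.Agent.P109

open MeasureTheory Set Metric Module
open scoped ENNReal

theorem Atlas.atom {M : Type*} [MeasurableSpace M] [Nonempty M] {ν : Measure M} {S : M → M}
    (𝒜 : Atlas 0 ν S) : ∃ z : M, ν {z} ≠ 0 := by
  obtain ⟨z⟩ := (inferInstance : Nonempty M)
  obtain ⟨i, -⟩ := 𝒜.cover z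
  obtain ⟨y, hy⟩ := 𝒜.K_int i
  have hyK : y ∈ 𝒜.K i := interior_subset hy
  refine ⟨𝒜.φi i y, fun h0 => ?_⟩
  have h1 := 𝒜.vol_le i {y} (measurableSet_singleton y) (singleton_subset_iff.2 hyK)
  rw [image_singleton, h0, mul_zero] at h1
  have h2 : ({y} : Set (Eu 0)) = univ := by
    ext w
    simp only [mem_singleton_iff, mem_univ, iff_true]
    exact Subsingleton.elim _ _
  rw [h2] at h1
  exact (isOpen_univ.measure_pos (volume : Measure (Eu 0)) univ_nonempty).not_ge h1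

theorem not_smooth_of_rich {X : Type} [MeasurableSpace X] [MeasurableSingletonClass X]
    {μ : Measure X} (hμ : ∀ x, μ {x} = 0) {T : X → X}
    {sym : X → ZMod 2} (hsym : Measurable sym) (hR : Rich μ T sym) : ¬ HasSmoothModel μ T := by
  rintro ⟨d, H, _, I, M, _, _, _, _, _, _, _, ν, _, S, hν, hS, X₀, M₀, F, G, hX₀, hM₀, hTX, hSM,
    hbij, hinv, hF, hG, hmap, hc⟩
  have hne : Nonempty M := nonempty_of_isProbabilityMeasure ν
  have hX : ∀ᵐ x ∂μ, x ∈ X₀ := hX₀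
  have hM : ∀ᵐ y ∂ν, y ∈ M₀ := hM₀
  have hmapG : ν.map G = μ := by
    rw [← hmap, AEMeasurable.map_map_of_aemeasurable (hmap ▸ hG) hF]
    have : G ∘ F =ᵐ[μ] id := hX.mono fun x hx => hinv.1 hx
    rw [Measure.map_congr this, Measure.map_id]
  set G' := hG.mk G with hG'
  have hGG : G =ᵐ[ν] G' := hG.ae_eq_mk
  have hG'mp : MeasurePreserving G' ν μ :=
    ⟨hG.measurable_mk, by rw [← Measure.map_congr hGG, hmapG]⟩
  have hcomm : ∀ᵐ z ∂ν, G' (S z) = T (G' z) := by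
    have h1 : ∀ᵐ z ∂ν, G (S z) = G' (S z) := hS.quasiMeasurePreserving.ae hGG
    filter_upwards [hM, hGG, h1] with z hz h2 h3
    rw [← h3, ← h2]
    obtain ⟨x, hx, rfl⟩ := hbij.surjOn hz
    have hTx : T x ∈ X₀ := hTX ▸ mem_image_of_mem T hx
    rw [← hc x hx, hinv.1 hTx, hinv.1 hx]
  obtain ⟨𝒜⟩ := atlas_exists hν S
  rcases eq_or_ne d 0 with rfl | hd
  · obtain ⟨z, hz⟩ := 𝒜.atom
    apply hz
    refine le_antisymm ?_ bot_le
    calc ν {z} ≤ ν (G' ⁻¹' {G' z}) := measure_mono (by simp)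
      _ = μ {G' z} := hG'mp.measure_preimage (measurableSet_singleton _).nullMeasurableSet
      _ = 0 := hμ _
  · obtain ⟨P⟩ := 𝒜.pw hS hd
    exact P.not_rich hS (hsym.comp hG'mp.measurable) (hR.factor hS hG'mp hcomm)

theorem final : ∃ (X : Type) (_ : MeasurableSpace X) (_ : StandardBorelSpace X) (μ : Measure X)
    (_ : IsProbabilityMeasure μ) (T : X ≃ᵐ X), (∀ x, μ {x} = 0) ∧
    IsoUnitInterval μ ∧ Ergodic T μ ∧ ksEntropy μ T < ⊤ ∧ ¬ HasSmoothModel μ T := by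
  obtain ⟨D, hD⟩ := exists_rich_data
  obtain ⟨X, _, _, μ, _, T, ⟨M⟩⟩ := morse_exists D
  have := M.noAtoms
  have h0 : ∀ x, μ {x} = 0 := fun x => measure_singleton x
  exact ⟨X, inferInstance, inferInstance, μ, inferInstance, T, h0, isoUnitInterval μ, M.ergodic,
    M.entropy_lt_top, not_smooth_of_rich h0 M.meas_sym (hD μ T M)⟩

end Vale.Agent.P109
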