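import Mathlib

/-! Definitions used in the statement: entropy, standard spaces, smooth positive-volume models. -/

namespace Vale.Agent.P109

open MeasureTheory Filter Set
open scoped ENNReal Manifold ContDiff

/-- Shannon entropy of the join of the first n pullbacks of the finite partition given by P. -/
noncomputable def blockEntropy {X : Type} [MeasurableSpace X] (μ : Measure X) (T : X → X) {N : ℕ}
    (P : X → Fin N) (n : ℕ) : ℝ :=
  ∑ w : Fin n → Fin N, Real.negMulLog (μ.real {x | ∀ i : Fin n, P (T^[i] x) = w i})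

/-- Kolmogorov-Sinai entropy: supremum over finite measurable partitions of the entropy rate. -/
noncomputable def ksEntropy {X : Type} [MeasurableSpace X] (μ : Measure X) (T : X → X) : ℝ≥0∞ :=
  ⨆ (N : ℕ) (P : X → Fin N) (_ : Measurable P),
    limsup (fun n : ℕ => ENNReal.ofReal (blockEntropy μ T P n / n)) atTop

/-- The measure space is isomorphic modulo null sets to the unit interval with Lebesgue measure. -/
def IsoUnitInterval {X : Type} [MeasurableSpace X] (μ : Measure X) : Prop :=
  ∃ (X₀ : Set X) (I₀ : Set unitInterval) (F : X → unitInterval) (G : unitInterval → X),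
    MeasurableSet X₀ ∧ MeasurableSet I₀ ∧ μ X₀ᶜ = 0 ∧ volume I₀ᶜ = 0 ∧
    BijOn F X₀ I₀ ∧ InvOn G F X₀ I₀ ∧ Measurable F ∧ Measurable G ∧ μ.map F = volume

/-- In local coordinates around every point the measure has a smooth (up to the boundary),
strictly positive density with respect to Lebesgue measure. -/
def HasSmoothPositiveDensity {d : ℕ} {H : Type} [TopologicalSpace H]
    (I : ModelWithCorners ℝ (EuclideanSpace ℝ (Fin d)) H) (M : Type) [TopologicalSpace M]
    [ChartedSpace H M] [MeasurableSpace M] (ν : Measure M) : Prop :=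
  ∀ x : M, ∃ e ∈ IsManifold.maximalAtlas I ∞ M, x ∈ e.source ∧
    ∃ g : EuclideanSpace ℝ (Fin d) → ℝ, ContDiffOn ℝ ∞ g (e.extend I).target ∧
      (∀ y ∈ (e.extend I).target, 0 < g y) ∧
      ∀ s : Set M, MeasurableSet s → s ⊆ e.source →
        ν s = ∫⁻ y in e.extend I '' s, ENNReal.ofReal (g y)

/-- The system has a smooth positive-volume model. -/
def HasSmoothModel {X : Type} [MeasurableSpace X] (μ : Measure X) (T : X → X) : Prop :=
  ∃ (d : ℕ) (H : Type) (_ : TopologicalSpace H)
    (I : ModelWithCorners ℝ (EuclideanSpace ℝ (Fin d)) H) (M : Type) (_ : TopologicalSpace M)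
    (_ : ChartedSpace H M) (_ : IsManifold I ∞ M) (_ : CompactSpace M) (_ : T2Space M)
    (_ : MeasurableSpace M) (_ : BorelSpace M) (ν : Measure M) (_ : IsProbabilityMeasure ν)
    (S : Diffeomorph I I M M ∞),
    HasSmoothPositiveDensity I M ν ∧ MeasurePreserving S ν ν ∧
    ∃ (X₀ : Set X) (M₀ : Set M) (F : X → M) (G : M → X),
      μ X₀ᶜ = 0 ∧ ν M₀ᶜ = 0 ∧ T '' X₀ = X₀ ∧ S '' M₀ = M₀ ∧
      BijOn F X₀ M₀ ∧ InvOn G F X₀ M₀ ∧ AEMeasurable F μ ∧ AEMeasurable G ν ∧
      μ.map F = ν ∧ ∀ x ∈ X₀, F (T x) = S (F x)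

end Vale.Agent.P109
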